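import Vale.Agent.Lib.P170.Thinning

/-!
Mixed constraint systems: tuples of constraints of two kinds, counted through a recursion on the
set of admissible assignments.  Abstract counting inequalities behind the unit step transfer.
-/

namespace Vale.Agent.Lib.P170

open Finset

section Mixed

variable {X1 X2 X' Y : Type*}

theorem hcount_empty {X : Type*} (sat : Y → X → Prop) (m : ℕ) : hcount sat ∅ m = 0 := by
  unfold hcount
  have : IsEmpty {G : Fin m → X // ∃ σ ∈ (∅ : Set Y), ∀ j, sat σ (G j)} :=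
    ⟨fun G => by
      obtain ⟨σ, hσ, -⟩ := G.2
      exact hσ⟩
  exact Nat.card_of_isEmpty

theorem hcount_zero_of_nonempty {X : Type*} (sat : Y → X → Prop) {A : Set Y} (h : A.Nonempty) :
    hcount sat A 0 = 1 := by
  unfold hcount
  rw [Nat.card_eq_one_iff_unique]
  obtain ⟨σ, hσ⟩ := h
  refine ⟨⟨fun G1 G2 => ?_⟩, ⟨⟨fun j => Fin.elim0 j, σ, hσ, fun j => Fin.elim0 j⟩⟩⟩
  apply Subtype.ext
  funext j
  exact Fin.elim0 j

open scoped Classical in
theorem hcount_le_pow {X : Type*} [Fintype X] (sat : Y → X → Prop) (A : Set Y) (t : ℕ) :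
    hcount sat A t ≤ (Finset.univ.filter (fun x : X => ∃ σ ∈ A, sat σ x)).card ^ t := by
  unfold hcount
  rw [Nat.card_eq_fintype_card, Fintype.card_subtype]
  calc (Finset.univ.filter (fun G : Fin t → X => ∃ σ ∈ A, ∀ j, sat σ (G j))).card
      ≤ (Fintype.piFinset (fun _ : Fin t =>
          Finset.univ.filter (fun x : X => ∃ σ ∈ A, sat σ x))).card := by
        apply Finset.card_le_card
        intro G hG
        obtain ⟨σ, hσ, hs⟩ := (Finset.mem_filter.mp hG).2
        rw [Fintype.mem_piFinset]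
        intro j
        exact Finset.mem_filter.mpr ⟨Finset.mem_univ _, σ, hσ, hs j⟩
    _ = (Finset.univ.filter (fun x : X => ∃ σ ∈ A, sat σ x)).card ^ t := by
        rw [Fintype.card_piFinset]
        simp

theorem hcount_le_card_pow {X : Type*} [Fintype X] (sat : Y → X → Prop) (A : Set Y) (t : ℕ) :
    hcount sat A t ≤ Fintype.card X ^ t := by
  classical
  refine le_trans (hcount_le_pow sat A t) (Nat.pow_le_pow_left ?_ t)
  exact Finset.card_le_univ _

/-- The mixed count: the number of pairs consisting of an `a`-tuple of constraints of the first kind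
and an `i`-tuple of constraints of the second kind that are satisfied by a common `σ ∈ A`; defined
by recursion on `i`. -/
noncomputable def mixN [Fintype X2] (sat1 : Y → X1 → Prop) (sat2 : Y → X2 → Prop) :
    ℕ → ℕ → Set Y → ℕ
  | 0, a, A => hcount sat1 A a
  | i + 1, a, A => ∑ e : X2, mixN sat1 sat2 i a (A ∩ {σ | sat2 σ e})

theorem mixN_zero [Fintype X2] (sat1 : Y → X1 → Prop) (sat2 : Y → X2 → Prop) (a : ℕ)
    (A : Set Y) : mixN sat1 sat2 0 a A = hcount sat1 A a := rfl

theorem mixN_succ_i [Fintype X2] (sat1 : Y → X1 → Prop) (sat2 : Y → X2 → Prop) (i a : ℕ)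
    (A : Set Y) :
    mixN sat1 sat2 (i + 1) a A = ∑ e : X2, mixN sat1 sat2 i a (A ∩ {σ | sat2 σ e}) := rfl

theorem mixN_succ_a [Fintype X1] [Fintype X2] (sat1 : Y → X1 → Prop) (sat2 : Y → X2 → Prop)
    (i a : ℕ) (A : Set Y) :
    mixN sat1 sat2 i (a + 1) A = ∑ x : X1, mixN sat1 sat2 i a (A ∩ {σ | sat1 σ x}) := by
  induction i generalizing A with
  | zero =>
    simp only [mixN_zero]
    exact hcount_succ sat1 A a
  | succ i ih =>
    simp only [mixN_succ_i]
    simp_rw [ih]
    rw [Finset.sum_comm]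
    refine Finset.sum_congr rfl (fun x _ => Finset.sum_congr rfl (fun e _ => ?_))
    rw [Set.inter_right_comm]

theorem mixN_mono [Finite X1] [Fintype X2] (sat1 : Y → X1 → Prop) (sat2 : Y → X2 → Prop)
    (i a : ℕ) {A B : Set Y} (h : A ⊆ B) : mixN sat1 sat2 i a A ≤ mixN sat1 sat2 i a B := by
  induction i generalizing A B with
  | zero => exact hcount_mono sat1 h a
  | succ i ih =>
    simp only [mixN_succ_i]
    exact Finset.sum_le_sum (fun e _ => ih (Set.inter_subset_inter_left _ h))

theorem mixN_empty [Fintype X2] (sat1 : Y → X1 → Prop) (sat2 : Y → X2 → Prop) (i a : ℕ) :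
    mixN sat1 sat2 i a ∅ = 0 := by
  induction i with
  | zero => exact hcount_empty sat1 a
  | succ i ih =>
    simp only [mixN_succ_i, Set.empty_inter, ih]
    simp

theorem mixN_succ_i_le [Finite X1] [Fintype X2] (sat1 : Y → X1 → Prop) (sat2 : Y → X2 → Prop)
    (i a : ℕ) (A : Set Y) :
    mixN sat1 sat2 (i + 1) a A ≤ Fintype.card X2 * mixN sat1 sat2 i a A := by
  rw [mixN_succ_i]
  calc ∑ e : X2, mixN sat1 sat2 i a (A ∩ {σ | sat2 σ e})
      ≤ ∑ _e : X2, mixN sat1 sat2 i a A :=
        Finset.sum_le_sum (fun e _ => mixN_mono sat1 sat2 i a Set.inter_subset_left)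
    _ = Fintype.card X2 * mixN sat1 sat2 i a A := by simp [Finset.card_univ]

theorem mixN_succ_a_le [Fintype X1] [Fintype X2] (sat1 : Y → X1 → Prop) (sat2 : Y → X2 → Prop)
    (i a : ℕ) (A : Set Y) :
    mixN sat1 sat2 i (a + 1) A ≤ Fintype.card X1 * mixN sat1 sat2 i a A := by
  rw [mixN_succ_a]
  calc ∑ x : X1, mixN sat1 sat2 i a (A ∩ {σ | sat1 σ x})
      ≤ ∑ _x : X1, mixN sat1 sat2 i a A :=
        Finset.sum_le_sum (fun x _ => mixN_mono sat1 sat2 i a Set.inter_subset_left)
    _ = Fintype.card X1 * mixN sat1 sat2 i a A := by simp [Finset.card_univ]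

open scoped Classical in
theorem mixN_one_zero [Fintype X2] (sat1 : Y → X1 → Prop) (sat2 : Y → X2 → Prop) (A : Set Y) :
    mixN sat1 sat2 1 0 A = (Finset.univ.filter (fun e : X2 => ∃ σ ∈ A, sat2 σ e)).card := by
  rw [mixN_succ_i, Finset.card_eq_sum_ones, Finset.sum_filter]
  refine Finset.sum_congr rfl (fun e _ => ?_)
  rw [mixN_zero]
  by_cases h : ∃ σ ∈ A, sat2 σ e
  · rw [if_pos h]
    apply hcount_zero_of_nonempty
    obtain ⟨σ, hσ, hs⟩ := h
    exact ⟨σ, hσ, hs⟩
  · rw [if_neg h]
    have : A ∩ {σ | sat2 σ e} = ∅ := by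
      ext σ
      simp only [Set.mem_inter_iff, Set.mem_ofPred_eq, Set.mem_empty_iff_false, iff_false,
        not_and]
      intro hσ hs
      exact h ⟨σ, hσ, hs⟩
    rw [this, hcount_empty]

/-- Lower bound for the lifted count in terms of mixed counts. -/
theorem lift_lower [Fintype X1] [Fintype X2] [Fintype X'] (LS : Y → X' → Prop)
    (sat1 : Y → X1 → Prop) (sat2 : Y → X2 → Prop) (f : X1 ⊕ (X2 × Bool) → X')
    (hf : Function.Injective f)
    (h1 : ∀ σ x, sat1 σ x → LS σ (f (Sum.inl x)))
    (h2 : ∀ σ e s, sat2 σ e → LS σ (f (Sum.inr (e, s)))) (A : Set Y) (m : ℕ) :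
    ∑ ij ∈ antidiagonal m, m.choose ij.1 * (2 ^ ij.2 * mixN sat1 sat2 ij.2 ij.1 A)
      ≤ hcount LS A m := by
  classical
  induction m generalizing A with
  | zero =>
    simp only [Finset.Nat.antidiagonal_zero, sum_singleton, Nat.choose_zero_right, pow_zero,
      one_mul, mixN_zero]
    exact le_of_eq (hcount_zero_eq LS sat1 A)
  | succ m ih =>
    have key := sum_antidiagonal_choose_succ_mul
      (fun i j => 2 ^ j * mixN sat1 sat2 j i A) m
    simp only [Nat.cast_id] at key
    rw [key, hcount_succ]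
    have hstep1 : ∑ s : X1 ⊕ (X2 × Bool), hcount LS (A ∩ {σ | LS σ (f s)}) m
        ≤ ∑ x' : X', hcount LS (A ∩ {σ | LS σ x'}) m := by
      have := Finset.sum_le_sum_of_subset_of_nonneg
        (f := fun x' : X' => hcount LS (A ∩ {σ | LS σ x'}) m)
        (Finset.subset_univ (Finset.univ.map ⟨f, hf⟩)) (fun _ _ _ => Nat.zero_le _)
      rw [Finset.sum_map] at this
      exact this
    refine le_trans ?_ hstep1
    rw [Fintype.sum_sum_type, Fintype.sum_prod_type]
    have hA : ∑ ij ∈ antidiagonal m,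
        m.choose ij.2 * (2 ^ ij.2 * mixN sat1 sat2 ij.2 (ij.1 + 1) A)
        ≤ ∑ x : X1, hcount LS (A ∩ {σ | LS σ (f (Sum.inl x))}) m := by
      calc ∑ ij ∈ antidiagonal m,
            m.choose ij.2 * (2 ^ ij.2 * mixN sat1 sat2 ij.2 (ij.1 + 1) A)
          = ∑ x : X1, ∑ ij ∈ antidiagonal m,
              m.choose ij.1 * (2 ^ ij.2 * mixN sat1 sat2 ij.2 ij.1 (A ∩ {σ | sat1 σ x})) := by
            rw [Finset.sum_comm]
            refine Finset.sum_congr rfl (fun ij hij => ?_)
            rw [mixN_succ_a, Finset.mul_sum, Finset.mul_sum]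
            have : m.choose ij.1 = m.choose ij.2 :=
              Nat.choose_symm_of_eq_add (Finset.HasAntidiagonal.mem_antidiagonal.mp hij).symm
            rw [this]
        _ ≤ ∑ x : X1, hcount LS (A ∩ {σ | sat1 σ x}) m :=
            Finset.sum_le_sum (fun x _ => ih _)
        _ ≤ ∑ x : X1, hcount LS (A ∩ {σ | LS σ (f (Sum.inl x))}) m := by
            refine Finset.sum_le_sum (fun x _ => hcount_mono LS ?_ m)
            exact Set.inter_subset_inter_right _ (fun σ hσ => h1 σ x hσ)
    have hB : ∑ ij ∈ antidiagonal m,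
        m.choose ij.1 * (2 ^ (ij.2 + 1) * mixN sat1 sat2 (ij.2 + 1) ij.1 A)
        ≤ ∑ e : X2, ∑ s : Bool, hcount LS (A ∩ {σ | LS σ (f (Sum.inr (e, s)))}) m := by
      calc ∑ ij ∈ antidiagonal m,
            m.choose ij.1 * (2 ^ (ij.2 + 1) * mixN sat1 sat2 (ij.2 + 1) ij.1 A)
          = ∑ e : X2, 2 * ∑ ij ∈ antidiagonal m,
              m.choose ij.1 * (2 ^ ij.2 * mixN sat1 sat2 ij.2 ij.1 (A ∩ {σ | sat2 σ e})) := by
            simp_rw [Finset.mul_sum]
            rw [Finset.sum_comm]
            refine Finset.sum_congr rfl (fun ij _ => ?_)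
            rw [mixN_succ_i, Finset.mul_sum, Finset.mul_sum]
            refine Finset.sum_congr rfl (fun e _ => ?_)
            ring
        _ ≤ ∑ e : X2, 2 * hcount LS (A ∩ {σ | sat2 σ e}) m :=
            Finset.sum_le_sum (fun e _ => Nat.mul_le_mul_left 2 (ih _))
        _ ≤ ∑ e : X2, ∑ s : Bool, hcount LS (A ∩ {σ | LS σ (f (Sum.inr (e, s)))}) m := by
            refine Finset.sum_le_sum (fun e _ => ?_)
            have : 2 * hcount LS (A ∩ {σ | sat2 σ e}) m
                = ∑ _s : Bool, hcount LS (A ∩ {σ | sat2 σ e}) m := by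
              simp [Finset.card_univ]
            rw [this]
            refine Finset.sum_le_sum (fun s _ => hcount_mono LS ?_ m)
            exact Set.inter_subset_inter_right _ (fun σ hσ => h2 σ e s hσ)
    calc _ ≤ ∑ e : X2, ∑ s : Bool, hcount LS (A ∩ {σ | LS σ (f (Sum.inr (e, s)))}) m
            + ∑ x : X1, hcount LS (A ∩ {σ | LS σ (f (Sum.inl x))}) m := Nat.add_le_add hB hA
      _ = _ := by rw [add_comm]

open scoped Classical in
/-- The step inequality in counting form: adding one constraint of the second kind costs at most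
`t` constraints of the first kind, up to the error term `B2`. -/
theorem step_count [Fintype X1] [Fintype X2] (sat1 : Y → X1 → Prop) (sat2 : Y → X2 → Prop)
    (t B2 K0 : ℕ)
    (hH : ∀ A : Set Y, A.Nonempty →
      (Fintype.card X2 ≤ (Finset.univ.filter (fun e : X2 => ∃ σ ∈ A, sat2 σ e)).card + B2 ∨
        (Finset.univ.filter (fun x : X1 => ∃ σ ∈ A, sat1 σ x)).card + K0 ≤ Fintype.card X1))
    (ht : 2 * (Fintype.card X1 - K0) ^ t ≤ Fintype.card X1 ^ t) :
    ∀ (i a : ℕ) (A : Set Y),
      2 * Fintype.card X2 * mixN sat1 sat2 i (a + t) A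
        ≤ Fintype.card X1 ^ t * mixN sat1 sat2 (i + 1) a A
          + (Fintype.card X2 + B2) * Fintype.card X1 ^ t * mixN sat1 sat2 i a A := by
  intro i
  induction i with
  | zero =>
    intro a
    induction a with
    | zero =>
      intro A
      rcases Set.eq_empty_or_nonempty A with hA | hA
      · rw [hA, mixN_empty, mixN_empty, mixN_empty]
        simp
      · rw [mixN_one_zero, mixN_zero, mixN_zero, hcount_zero_of_nonempty sat1 hA, zero_add]
        have hle1 := hcount_le_pow sat1 A t
        have hle2 := hcount_le_card_pow sat1 A t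
        rcases hH A hA with h | h
        · calc 2 * Fintype.card X2 * hcount sat1 A t
              ≤ 2 * Fintype.card X2 * Fintype.card X1 ^ t := Nat.mul_le_mul_left _ hle2
            _ ≤ Fintype.card X1 ^ t
                  * (Finset.univ.filter (fun e : X2 => ∃ σ ∈ A, sat2 σ e)).card
                + (Fintype.card X2 + B2) * Fintype.card X1 ^ t * 1 := by nlinarith
        · have h3 : (Finset.univ.filter (fun x : X1 => ∃ σ ∈ A, sat1 σ x)).card
              ≤ Fintype.card X1 - K0 := by omega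
          have h4 : hcount sat1 A t ≤ (Fintype.card X1 - K0) ^ t :=
            le_trans hle1 (Nat.pow_le_pow_left h3 t)
          calc 2 * Fintype.card X2 * hcount sat1 A t
              ≤ 2 * Fintype.card X2 * (Fintype.card X1 - K0) ^ t := Nat.mul_le_mul_left _ h4
            _ = Fintype.card X2 * (2 * (Fintype.card X1 - K0) ^ t) := by ring
            _ ≤ Fintype.card X2 * Fintype.card X1 ^ t := Nat.mul_le_mul_left _ ht
            _ ≤ Fintype.card X1 ^ t
                  * (Finset.univ.filter (fun e : X2 => ∃ σ ∈ A, sat2 σ e)).card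
                + (Fintype.card X2 + B2) * Fintype.card X1 ^ t * 1 := by nlinarith
    | succ a iha =>
      intro A
      have e1 : a + 1 + t = (a + t) + 1 := by omega
      rw [e1, mixN_succ_a, mixN_succ_a sat1 sat2 (0 + 1) a, mixN_succ_a sat1 sat2 0 a]
      rw [Finset.mul_sum, Finset.mul_sum, Finset.mul_sum, ← Finset.sum_add_distrib]
      exact Finset.sum_le_sum (fun x _ => iha _)
  | succ i ih =>
    intro a A
    rw [mixN_succ_i sat1 sat2 i (a + t), mixN_succ_i sat1 sat2 (i + 1) a,
      mixN_succ_i sat1 sat2 i a]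
    rw [Finset.mul_sum, Finset.mul_sum, Finset.mul_sum, ← Finset.sum_add_distrib]
    exact Finset.sum_le_sum (fun e _ => ih a _)

end Mixed

end Vale.Agent.Lib.P170
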