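import Vale.Agent.Lib.P170.Restrict
import Vale.Agent.Lib.P170.Mixed

/-!
The backbone of a set of assignments and the clauses violated by all of its members.
-/

namespace Vale.Agent.Lib.P170

open Finset

open scoped Classical in
/-- The backbone of a set `A` of assignments: the variables on which all members of `A` agree. -/
noncomputable def backbone {n : ℕ} (A : Set (Fin n → Bool)) : Finset (Fin n) :=
  Finset.univ.filter (fun v => ∀ σ ∈ A, ∀ τ ∈ A, σ v = τ v)

open scoped Classical in
/-- The clauses of width `j` violated by every member of a nonempty set `A` of assignments are in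
bijection with the `j`-subsets of the backbone of `A`. -/
theorem card_killed (j n : ℕ) (A : Set (Fin n → Bool)) (hA : A.Nonempty) :
    (Finset.univ.filter (fun C : Clause j n => ∀ σ ∈ A, ¬ ClauseSat σ C)).card
      = (backbone A).card.choose j := by
  obtain ⟨σ0, hσ0⟩ := hA
  rw [← Finset.card_powersetCard]
  symm
  refine Finset.card_bij
    (fun S hS => (⟨(S, S.filter (fun i => σ0 i = true)),
      ⟨(Finset.mem_powersetCard.mp hS).2, Finset.filter_subset _ _⟩⟩ : Clause j n)) ?_ ?_ ?_
  · intro S hS
    have hSb : S ⊆ backbone A := (Finset.mem_powersetCard.mp hS).1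
    simp only [Finset.mem_filter, Finset.mem_univ, true_and]
    rintro σ hσ ⟨i, hi, hiff⟩
    simp only [Finset.mem_filter, not_and] at hiff
    have hbb : σ i = σ0 i := (Finset.mem_filter.mp (hSb hi)).2 σ hσ σ0 hσ0
    rw [hbb] at hiff
    by_cases h0 : σ0 i = true
    · exact (hiff.mp h0) hi h0
    · exact h0 (hiff.mpr (fun _ => h0))
  · intro S _ T _ hST
    exact congrArg (fun E : Clause j n => E.1.1) hST
  · intro C hC
    have hC' : ∀ σ ∈ A, ¬ ClauseSat σ C := (Finset.mem_filter.mp hC).2
    have hval : ∀ σ ∈ A, ∀ i ∈ C.1.1, (σ i = true ↔ i ∈ C.1.2) := by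
      intro σ hσ i hi
      by_contra hne
      apply hC' σ hσ
      refine ⟨i, hi, ?_⟩
      constructor
      · intro h1 h2
        exact hne ⟨fun _ => h2, fun _ => h1⟩
      · intro h2
        by_contra h1
        exact hne ⟨fun h => absurd h h1, fun h => absurd h h2⟩
    refine ⟨C.1.1, Finset.mem_powersetCard.mpr ⟨?_, C.2.1⟩, ?_⟩
    · intro i hi
      refine Finset.mem_filter.mpr ⟨Finset.mem_univ _, ?_⟩
      intro σ hσ τ hτ
      have h1 := hval σ hσ i hi
      have h2 := hval τ hτ i hi
      by_cases hN : i ∈ C.1.2
      · rw [h1.mpr hN, h2.mpr hN]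
      · have e1 : σ i = false := by
          cases hs : σ i
          · rfl
          · exact absurd (h1.mp hs) hN
        have e2 : τ i = false := by
          cases hs : τ i
          · rfl
          · exact absurd (h2.mp hs) hN
        rw [e1, e2]
    · apply Subtype.ext
      apply Prod.ext
      · rfl
      · show C.1.1.filter (fun i => σ0 i = true) = C.1.2
        ext i
        simp only [Finset.mem_filter]
        constructor
        · rintro ⟨hi, hσ⟩
          exact (hval σ0 hσ0 i hi).mp hσ
        · intro hiN
          exact ⟨C.2.2 hiN, (hval σ0 hσ0 i (C.2.2 hiN)).mpr hiN⟩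

open scoped Classical in
/-- The dichotomy used by the step inequality: for a nonempty set `A` of assignments and a
threshold `b0`, either few clauses of width `j2` are violated by all of `A`, or many clauses of
width `j1` are. -/
theorem backbone_dichotomy (j1 j2 n b0 : ℕ) (A : Set (Fin n → Bool)) (hA : A.Nonempty) :
    Fintype.card (Clause j2 n)
        ≤ (Finset.univ.filter (fun e : Clause j2 n => ∃ σ ∈ A, ClauseSat σ e)).card
          + b0.choose j2 ∨
      (Finset.univ.filter (fun x : Clause j1 n => ∃ σ ∈ A, ClauseSat σ x)).card + b0.choose j1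
        ≤ Fintype.card (Clause j1 n) := by
  have hsplit : ∀ j : ℕ,
      (Finset.univ.filter (fun e : Clause j n => ∃ σ ∈ A, ClauseSat σ e)).card
        + (backbone A).card.choose j = Fintype.card (Clause j n) := by
    intro j
    rw [← card_killed j n A hA, ← Finset.card_univ]
    have h := Finset.card_filter_add_card_filter_not (s := (Finset.univ : Finset (Clause j n)))
      (fun e : Clause j n => ∃ σ ∈ A, ClauseSat σ e)
    rw [← h]
    congr 2
    ext e
    simp
  rcases le_total (backbone A).card b0 with hb | hb
  · left
    rw [← hsplit j2]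
    exact Nat.add_le_add_left (Nat.choose_le_choose j2 hb) _
  · right
    rw [← hsplit j1]
    exact Nat.add_le_add_left (Nat.choose_le_choose j1 hb) _

end Vale.Agent.Lib.P170
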