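import Vale.Agent.Lib.P170.Tail

/-!
The upper tail of the binomial weights and binomial mixtures of nonincreasing sequences.
-/

namespace Vale.Agent.Lib.P170

open Finset

/-- Chebyshev bound for the upper tail of the binomial weights. -/
theorem tail_binW_upper {m : ℕ} {p : ℝ} (h0 : 0 ≤ p) (h1 : p ≤ 1) {j0 : ℕ}
    (hj : (m : ℝ) * p < j0) :
    ∑ j ∈ (range (m + 1)).filter (fun j => j0 < j), binW m p j
      ≤ m * p * (1 - p) / ((j0 : ℝ) - m * p) ^ 2 := by
  have hd : (0 : ℝ) < (j0 : ℝ) - m * p := by linarith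
  rw [le_div_iff₀ (by positivity), ← var_binW, Finset.sum_mul]
  calc ∑ j ∈ (range (m + 1)).filter (fun j => j0 < j), binW m p j * ((j0 : ℝ) - m * p) ^ 2
      ≤ ∑ j ∈ (range (m + 1)).filter (fun j => j0 < j), ((m : ℝ) * p - j) ^ 2 * binW m p j := by
        refine Finset.sum_le_sum (fun j hjm => ?_)
        have hjj : (j0 : ℝ) ≤ j := by
          exact_mod_cast (Finset.mem_filter.mp hjm).2.le
        have hb := binW_nonneg h0 h1 (m := m) j
        have hsq : ((j0 : ℝ) - m * p) ^ 2 ≤ ((m : ℝ) * p - j) ^ 2 := by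
          have h2 : ((j0 : ℝ) - m * p) ^ 2 ≤ ((j : ℝ) - m * p) ^ 2 := by
            apply pow_le_pow_left₀ hd.le
            linarith
          have e : ((m : ℝ) * p - j) ^ 2 = ((j : ℝ) - m * p) ^ 2 := by ring
          rw [e]
          exact h2
        calc binW m p j * ((j0 : ℝ) - m * p) ^ 2 ≤ binW m p j * ((m : ℝ) * p - j) ^ 2 :=
              mul_le_mul_of_nonneg_left hsq hb
          _ = ((m : ℝ) * p - j) ^ 2 * binW m p j := by ring
    _ ≤ ∑ j ∈ range (m + 1), ((m : ℝ) * p - j) ^ 2 * binW m p j := by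
        refine Finset.sum_le_sum_of_subset_of_nonneg (Finset.filter_subset _ _) (fun j _ _ => ?_)
        have hb := binW_nonneg h0 h1 (m := m) j
        positivity

/-- A binomial mixture of a nonincreasing sequence with values in `[0, 1]` is at least its value
at `j0` minus the upper tail beyond `j0`. -/
theorem mix_ge {m : ℕ} {p : ℝ} (h0 : 0 ≤ p) (h1 : p ≤ 1) (s : ℕ → ℝ)
    (hs0 : ∀ j, 0 ≤ s j) (hs1 : ∀ j, s j ≤ 1) (hanti : ∀ j j', j ≤ j' → s j' ≤ s j) (j0 : ℕ) :
    s j0 - ∑ j ∈ (range (m + 1)).filter (fun j => j0 < j), binW m p j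
      ≤ ∑ j ∈ range (m + 1), binW m p j * s j := by
  rw [← Finset.sum_filter_add_sum_filter_not (range (m + 1)) (fun j => j0 < j)
    (fun j => binW m p j * s j)]
  have hT0 : 0 ≤ ∑ j ∈ (range (m + 1)).filter (fun j => j0 < j), binW m p j :=
    Finset.sum_nonneg (fun j _ => binW_nonneg h0 h1 j)
  have hA : 0 ≤ ∑ j ∈ (range (m + 1)).filter (fun j => j0 < j), binW m p j * s j :=
    Finset.sum_nonneg (fun j _ => mul_nonneg (binW_nonneg h0 h1 j) (hs0 j))
  have hsplit : ∑ j ∈ (range (m + 1)).filter (fun j => j0 < j), binW m p j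
      + ∑ j ∈ (range (m + 1)).filter (fun j => ¬ j0 < j), binW m p j = 1 := by
    rw [Finset.sum_filter_add_sum_filter_not (range (m + 1)) (fun j => j0 < j)
      (fun j => binW m p j), sum_binW]
  have hB : s j0 * ∑ j ∈ (range (m + 1)).filter (fun j => ¬ j0 < j), binW m p j
      ≤ ∑ j ∈ (range (m + 1)).filter (fun j => ¬ j0 < j), binW m p j * s j := by
    rw [Finset.mul_sum]
    refine Finset.sum_le_sum (fun j hj => ?_)
    have hle : s j0 ≤ s j := hanti j j0 (not_lt.mp (Finset.mem_filter.mp hj).2)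
    calc s j0 * binW m p j = binW m p j * s j0 := by ring
      _ ≤ binW m p j * s j := mul_le_mul_of_nonneg_left hle (binW_nonneg h0 h1 j)
  have hC : s j0 * ∑ j ∈ (range (m + 1)).filter (fun j => j0 < j), binW m p j
      ≤ ∑ j ∈ (range (m + 1)).filter (fun j => j0 < j), binW m p j :=
    mul_le_of_le_one_left hT0 (hs1 j0)
  have hD : s j0 * ∑ j ∈ (range (m + 1)).filter (fun j => ¬ j0 < j), binW m p j
      = s j0 - s j0 * ∑ j ∈ (range (m + 1)).filter (fun j => j0 < j), binW m p j := by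
    have e : ∑ j ∈ (range (m + 1)).filter (fun j => ¬ j0 < j), binW m p j
        = 1 - ∑ j ∈ (range (m + 1)).filter (fun j => j0 < j), binW m p j := by linarith
    rw [e]
    ring
  linarith

end Vale.Agent.Lib.P170
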