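import Vale.Agent.Lib.P170.BlockDefs

/-!
The arithmetic behind the comparison of random `(k + 1)`-SAT on `p * N` variables with the block
systems.
-/

namespace Vale.Agent.Lib.P170

open Finset

/-- `x^j ≤ x (x - 1) ... (x - j + 1) + C(j, 2) x^(j - 1)`. -/
theorem pow_le_descFactorial_add (x j : ℕ) :
    x ^ j ≤ x.descFactorial j + j.choose 2 * x ^ (j - 1) := by
  induction j with
  | zero => simp
  | succ j ih =>
    rcases Nat.eq_zero_or_pos j with h0 | h0
    · subst h0
      simp
    have hch : (j + 1).choose 2 = j.choose 2 + j := by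
      rw [Nat.choose_succ_succ, Nat.choose_one_right]
      ring
    have hpow : x * x ^ (j - 1) = x ^ j := by
      rw [← pow_succ']
      congr 1
      omega
    have step : x ^ (j + 1) ≤ x * x.descFactorial j + j.choose 2 * x ^ j := by
      calc x ^ (j + 1) = x * x ^ j := pow_succ' x j
        _ ≤ x * (x.descFactorial j + j.choose 2 * x ^ (j - 1)) := Nat.mul_le_mul_left x ih
        _ = x * x.descFactorial j + j.choose 2 * (x * x ^ (j - 1)) := by ring
        _ = x * x.descFactorial j + j.choose 2 * x ^ j := by rw [hpow]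
    rw [Nat.add_sub_cancel, Nat.descFactorial_succ, hch]
    rcases Nat.lt_or_ge x j with hlt | hge
    · rw [Nat.descFactorial_of_lt hlt] at step ⊢
      calc x ^ (j + 1) ≤ x * 0 + j.choose 2 * x ^ j := step
        _ ≤ (x - j) * 0 + (j.choose 2 + j) * x ^ j := by
          rw [mul_zero, mul_zero, zero_add, zero_add]
          exact Nat.mul_le_mul_right _ (Nat.le_add_right _ _)
    · have hsplit : x * x.descFactorial j = (x - j) * x.descFactorial j + j * x.descFactorial j := by
        rw [← add_mul, Nat.sub_add_cancel hge]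
      have hD : j * x.descFactorial j ≤ j * x ^ j :=
        Nat.mul_le_mul_left j (Nat.descFactorial_le_pow x j)
      calc x ^ (j + 1) ≤ x * x.descFactorial j + j.choose 2 * x ^ j := step
        _ = (x - j) * x.descFactorial j + j * x.descFactorial j + j.choose 2 * x ^ j := by
          rw [hsplit]
        _ ≤ (x - j) * x.descFactorial j + j * x ^ j + j.choose 2 * x ^ j := by
          exact Nat.add_le_add_right (Nat.add_le_add_left hD _) _
        _ = (x - j) * x.descFactorial j + (j.choose 2 + j) * x ^ j := by ring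

/-- Auxiliary form of the next inequality with falling factorials. -/
theorem arith_descFactorial_mul_pow_le (K B n : ℕ) (h : B ≤ n) :
    B.descFactorial K * n ^ K ≤ B ^ K * n.descFactorial K := by
  induction K with
  | zero => simp
  | succ K ih =>
    rw [Nat.descFactorial_succ, Nat.descFactorial_succ, pow_succ, pow_succ]
    have h1 : (B - K) * n ≤ B * (n - K) := by
      rcases Nat.lt_or_ge B K with hlt | hge
      · rw [Nat.sub_eq_zero_of_le hlt.le, zero_mul]
        exact Nat.zero_le _
      · have hKn : K ≤ n := hge.trans h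
        rw [Nat.sub_mul, Nat.mul_sub]
        have : B * K ≤ K * n := by
          rw [mul_comm]
          exact Nat.mul_le_mul_left K h
        omega
    calc (B - K) * B.descFactorial K * (n ^ K * n)
        = ((B - K) * n) * (B.descFactorial K * n ^ K) := by ring
      _ ≤ (B * (n - K)) * (B ^ K * n.descFactorial K) := Nat.mul_le_mul h1 ih
      _ = B ^ K * B * ((n - K) * n.descFactorial K) := by ring

/-- `C(B, K) n^K ≤ B^K C(n, K)` for `B ≤ n`. -/
theorem choose_mul_pow_le (K B n : ℕ) (h : B ≤ n) : B.choose K * n ^ K ≤ B ^ K * n.choose K := by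
  have h1 := arith_descFactorial_mul_pow_le K B n h
  rw [Nat.descFactorial_eq_factorial_mul_choose, Nat.descFactorial_eq_factorial_mul_choose] at h1
  have h2 : K.factorial * (B.choose K * n ^ K) ≤ K.factorial * (B ^ K * n.choose K) := by
    calc K.factorial * (B.choose K * n ^ K) = K.factorial * B.choose K * n ^ K := by ring
      _ ≤ B ^ K * (K.factorial * n.choose K) := h1
      _ = K.factorial * (B ^ K * n.choose K) := by ring
  exact Nat.le_of_mul_le_mul_left h2 (Nat.factorial_pos K)

/-- The power mean inequality for natural numbers. -/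
theorem sum_pow_le_card_pow {p : ℕ} (b : Fin p → ℕ) (K : ℕ) (hK : 1 ≤ K) :
    (∑ i, b i) ^ K ≤ p ^ (K - 1) * ∑ i, b i ^ K := by
  obtain ⟨n, rfl⟩ : ∃ n, K = n + 1 := ⟨K - 1, by omega⟩
  have h := pow_sum_le_card_mul_sum_pow (s := (Finset.univ : Finset (Fin p))) (f := b)
    (fun i _ => Nat.zero_le _) n
  rw [Finset.card_univ, Fintype.card_fin] at h
  rw [Nat.add_sub_cancel]
  exact_mod_cast h

/-- Twice a binomial coefficient `C(n + 1, 2)`. -/
theorem arith_two_mul_choose_two (n : ℕ) : 2 * (n + 1).choose 2 = (n + 1) * n := by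
  induction n with
  | zero => simp
  | succ n ih =>
    rw [Nat.choose_succ_succ, Nat.choose_one_right, mul_add, ih]
    ring

/-- The polynomial core of the single block inequality, in abstract atoms. -/
theorem arith_core (X x Nm N F KK kk C c a a' A A' P : ℕ)
    (H1 : X * x * x ≤ KK * F * a + C * (X * x)) (H2 : X * x ≤ F * a' + c * X)
    (H3 : KK * F * A ≤ Nm * N * N) (H4 : F * A' ≤ Nm * N) (H5 : X ≤ Nm) (hx : x ≤ N)
    (H6 : 2 * C = KK * kk) (H7 : 6 ≤ KK * F) (H8 : 4 ≤ P) :
    (X * x * x) * (P * 2 * A + 2 * kk * (P * A') + C * c * Nm)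
      ≤ (P * 2) * (Nm * N * N) * (a + 2 * kk * a' + C * c * Nm) := by
  have hpos : 0 < KK * F := by omega
  apply Nat.le_of_mul_le_mul_left _ hpos
  have t1 : X * x * x ≤ KK * F * a + C * (F * a' + c * Nm) := by
    calc X * x * x ≤ KK * F * a + C * (X * x) := H1
      _ ≤ KK * F * a + C * (F * a' + c * X) :=
        Nat.add_le_add_left (Nat.mul_le_mul_left C H2) _
      _ ≤ KK * F * a + C * (F * a' + c * Nm) :=
        Nat.add_le_add_left (Nat.mul_le_mul_left C
          (Nat.add_le_add_left (Nat.mul_le_mul_left c H5) _)) _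
  have t2 : (X * x * x) * (Nm * N) ≤ (F * a' + c * Nm) * (Nm * N * N) := by
    calc (X * x * x) * (Nm * N) = (X * x) * (x * (Nm * N)) := by ring
      _ ≤ (F * a' + c * X) * (N * (Nm * N)) :=
        Nat.mul_le_mul H2 (Nat.mul_le_mul_right _ hx)
      _ ≤ (F * a' + c * Nm) * (N * (Nm * N)) :=
        Nat.mul_le_mul_right _ (Nat.add_le_add_left (Nat.mul_le_mul_left c H5) _)
      _ = (F * a' + c * Nm) * (Nm * N * N) := by ring
  have t3 : X * x * x ≤ Nm * N * N := Nat.mul_le_mul (Nat.mul_le_mul H5 hx) hx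
  have hC : C ≤ kk * KK := by
    have : C ≤ 2 * C := Nat.le_mul_of_pos_left C (by norm_num)
    rw [H6, mul_comm KK kk] at this
    exact this
  have hPG : 6 * P + KK * F ≤ 2 * P * (KK * F) := by
    have e1 : 6 * P ≤ P * (KK * F) := by
      rw [mul_comm 6 P]
      exact Nat.mul_le_mul_left P H7
    have e2 : KK * F ≤ P * (KK * F) := Nat.le_mul_of_pos_left _ (by omega)
    calc 6 * P + KK * F ≤ P * (KK * F) + P * (KK * F) := Nat.add_le_add e1 e2
      _ = 2 * P * (KK * F) := by ring
  -- the three pieces of the left side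
  have s1 : (X * x * x) * (P * 2) * (KK * F * A)
      ≤ (KK * F * a + C * (F * a' + c * Nm)) * (P * 2) * (Nm * N * N) :=
    Nat.mul_le_mul (Nat.mul_le_mul_right _ t1) H3
  have s2 : 2 * kk * P * KK * ((X * x * x) * (F * A'))
      ≤ 2 * kk * P * KK * ((F * a' + c * Nm) * (Nm * N * N)) :=
    Nat.mul_le_mul_left _ ((Nat.mul_le_mul_left _ H4).trans t2)
  have s3 : KK * F * (X * x * x) * (C * c * Nm) ≤ KK * F * (Nm * N * N) * (C * c * Nm) :=
    Nat.mul_le_mul_right _ (Nat.mul_le_mul_left _ t3)
  -- comparison of the coefficients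
  have c1 : 2 * P * C * (F * a') + 2 * kk * P * KK * (F * a') ≤ 4 * kk * P * KK * (F * a') := by
    have : 2 * P * C * (F * a') ≤ 2 * P * (kk * KK) * (F * a') :=
      Nat.mul_le_mul_right _ (Nat.mul_le_mul_left _ hC)
    calc 2 * P * C * (F * a') + 2 * kk * P * KK * (F * a')
        ≤ 2 * P * (kk * KK) * (F * a') + 2 * kk * P * KK * (F * a') :=
          Nat.add_le_add_right this _
      _ = 4 * kk * P * KK * (F * a') := by ring
  have c2 : 2 * P * C * (c * Nm) + 2 * kk * P * KK * (c * Nm) + KK * F * (C * c * Nm)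
      ≤ 2 * P * (KK * F) * (C * c * Nm) := by
    have e : 2 * kk * P * KK * (c * Nm) = 4 * P * C * (c * Nm) := by
      calc 2 * kk * P * KK * (c * Nm) = P * (KK * kk) * (2 * (c * Nm)) := by ring
        _ = P * (2 * C) * (2 * (c * Nm)) := by rw [H6]
        _ = 4 * P * C * (c * Nm) := by ring
    calc 2 * P * C * (c * Nm) + 2 * kk * P * KK * (c * Nm) + KK * F * (C * c * Nm)
        = (6 * P + KK * F) * (C * c * Nm) := by
          rw [e]
          ring
      _ ≤ 2 * P * (KK * F) * (C * c * Nm) := Nat.mul_le_mul_right _ hPG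
  calc KK * F * ((X * x * x) * (P * 2 * A + 2 * kk * (P * A') + C * c * Nm))
      = (X * x * x) * (P * 2) * (KK * F * A) + 2 * kk * P * KK * ((X * x * x) * (F * A'))
          + KK * F * (X * x * x) * (C * c * Nm) := by ring
    _ ≤ (KK * F * a + C * (F * a' + c * Nm)) * (P * 2) * (Nm * N * N)
          + 2 * kk * P * KK * ((F * a' + c * Nm) * (Nm * N * N))
          + KK * F * (Nm * N * N) * (C * c * Nm) :=
        Nat.add_le_add (Nat.add_le_add s1 s2) s3
    _ = (Nm * N * N) * (2 * P * (KK * F) * a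
          + (2 * P * C * (F * a') + 2 * kk * P * KK * (F * a'))
          + (2 * P * C * (c * Nm) + 2 * kk * P * KK * (c * Nm) + KK * F * (C * c * Nm))) := by
        ring
    _ ≤ (Nm * N * N) * (2 * P * (KK * F) * a + 4 * kk * P * KK * (F * a')
          + 2 * P * (KK * F) * (C * c * Nm)) :=
        Nat.mul_le_mul_left _ (Nat.add_le_add (Nat.add_le_add_left c1 _) c2)
    _ = KK * F * ((P * 2) * (Nm * N * N) * (a + 2 * kk * a' + C * c * Nm)) := by ring

/-- The single block inequality: a block constraint is violated by all members of a set of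
assignments with `x ≤ N` frozen variables with probability at least `(x / (2 N))^(k + 1)`. -/
theorem block_arith_one (k N x : ℕ) (hk : 2 ≤ k) (hx : x ≤ N) :
    x ^ (k + 1) * Fintype.card (BlockCon k N)
      ≤ (2 * N) ^ (k + 1) * (x.choose (k + 1) + 2 * k * x.choose k + botCount k N) := by
  obtain ⟨m, rfl⟩ : ∃ m, k = m + 1 := ⟨k - 1, by omega⟩
  have hm : 1 ≤ m := by omega
  rw [card_blockCon, card_clause, card_clause]
  unfold botCount
  rw [Nat.add_sub_cancel]
  -- the facts
  have h1 := pow_le_descFactorial_add x (m + 1 + 1)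
  have h2 := pow_le_descFactorial_add x (m + 1)
  rw [Nat.add_sub_cancel, Nat.descFactorial_eq_factorial_mul_choose] at h1 h2
  have h3 := Nat.descFactorial_le_pow N (m + 1 + 1)
  have h4 := Nat.descFactorial_le_pow N (m + 1)
  rw [Nat.descFactorial_eq_factorial_mul_choose] at h3 h4
  have hfac : (m + 1 + 1).factorial = (m + 1 + 1) * (m + 1).factorial := Nat.factorial_succ _
  have hch : (m + 1 + 1).choose 2 = (m + 1).choose 2 + (m + 1) := by
    rw [Nat.choose_succ_succ, Nat.choose_one_right]
    ring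
  have h6 : 2 * ((m + 1).choose 2 + (m + 1)) = (m + 1 + 1) * (m + 1) := by
    rw [← hch]
    exact arith_two_mul_choose_two (m + 1)
  have h7 : 6 ≤ (m + 1 + 1) * (m + 1).factorial := by
    rw [← hfac]
    have : (3 : ℕ).factorial ≤ (m + 1 + 1).factorial := Nat.factorial_le (by omega)
    have h3f : (3 : ℕ).factorial = 6 := by decide
    omega
  have h8 : 4 ≤ 2 ^ (m + 1) := by
    have : 2 ^ 2 ≤ 2 ^ (m + 1) := Nat.pow_le_pow_right (by norm_num) (by omega)
    omega
  have h5 : x ^ m ≤ N ^ m := Nat.pow_le_pow_left hx m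
  rw [hfac] at h1 h3
  rw [hch] at h1 ⊢
  -- the powers in terms of the atoms
  have px1 : x ^ (m + 1) = x ^ m * x := pow_succ x m
  have px2 : x ^ (m + 1 + 1) = x ^ m * x * x := by rw [pow_succ, pow_succ]
  have pN1 : N ^ (m + 1) = N ^ m * N := pow_succ N m
  have pN2 : N ^ (m + 1 + 1) = N ^ m * N * N := by rw [pow_succ, pow_succ]
  have p2 : (2 : ℕ) ^ (m + 1 + 1) = 2 ^ (m + 1) * 2 := pow_succ 2 (m + 1)
  rw [px2, px1] at h1
  rw [px1] at h2
  rw [pN2] at h3
  rw [pN1] at h4
  rw [mul_pow, px2, pN2, p2]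
  have key := arith_core (x ^ m) x (N ^ m) N (m + 1).factorial (m + 1 + 1) (m + 1)
    ((m + 1).choose 2 + (m + 1)) ((m + 1).choose 2) (x.choose (m + 1 + 1)) (x.choose (m + 1))
    (N.choose (m + 1 + 1)) (N.choose (m + 1)) (2 ^ (m + 1)) h1 h2 h3 h4 h5 hx h6 h7 h8
  exact key

/-- The comparison inequality for `p` blocks. -/
theorem block_arith (k p N : ℕ) (hk : 2 ≤ k) (b : Fin p → ℕ) (hb : ∀ i, b i ≤ N) (B : ℕ)
    (hB : B ≤ ∑ i, b i) :
    p * Fintype.card (BlockCon k N) * B.choose (k + 1)
      ≤ 2 ^ (k + 1) * (p * N).choose (k + 1)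
        * ∑ i, ((b i).choose (k + 1) + 2 * k * (b i).choose k + botCount k N) := by
  have hsum : ∑ i, b i ≤ p * N := by
    calc ∑ i, b i ≤ ∑ _i : Fin p, N := Finset.sum_le_sum (fun i _ => hb i)
      _ = p * N := by simp
  have hBn : B ≤ p * N := hB.trans hsum
  rcases Nat.eq_zero_or_pos (p * N) with h0 | h0
  · have hB0 : B = 0 := by omega
    rw [hB0, Nat.choose_zero_succ, mul_zero]
    exact Nat.zero_le _
  have hpos : 0 < (p * N) ^ (k + 1) := Nat.pow_pos h0
  apply Nat.le_of_mul_le_mul_left _ hpos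
  have e1 : B.choose (k + 1) * (p * N) ^ (k + 1) ≤ B ^ (k + 1) * (p * N).choose (k + 1) :=
    choose_mul_pow_le (k + 1) B (p * N) hBn
  have e2 : B ^ (k + 1) ≤ p ^ k * ∑ i, b i ^ (k + 1) := by
    have h := sum_pow_le_card_pow b (k + 1) (by omega)
    rw [Nat.add_sub_cancel] at h
    exact (Nat.pow_le_pow_left hB (k + 1)).trans h
  have e3 : ∀ i, b i ^ (k + 1) * Fintype.card (BlockCon k N)
      ≤ (2 * N) ^ (k + 1)
        * ((b i).choose (k + 1) + 2 * k * (b i).choose k + botCount k N) :=
    fun i => block_arith_one k N (b i) hk (hb i)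
  have e4 : (∑ i, b i ^ (k + 1)) * Fintype.card (BlockCon k N)
      ≤ (2 * N) ^ (k + 1)
        * ∑ i, ((b i).choose (k + 1) + 2 * k * (b i).choose k + botCount k N) := by
    rw [Finset.sum_mul, Finset.mul_sum]
    exact Finset.sum_le_sum (fun i _ => e3 i)
  calc (p * N) ^ (k + 1) * (p * Fintype.card (BlockCon k N) * B.choose (k + 1))
      = p * Fintype.card (BlockCon k N) * (B.choose (k + 1) * (p * N) ^ (k + 1)) := by ring
    _ ≤ p * Fintype.card (BlockCon k N) * (B ^ (k + 1) * (p * N).choose (k + 1)) :=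
        Nat.mul_le_mul_left _ e1
    _ ≤ p * Fintype.card (BlockCon k N)
          * ((p ^ k * ∑ i, b i ^ (k + 1)) * (p * N).choose (k + 1)) :=
        Nat.mul_le_mul_left _ (Nat.mul_le_mul_right _ e2)
    _ = p ^ (k + 1) * (p * N).choose (k + 1)
          * ((∑ i, b i ^ (k + 1)) * Fintype.card (BlockCon k N)) := by
        rw [pow_succ]
        ring
    _ ≤ p ^ (k + 1) * (p * N).choose (k + 1)
          * ((2 * N) ^ (k + 1)
            * ∑ i, ((b i).choose (k + 1) + 2 * k * (b i).choose k + botCount k N)) :=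
        Nat.mul_le_mul_left _ e4
    _ = (p * N) ^ (k + 1) * (2 ^ (k + 1) * (p * N).choose (k + 1)
          * ∑ i, ((b i).choose (k + 1) + 2 * k * (b i).choose k + botCount k N)) := by
        rw [mul_pow, mul_pow]
        ring

end Vale.Agent.Lib.P170
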