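import Vale.Agent.Lib.P170.BlockDefs

/-!
The satisfiable tuples of constraints of one block, counted from below by mixed counts of clauses
of widths `k + 1` and `k`.
-/

namespace Vale.Agent.Lib.P170

open Finset

/-- Constraints of the second kind taken with multiplicity `c`. -/
theorem mixN_fin_mult {X1 X2 Y : Type*} [Fintype X1] [Fintype X2] (sat1 : Y → X1 → Prop)
    (sat2 : Y → X2 → Prop) (c i a : ℕ) (A : Set Y) :
    mixN sat1 (fun σ (e : X2 × Fin c) => sat2 σ e.1) i a A = c ^ i * mixN sat1 sat2 i a A := by
  induction i generalizing A with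
  | zero =>
    rw [mixN_zero, mixN_zero, pow_zero, one_mul]
  | succ i ih =>
    rw [mixN_succ_i, mixN_succ_i, Fintype.sum_prod_type]
    have hin : ∀ x : X2, ∑ _y : Fin c,
        mixN sat1 (fun σ (e : X2 × Fin c) => sat2 σ e.1) i a (A ∩ {σ | sat2 σ x})
        = c * (c ^ i * mixN sat1 sat2 i a (A ∩ {σ | sat2 σ x})) := by
      intro x
      rw [Finset.sum_const, Finset.card_univ, Fintype.card_fin, smul_eq_mul, ih]
    rw [Finset.sum_congr rfl (fun x _ => hin x), ← Finset.mul_sum, ← Finset.mul_sum, pow_succ]
    ring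

/-- Lower bound for the number of satisfiable tuples of block constraints by mixed counts of
clauses of widths `k + 1` and `k`. -/
theorem blockCount_lower (k N a : ℕ) :
    ∑ ij ∈ antidiagonal a, a.choose ij.1 * ((2 * k) ^ ij.2
        * mixN (ClauseSat (k := k + 1) (n := N)) (ClauseSat (k := k) (n := N)) ij.2 ij.1 Set.univ)
      ≤ hcount (blockSat (k := k) (N := N)) Set.univ a := by
  have h := lift_lower (LS := blockSat (k := k) (N := N))
    (sat1 := ClauseSat (k := k + 1) (n := N))
    (sat2 := fun τ (e : Clause k N × Fin k) => ClauseSat τ e.1)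
    (f := Sum.inl) Sum.inl_injective (fun σ x h => h) (fun σ e s h => h) Set.univ a
  refine le_trans (le_of_eq ?_) h
  refine Finset.sum_congr rfl (fun ij _ => ?_)
  rw [mixN_fin_mult (ClauseSat (k := k + 1) (n := N)) (ClauseSat (k := k) (n := N)) k, mul_pow]
  ring

theorem blockQ_nonneg (k N a : ℕ) : 0 ≤ blockQ k N a := by
  unfold blockQ
  positivity

theorem blockQ_le_one (k N a : ℕ) : blockQ k N a ≤ 1 := by
  unfold blockQ
  have h := hcount_le_card_pow (blockSat (k := k) (N := N)) Set.univ a
  have h' : (hcount (blockSat (k := k) (N := N)) Set.univ a : ℝ)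
      ≤ (Fintype.card (BlockCon k N) : ℝ) ^ a := by
    exact_mod_cast h
  exact div_le_one_of_le₀ h' (by positivity)

theorem bcount_succ_le (k N a : ℕ) :
    hcount (blockSat (k := k) (N := N)) Set.univ (a + 1)
      ≤ Fintype.card (BlockCon k N) * hcount (blockSat (k := k) (N := N)) Set.univ a := by
  rw [hcount_succ]
  calc ∑ x : BlockCon k N, hcount blockSat (Set.univ ∩ {σ | blockSat σ x}) a
      ≤ ∑ _x : BlockCon k N, hcount (blockSat (k := k) (N := N)) Set.univ a :=
        Finset.sum_le_sum (fun x _ => hcount_mono _ Set.inter_subset_left a)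
    _ = Fintype.card (BlockCon k N) * hcount (blockSat (k := k) (N := N)) Set.univ a := by
        simp [Finset.card_univ]

theorem bcount_q_succ_le (k N a : ℕ) : blockQ k N (a + 1) ≤ blockQ k N a := by
  unfold blockQ
  rcases Nat.eq_zero_or_pos (Fintype.card (BlockCon k N)) with h0 | hpos
  · rw [h0]
    simp only [Nat.cast_zero, ne_eq, Nat.add_eq_zero_iff, one_ne_zero, and_false,
      not_false_eq_true, zero_pow, div_zero]
    positivity
  · have hposR : (0 : ℝ) < (Fintype.card (BlockCon k N) : ℝ) := by exact_mod_cast hpos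
    rw [div_le_div_iff₀ (by positivity) (by positivity)]
    have h := bcount_succ_le k N a
    have h' : (hcount (blockSat (k := k) (N := N)) Set.univ (a + 1) : ℝ)
        ≤ (Fintype.card (BlockCon k N) : ℝ) * hcount (blockSat (k := k) (N := N)) Set.univ a := by
      exact_mod_cast h
    calc (hcount (blockSat (k := k) (N := N)) Set.univ (a + 1) : ℝ)
          * (Fintype.card (BlockCon k N) : ℝ) ^ a
        ≤ ((Fintype.card (BlockCon k N) : ℝ) * hcount (blockSat (k := k) (N := N)) Set.univ a)
            * (Fintype.card (BlockCon k N) : ℝ) ^ a :=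
          mul_le_mul_of_nonneg_right h' (by positivity)
      _ = (hcount (blockSat (k := k) (N := N)) Set.univ a : ℝ)
            * (Fintype.card (BlockCon k N) : ℝ) ^ (a + 1) := by ring

theorem blockQ_anti (k N : ℕ) {a a' : ℕ} (h : a ≤ a') : blockQ k N a' ≤ blockQ k N a := by
  induction h with
  | refl => exact le_rfl
  | step _ ih => exact le_trans (bcount_q_succ_le k N _) ih

end Vale.Agent.Lib.P170
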