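import Vale.Agent.Lib.P170.UnitTransfer

/-!
Block systems: `p` disjoint blocks of `N` variables each.  A block carries the clauses of width
`k + 1`, the clauses of width `k` (with a multiplicity) and a few constraints that are never
satisfied.  These systems are compared with random `(k + 1)`-SAT on `p * N` variables.
-/

namespace Vale.Agent.Lib.P170

open Finset

/-- The restriction of an assignment on `p * N` variables to the `i`-th block of `N` variables. -/
def blockRestr {p N : ℕ} (i : Fin p) (σ : Fin (p * N) → Bool) : Fin N → Bool :=
  fun v => σ (finProdFinEquiv (i, v))

/-- The number of constraints of a block that are never satisfied. -/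
def botCount (k N : ℕ) : ℕ := (k + 1).choose 2 * k.choose 2 * N ^ (k - 1)

/-- The constraints of one block: the clauses of width `k + 1`, the clauses of width `k`, each
with multiplicity `2 * k`, and `botCount k N` constraints that are never satisfied. -/
abbrev BlockCon (k N : ℕ) : Type :=
  (Clause (k + 1) N ⊕ ((Clause k N × Fin k) × Bool)) ⊕ Fin (botCount k N)

/-- Satisfaction of a block constraint by an assignment of the block. -/
def blockSat {k N : ℕ} (τ : Fin N → Bool) : BlockCon k N → Prop
  | Sum.inl (Sum.inl C) => ClauseSat τ C
  | Sum.inl (Sum.inr e) => ClauseSat τ e.1.1
  | Sum.inr _ => False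

/-- Satisfaction of a constraint placed in one of the `p` blocks by an assignment on all
`p * N` variables: the restriction of the assignment to that block satisfies it. -/
def multiSat {k p N : ℕ} (σ : Fin (p * N) → Bool) (e : Fin p × BlockCon k N) : Prop :=
  blockSat (blockRestr e.1 σ) e.2

/-- The embedding of the constraints of the `i`-th block into the constraints of all blocks. -/
def blockEmb {k p N : ℕ} (i : Fin p) : BlockCon k N ↪ Fin p × BlockCon k N :=
  ⟨fun x => (i, x), fun _ _ h => (Prod.mk.inj h).2⟩

/-- The probability that `a` independent uniformly random constraints of one block are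
simultaneously satisfiable. -/
noncomputable def blockQ (k N a : ℕ) : ℝ :=
  (hcount (blockSat (k := k) (N := N)) Set.univ a : ℝ) / (Fintype.card (BlockCon k N) : ℝ) ^ a

/-- The probability that `m` independent uniformly random constraints, each placed in a uniformly
random one of the `p` blocks, are simultaneously satisfiable. -/
noncomputable def multiQ (k p N m : ℕ) : ℝ :=
  (hcount (multiSat (k := k) (p := p) (N := N)) Set.univ m : ℝ)
    / (Fintype.card (Fin p × BlockCon k N) : ℝ) ^ m

theorem card_blockCon (k N : ℕ) :
    Fintype.card (BlockCon k N)
      = Fintype.card (Clause (k + 1) N) + 2 * k * Fintype.card (Clause k N)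
        + botCount k N := by
  simp only [Fintype.card_sum, Fintype.card_prod, Fintype.card_fin, Fintype.card_bool]
  ring

theorem card_multiCon (k p N : ℕ) :
    Fintype.card (Fin p × BlockCon k N) = p * Fintype.card (BlockCon k N) := by
  simp only [Fintype.card_prod, Fintype.card_fin]

end Vale.Agent.Lib.P170
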