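import Vale.Agent.Lib.P170.BlockDefs

/-!
Counting the constraints of a block system that are violated by all members of a set of
assignments.
-/

namespace Vale.Agent.Lib.P170

open Finset

open scoped Classical in
/-- The clauses of width `j` compatible with some member of a nonempty set `A` of assignments,
together with the `j`-subsets of the backbone of `A`, account for all clauses. -/
theorem card_clauseAlive (j n : ℕ) (A : Set (Fin n → Bool)) (hA : A.Nonempty) :
    (Finset.univ.filter (fun e : Clause j n => ∃ σ ∈ A, ClauseSat σ e)).card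
      + (backbone A).card.choose j = Fintype.card (Clause j n) := by
  rw [← card_killed j n A hA, ← Finset.card_univ]
  have h := Finset.card_filter_add_card_filter_not (s := (Finset.univ : Finset (Clause j n)))
    (fun e : Clause j n => ∃ σ ∈ A, ClauseSat σ e)
  rw [← h]
  congr 2
  ext e
  simp

theorem backbone_card_le {N : ℕ} (A : Set (Fin N → Bool)) : (backbone A).card ≤ N := by
  have h := Finset.card_le_univ (backbone A)
  rwa [Fintype.card_fin] at h

/-- The backbone of `A` is covered by the backbones of the restrictions of `A` to the blocks. -/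
theorem backbone_le_sum_blocks {p N : ℕ} (A : Set (Fin (p * N) → Bool)) :
    (backbone A).card ≤ ∑ i : Fin p, (backbone (blockRestr i '' A)).card := by
  rw [← Finset.card_sigma]
  refine Finset.card_le_card_of_injOn
    (fun v => (⟨(finProdFinEquiv.symm v).1, (finProdFinEquiv.symm v).2⟩ : Σ _ : Fin p, Fin N))
    ?_ ?_
  · intro v hv
    have hv : v ∈ backbone A := Finset.mem_coe.mp hv
    rw [Finset.mem_coe, Finset.mem_sigma]
    refine ⟨Finset.mem_univ _, ?_⟩
    simp only [backbone, Finset.mem_filter, Finset.mem_univ, true_and] at hv ⊢
    intro τ1 h1 τ2 h2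
    obtain ⟨σ1, hσ1, rfl⟩ := h1
    obtain ⟨σ2, hσ2, rfl⟩ := h2
    have h := hv σ1 hσ1 σ2 hσ2
    simp only [blockRestr]
    have e : finProdFinEquiv ((finProdFinEquiv.symm v).1, (finProdFinEquiv.symm v).2) = v :=
      finProdFinEquiv.apply_symm_apply v
    rw [e]
    exact h
  · intro v _ w _ hvw
    have h1 : (finProdFinEquiv.symm v).1 = (finProdFinEquiv.symm w).1 :=
      congrArg Sigma.fst hvw
    have h2 : (finProdFinEquiv.symm v).2 = (finProdFinEquiv.symm w).2 := by
      have h := congrArg (fun s : (Σ _ : Fin p, Fin N) => s.2) hvw
      exact h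
    exact finProdFinEquiv.symm.injective (Prod.ext h1 h2)

open scoped Classical in
/-- The constraints of one block violated by every member of a nonempty set `A` of assignments
of the block. -/
theorem card_blockKilled (k N : ℕ) (A : Set (Fin N → Bool)) (hA : A.Nonempty) :
    (Finset.univ.filter (fun e : BlockCon k N => ∀ τ ∈ A, ¬ blockSat τ e)).card
      = (backbone A).card.choose (k + 1) + 2 * k * (backbone A).card.choose k
        + botCount k N := by
  rw [Finset.card_filter, Fintype.sum_sum_type, Fintype.sum_sum_type]
  have h1 : (∑ C : Clause (k + 1) N,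
      if (∀ τ ∈ A, ¬ blockSat (k := k) τ (Sum.inl (Sum.inl C))) then 1 else 0)
      = (backbone A).card.choose (k + 1) := by
    rw [← card_killed (k + 1) N A hA, Finset.card_filter]
    rfl
  have h2 : (∑ x : (Clause k N × Fin k) × Bool,
      if (∀ τ ∈ A, ¬ blockSat (k := k) τ (Sum.inl (Sum.inr x))) then 1 else 0)
      = 2 * k * (backbone A).card.choose k := by
    rw [← card_killed k N A hA, Finset.card_filter, Fintype.sum_prod_type,
      Fintype.sum_prod_type, Finset.mul_sum]
    refine Finset.sum_congr rfl (fun C _ => ?_)
    have e : ∀ (j : Fin k) (s : Bool),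
        (if (∀ τ ∈ A, ¬ blockSat (k := k) τ (Sum.inl (Sum.inr ((C, j), s)))) then 1 else 0)
          = (if (∀ σ ∈ A, ¬ ClauseSat σ C) then 1 else 0) := fun _ _ => rfl
    simp only [e, Finset.sum_const, Finset.card_univ, Fintype.card_fin, Fintype.card_bool,
      smul_eq_mul]
    ring
  have h3 : (∑ x : Fin (botCount k N),
      if (∀ τ ∈ A, ¬ blockSat (k := k) (N := N) τ (Sum.inr x)) then 1 else 0)
      = botCount k N := by
    have e : ∀ x : Fin (botCount k N),
        (if (∀ τ ∈ A, ¬ blockSat (k := k) (N := N) τ (Sum.inr x)) then 1 else 0) = 1 := by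
      intro x
      rw [if_pos]
      intro τ _ h
      exact h
    simp only [e, Finset.sum_const, Finset.card_univ, Fintype.card_fin, smul_eq_mul, mul_one]
  rw [h1, h2, h3]

open scoped Classical in
/-- The constraints of all blocks compatible with some member of a nonempty set `A` of
assignments, together with the violated ones, account for all constraints. -/
theorem card_multiAlive (k p N : ℕ) (A : Set (Fin (p * N) → Bool)) (hA : A.Nonempty) :
    (Finset.univ.filter (fun e : Fin p × BlockCon k N => ∃ σ ∈ A, multiSat σ e)).card
      + ∑ i : Fin p, ((backbone (blockRestr i '' A)).card.choose (k + 1)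
          + 2 * k * (backbone (blockRestr i '' A)).card.choose k + botCount k N)
      = Fintype.card (Fin p × BlockCon k N) := by
  have hk : (Finset.univ.filter
      (fun e : Fin p × BlockCon k N => ∀ σ ∈ A, ¬ multiSat σ e)).card
      = ∑ i : Fin p, ((backbone (blockRestr i '' A)).card.choose (k + 1)
          + 2 * k * (backbone (blockRestr i '' A)).card.choose k + botCount k N) := by
    rw [Finset.card_filter, Fintype.sum_prod_type]
    refine Finset.sum_congr rfl (fun i _ => ?_)
    rw [← card_blockKilled k N (blockRestr i '' A) (hA.image _), Finset.card_filter]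
    refine Finset.sum_congr rfl (fun c _ => ?_)
    have e : (∀ σ ∈ A, ¬ multiSat σ (i, c)) ↔ (∀ τ ∈ blockRestr i '' A, ¬ blockSat τ c) := by
      rw [Set.forall_mem_image]
      rfl
    exact if_congr e rfl rfl
  rw [← hk, ← Finset.card_univ]
  have h := Finset.card_filter_add_card_filter_not
    (s := (Finset.univ : Finset (Fin p × BlockCon k N)))
    (fun e : Fin p × BlockCon k N => ∃ σ ∈ A, multiSat σ e)
  rw [← h]
  congr 2
  ext e
  simp

end Vale.Agent.Lib.P170
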