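import Vale.Agent.Lib.P170.Interp
import Vale.Agent.Lib.P170.BlockArith
import Vale.Agent.Lib.P170.BlockKill

/-!
Random `(k + 1)`-SAT on `p * N` variables is at least as satisfiable as the block system.
-/

namespace Vale.Agent.Lib.P170

open Finset

/-- The arithmetic behind `multi_kill`: from `a1 + c = x1`, `a2 + s = x2` and
`x2 * c ≤ x1 * s` follows `x1 * a2 ≤ x2 * a1`. -/
theorem binterp_arith (a1 a2 c s x1 x2 : ℕ) (h1 : a1 + c = x1) (h2 : a2 + s = x2)
    (h : x2 * c ≤ x1 * s) : x1 * a2 ≤ x2 * a1 := by
  have e1 : x1 * a2 + x1 * s = x1 * x2 := by rw [← Nat.mul_add, h2]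
  have e2 : x2 * a1 + x2 * c = x1 * x2 := by rw [← Nat.mul_add, h1, Nat.mul_comm]
  omega

open scoped Classical in
/-- A clause of width `k + 1` on `p * N` variables is compatible with a set of assignments at
least as often as a constraint of the block system. -/
theorem multi_kill (k p N : ℕ) (hk : 2 ≤ k) (A : Set (Fin (p * N) → Bool)) :
    Fintype.card (Clause (k + 1) (p * N))
        * (Finset.univ.filter (fun e : Fin p × BlockCon k N => ∃ σ ∈ A, multiSat σ e)).card
      ≤ Fintype.card (Fin p × BlockCon k N)
        * (Finset.univ.filter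
            (fun x : Clause (k + 1) (p * N) => ∃ σ ∈ A, ClauseSat σ x)).card := by
  rcases Set.eq_empty_or_nonempty A with hA | hA
  · subst hA
    simp
  · have h1 := card_clauseAlive (k + 1) (p * N) A hA
    have h2 := card_multiAlive k p N A hA
    have h3 := block_arith k p N hk (fun i => (backbone (blockRestr i '' A)).card)
      (fun i => backbone_card_le _) (backbone A).card (backbone_le_sum_blocks A)
    rw [← card_multiCon k p N, ← card_clause (k + 1) (p * N)] at h3
    exact binterp_arith _ _ _ _ _ _ h1 h2 h3

/-- The interpolation inequality: `m` random clauses of width `k + 1` on `p * N` variables are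
satisfiable at least as often as `m` random constraints of the block system. -/
theorem multi_interp (k p N m : ℕ) (hk : 2 ≤ k) (hN : k + 1 ≤ p * N) :
    multiQ k p N m ≤ satProb (k + 1) (p * N) m := by
  have hcnt : Fintype.card (Clause (k + 1) (p * N)) ^ m
        * hcount (multiSat (k := k) (p := p) (N := N)) Set.univ m
      ≤ Fintype.card (Fin p × BlockCon k N) ^ m
        * hcount (ClauseSat (k := k + 1) (n := p * N)) Set.univ m := by
    refine interp_count (X1 := Clause (k + 1) (p * N)) (X2 := Fin p × BlockCon k N)
      (ClauseSat (k := k + 1) (n := p * N)) (multiSat (k := k) (p := p) (N := N))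
      ?_ m Set.univ
    intro A
    convert multi_kill k p N hk A
  have hpos : 0 < Fintype.card (Clause (k + 1) (p * N)) := card_clause_pos hN
  rcases Nat.eq_zero_or_pos (Fintype.card (Fin p × BlockCon k N) ^ m) with h0 | h0
  · unfold multiQ
    have h0' : ((Fintype.card (Fin p × BlockCon k N) : ℝ)) ^ m = 0 := by exact_mod_cast h0
    rw [h0', div_zero]
    exact satProb_nonneg _ _ _
  · unfold multiQ
    rw [satProb_eq, satCount_eq_hcount]
    have hp1 : (0 : ℝ) < (Fintype.card (Clause (k + 1) (p * N)) : ℝ) ^ m := by
      have : 0 < Fintype.card (Clause (k + 1) (p * N)) ^ m := Nat.pow_pos hpos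
      exact_mod_cast this
    have hp2 : (0 : ℝ) < (Fintype.card (Fin p × BlockCon k N) : ℝ) ^ m := by
      exact_mod_cast h0
    rw [div_le_div_iff₀ hp2 hp1]
    have hcast : ((Fintype.card (Clause (k + 1) (p * N)) ^ m
        * hcount (multiSat (k := k) (p := p) (N := N)) Set.univ m : ℕ) : ℝ)
        ≤ ((Fintype.card (Fin p × BlockCon k N) ^ m
          * hcount (ClauseSat (k := k + 1) (n := p * N)) Set.univ m : ℕ) : ℝ) := by
      exact_mod_cast hcnt
    push_cast at hcast
    linarith

end Vale.Agent.Lib.P170
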