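import Vale.Agent.Lib.P170.BlockCount

/-!
The constraints of one block are satisfiable with high probability as soon as slightly more
clauses of width `k + 1` are.
-/

namespace Vale.Agent.Lib.P170

open Finset

/-- The probability that `a` random constraints of one block are satisfiable is at least the
probability that none of them is one of the never satisfied ones times a binomial mixture of
the normalised mixed counts. -/
theorem blockQ_mixture (k N a : ℕ) (hk : 2 ≤ k) (hkN : k + 1 ≤ N) :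
    (1 - (botCount k N : ℝ) / (Fintype.card (BlockCon k N) : ℝ)) ^ a
        * ∑ a' ∈ Finset.range (a + 1),
            binW a ((Fintype.card (Clause (k + 1) N) : ℝ)
              / ((Fintype.card (Clause (k + 1) N) : ℝ)
                + 2 * (k : ℝ) * (Fintype.card (Clause k N) : ℝ))) a' * mixQ k N a' (a - a')
      ≤ blockQ k N a := by
  have hA : (0 : ℝ) < (Fintype.card (Clause (k + 1) N) : ℝ) := by
    exact_mod_cast card_clause_pos hkN
  have hE : (0 : ℝ) < (Fintype.card (Clause k N) : ℝ) := by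
    exact_mod_cast card_clause_pos (le_trans (Nat.le_succ k) hkN)
  have hk0 : (0 : ℝ) < (k : ℝ) := by exact_mod_cast (by omega : 0 < k)
  have hbc : (Fintype.card (BlockCon k N) : ℝ)
      = (Fintype.card (Clause (k + 1) N) : ℝ) + 2 * (k : ℝ) * (Fintype.card (Clause k N) : ℝ)
        + (botCount k N : ℝ) := by
    rw [card_blockCon]
    push_cast
    ring
  rw [hbc]
  set A : ℝ := (Fintype.card (Clause (k + 1) N) : ℝ) with hAdef
  set E : ℝ := (Fintype.card (Clause k N) : ℝ) with hEdef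
  set B : ℝ := (botCount k N : ℝ) with hBdef
  have hB0 : 0 ≤ B := Nat.cast_nonneg _
  have hS : 0 < A + 2 * (k : ℝ) * E := by positivity
  have hbcpos : 0 < A + 2 * (k : ℝ) * E + B := by positivity
  have hcnt := blockCount_lower k N a
  have hcountR : ∑ ij ∈ antidiagonal a, (a.choose ij.1 : ℝ) *
      ((2 * (k : ℝ)) ^ ij.2 * (mixN (ClauseSat (k := k + 1) (n := N))
        (ClauseSat (k := k) (n := N)) ij.2 ij.1 Set.univ : ℝ))
      ≤ (hcount (blockSat (k := k) (N := N)) Set.univ a : ℝ) := by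
    have := (Nat.cast_le (α := ℝ)).mpr hcnt
    rw [Nat.cast_sum] at this
    refine le_trans (le_of_eq ?_) this
    refine Finset.sum_congr rfl (fun ij _ => ?_)
    push_cast
    ring
  rw [Finset.Nat.sum_antidiagonal_eq_sum_range_succ_mk] at hcountR
  unfold blockQ
  rw [hbc, le_div_iff₀ (by positivity)]
  refine le_trans (le_of_eq ?_) hcountR
  rw [Finset.mul_sum, Finset.sum_mul]
  refine Finset.sum_congr rfl (fun a' ha => ?_)
  have ham : a' ≤ a := Nat.lt_succ_iff.mp (Finset.mem_range.mp ha)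
  unfold mixQ binW
  rw [← hAdef, ← hEdef]
  have e1 : (A + 2 * (k : ℝ) * E) ^ a
      = (A + 2 * (k : ℝ) * E) ^ a' * (A + 2 * (k : ℝ) * E) ^ (a - a') := by
    rw [← pow_add, Nat.add_sub_cancel' ham]
  have e2 : 1 - A / (A + 2 * (k : ℝ) * E) = 2 * (k : ℝ) * E / (A + 2 * (k : ℝ) * E) := by
    field_simp
    ring
  have e3 : 1 - B / (A + 2 * (k : ℝ) * E + B)
      = (A + 2 * (k : ℝ) * E) / (A + 2 * (k : ℝ) * E + B) := by
    field_simp
    ring
  rw [e2, e3, div_pow, div_pow, div_pow, mul_pow, mul_pow, e1]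
  field_simp

/-- The real arithmetic behind `blockQ_lower`. -/
theorem blift_arith {Q X q3 M tl ρ π S2 Bk : ℝ} {a i0 : ℕ}
    (h1 : (1 - q3) ^ a * X ≤ Q) (hX1 : X ≤ 1) (hq30 : 0 ≤ q3) (hq31 : q3 ≤ 1)
    (h3 : M - tl ≤ X) (h4 : tl ≤ (a : ℝ) * (1 - π) / ((i0 : ℝ) - a * (1 - π)) ^ 2)
    (hπ1 : π ≤ 1) (hρ : 1 - π ≤ ρ) (hi0 : (a : ℝ) * ρ < i0)
    (h5 : 1 - M ≤ 2 ^ i0 * S2 + (2 ^ i0 - 1) * Bk) (hBk : 0 ≤ Bk) :
    1 - Q ≤ (a : ℝ) * q3 + (a : ℝ) * ρ / ((i0 : ℝ) - a * ρ) ^ 2 + 2 ^ i0 * S2 + 2 ^ i0 * Bk := by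
  have hbern : 1 - (a : ℝ) * q3 ≤ (1 - q3) ^ a := by
    have h := one_add_mul_le_pow (show (-2 : ℝ) ≤ -q3 by linarith) a
    have e : (1 : ℝ) + (a : ℝ) * (-q3) = 1 - (a : ℝ) * q3 := by ring
    have e' : (1 : ℝ) + (-q3) = 1 - q3 := by ring
    rw [e, e'] at h
    exact h
  have hpow1 : (1 - q3) ^ a ≤ 1 := pow_le_one₀ (by linarith) (by linarith)
  have h2 : X - (a : ℝ) * q3 ≤ (1 - q3) ^ a * X := by
    nlinarith [mul_nonneg (sub_nonneg.mpr hpow1) (sub_nonneg.mpr hX1)]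
  have ha0 : (0 : ℝ) ≤ (a : ℝ) := Nat.cast_nonneg a
  have hπq : 0 ≤ 1 - π := by linarith
  have hmul : (a : ℝ) * (1 - π) ≤ (a : ℝ) * ρ := mul_le_mul_of_nonneg_left hρ ha0
  have hρ0 : 0 ≤ ρ := le_trans hπq hρ
  have h4' : (a : ℝ) * (1 - π) / ((i0 : ℝ) - a * (1 - π)) ^ 2
      ≤ (a : ℝ) * ρ / ((i0 : ℝ) - a * ρ) ^ 2 := by
    have hd : 0 < (i0 : ℝ) - a * ρ := by linarith
    have hnum : 0 ≤ (a : ℝ) * ρ := mul_nonneg ha0 hρ0
    apply div_le_div₀ hnum hmul (by positivity)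
    apply pow_le_pow_left₀ (le_of_lt hd)
    linarith
  have h6 : ((2 : ℝ) ^ i0 - 1) * Bk ≤ 2 ^ i0 * Bk := by
    apply mul_le_mul_of_nonneg_right _ hBk
    linarith
  linarith

/-- The constraints of one block in terms of clauses of width `k + 1`: finite form. -/
theorem blockQ_lower {k N : ℕ} (hk : 2 ≤ k) (hkN : k + 1 ≤ N) (a i0 t b0 : ℕ)
    (ht : 2 * (Fintype.card (Clause (k + 1) N) - b0.choose (k + 1)) ^ t
      ≤ Fintype.card (Clause (k + 1) N) ^ t)
    (hi0 : (a : ℝ) * (2 * (k : ℝ) * (Fintype.card (Clause k N) : ℝ)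
      / (Fintype.card (Clause (k + 1) N) : ℝ)) < i0) :
    1 - blockQ k N a
      ≤ (a : ℝ) * ((botCount k N : ℝ) / (Fintype.card (BlockCon k N) : ℝ))
        + (a : ℝ) * (2 * (k : ℝ) * (Fintype.card (Clause k N) : ℝ)
            / (Fintype.card (Clause (k + 1) N) : ℝ))
          / ((i0 : ℝ) - a * (2 * (k : ℝ) * (Fintype.card (Clause k N) : ℝ)
            / (Fintype.card (Clause (k + 1) N) : ℝ))) ^ 2
        + 2 ^ i0 * (1 - satProb (k + 1) N (a + i0 * t))
        + 2 ^ i0 * ((b0.choose k : ℝ) / (Fintype.card (Clause k N) : ℝ)) := by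
  have hA : (0 : ℝ) < (Fintype.card (Clause (k + 1) N) : ℝ) := by
    exact_mod_cast card_clause_pos hkN
  have hE : (0 : ℝ) < (Fintype.card (Clause k N) : ℝ) := by
    exact_mod_cast card_clause_pos (le_trans (Nat.le_succ k) hkN)
  have hk0 : (0 : ℝ) < (k : ℝ) := by exact_mod_cast (by omega : 0 < k)
  have hB0 : (0 : ℝ) ≤ (botCount k N : ℝ) := Nat.cast_nonneg _
  have hbc : (Fintype.card (BlockCon k N) : ℝ)
      = (Fintype.card (Clause (k + 1) N) : ℝ) + 2 * (k : ℝ) * (Fintype.card (Clause k N) : ℝ)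
        + (botCount k N : ℝ) := by
    rw [card_blockCon]
    push_cast
    ring
  have hkE : 0 < 2 * (k : ℝ) * (Fintype.card (Clause k N) : ℝ) := by positivity
  have hS : 0 < (Fintype.card (Clause (k + 1) N) : ℝ)
      + 2 * (k : ℝ) * (Fintype.card (Clause k N) : ℝ) := by linarith
  have hbcpos : (0 : ℝ) < (Fintype.card (BlockCon k N) : ℝ) := by
    rw [hbc]
    linarith
  have hπ0 : 0 ≤ (Fintype.card (Clause (k + 1) N) : ℝ)
      / ((Fintype.card (Clause (k + 1) N) : ℝ)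
        + 2 * (k : ℝ) * (Fintype.card (Clause k N) : ℝ)) :=
    div_nonneg (le_of_lt hA) (le_of_lt hS)
  have hπ1 : (Fintype.card (Clause (k + 1) N) : ℝ)
      / ((Fintype.card (Clause (k + 1) N) : ℝ)
        + 2 * (k : ℝ) * (Fintype.card (Clause k N) : ℝ)) ≤ 1 := by
    rw [div_le_one hS]
    linarith
  have hρ : 1 - (Fintype.card (Clause (k + 1) N) : ℝ)
      / ((Fintype.card (Clause (k + 1) N) : ℝ)
        + 2 * (k : ℝ) * (Fintype.card (Clause k N) : ℝ))
      ≤ 2 * (k : ℝ) * (Fintype.card (Clause k N) : ℝ)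
        / (Fintype.card (Clause (k + 1) N) : ℝ) := by
    have e2 : 1 - (Fintype.card (Clause (k + 1) N) : ℝ)
        / ((Fintype.card (Clause (k + 1) N) : ℝ)
          + 2 * (k : ℝ) * (Fintype.card (Clause k N) : ℝ))
        = 2 * (k : ℝ) * (Fintype.card (Clause k N) : ℝ)
          / ((Fintype.card (Clause (k + 1) N) : ℝ)
            + 2 * (k : ℝ) * (Fintype.card (Clause k N) : ℝ)) := by
      field_simp
      ring
    rw [e2]
    exact div_le_div_of_nonneg_left (le_of_lt hkE) hA (by linarith)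
  have hi0' : (a : ℝ) * (1 - (Fintype.card (Clause (k + 1) N) : ℝ)
      / ((Fintype.card (Clause (k + 1) N) : ℝ)
        + 2 * (k : ℝ) * (Fintype.card (Clause k N) : ℝ))) < i0 :=
    lt_of_le_of_lt (mul_le_mul_of_nonneg_left hρ (Nat.cast_nonneg a)) hi0
  have hX1 : ∑ a' ∈ Finset.range (a + 1),
      binW a ((Fintype.card (Clause (k + 1) N) : ℝ)
        / ((Fintype.card (Clause (k + 1) N) : ℝ)
          + 2 * (k : ℝ) * (Fintype.card (Clause k N) : ℝ))) a' * mixQ k N a' (a - a') ≤ 1 := by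
    refine le_trans (Finset.sum_le_sum (fun a' _ =>
      mul_le_of_le_one_right (binW_nonneg hπ0 hπ1 a') (mixQ_le_one hkN _ _))) ?_
    exact le_of_eq (sum_binW a _)
  have hq30 : (0 : ℝ) ≤ (botCount k N : ℝ) / (Fintype.card (BlockCon k N) : ℝ) :=
    div_nonneg hB0 (le_of_lt hbcpos)
  have hq31 : (botCount k N : ℝ) / (Fintype.card (BlockCon k N) : ℝ) ≤ 1 := by
    rw [div_le_one hbcpos, hbc]
    linarith
  have hBk : (0 : ℝ) ≤ (b0.choose k : ℝ) / (Fintype.card (Clause k N) : ℝ) :=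
    div_nonneg (Nat.cast_nonneg _) (le_of_lt hE)
  exact blift_arith (blockQ_mixture k N a hk hkN) hX1 hq30 hq31
    (mixture_lower hkN a i0 hπ0 hπ1) (mixture_tail a i0 hπ0 hπ1 hi0') hπ1 hρ hi0
    (mixQ_iterate hkN t b0 ht i0 a) hBk

end Vale.Agent.Lib.P170
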