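import Vale.Agent.Lib.P170.BlockDefs

/-!
The shares of the clauses of width `k` and of the never satisfied constraints among the
constraints of one block.
-/

namespace Vale.Agent.Lib.P170

open Finset

/-- The clauses of width `k`, with their multiplicity, relative to the clauses of width
`k + 1`. -/
theorem small_ratio (k N : ℕ) (hkN : k + 1 ≤ N) :
    2 * (k : ℝ) * (Fintype.card (Clause k N) : ℝ) / (Fintype.card (Clause (k + 1) N) : ℝ)
      = (k : ℝ) * ((k : ℝ) + 1) / ((N : ℝ) - k) := by
  rw [card_clause, card_clause]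
  have h := Nat.choose_succ_right_eq N k
  have hc : (0 : ℝ) < (N.choose (k + 1) : ℝ) := by
    exact_mod_cast Nat.choose_pos hkN
  have hNk : (0 : ℝ) < (N : ℝ) - k := by
    have hle : (k : ℝ) + 1 ≤ (N : ℝ) := by exact_mod_cast hkN
    linarith
  have hR : (N.choose (k + 1) : ℝ) * ((k : ℝ) + 1) = (N.choose k : ℝ) * ((N : ℝ) - k) := by
    have h' := congrArg (fun x : ℕ => (x : ℝ)) h
    simp only [Nat.cast_mul] at h'
    rw [Nat.cast_sub (by omega)] at h'
    push_cast at h'
    linarith
  have h2 : (0 : ℝ) < (2 : ℝ) ^ (k + 1) := by positivity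
  push_cast
  rw [div_eq_div_iff (mul_pos h2 hc).ne' hNk.ne', pow_succ]
  linear_combination (-(2 * (k : ℝ) * 2 ^ k)) * hR

/-- The share of the never satisfied constraints of a block is of order `N⁻²`. -/
theorem bot_ratio_le (k N : ℕ) (hk : 2 ≤ k) (hN : 2 * k + 2 ≤ N) :
    (botCount k N : ℝ) / (Fintype.card (BlockCon k N) : ℝ)
      ≤ (((k + 1).choose 2 * k.choose 2 * (k + 1).factorial : ℕ) : ℝ) / (N : ℝ) ^ 2 := by
  have hcard : 2 ^ (k + 1) * N.choose (k + 1) ≤ Fintype.card (BlockCon k N) := by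
    rw [card_blockCon, card_clause]
    exact le_trans (Nat.le_add_right _ _) (Nat.le_add_right _ _)
  have hpow : N ^ (k + 1) ≤ (k + 1).factorial * Fintype.card (BlockCon k N) := by
    have h1 : (N - k) ^ (k + 1) ≤ N.descFactorial (k + 1) := by
      have h0 := Nat.pow_sub_le_descFactorial N (k + 1)
      have e : N + 1 - (k + 1) = N - k := by omega
      rwa [e] at h0
    have h2 : N ≤ 2 * (N - k) := by omega
    calc N ^ (k + 1) ≤ (2 * (N - k)) ^ (k + 1) := Nat.pow_le_pow_left h2 _
      _ = 2 ^ (k + 1) * (N - k) ^ (k + 1) := Nat.mul_pow _ _ _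
      _ ≤ 2 ^ (k + 1) * N.descFactorial (k + 1) := Nat.mul_le_mul_left _ h1
      _ = (k + 1).factorial * (2 ^ (k + 1) * N.choose (k + 1)) := by
          rw [Nat.descFactorial_eq_factorial_mul_choose]
          ring
      _ ≤ (k + 1).factorial * Fintype.card (BlockCon k N) := Nat.mul_le_mul_left _ hcard
  have hNpos : 0 < N := by omega
  have hcpos : 0 < Fintype.card (BlockCon k N) :=
    lt_of_lt_of_le (Nat.mul_pos (by positivity) (Nat.choose_pos (by omega))) hcard
  have hb : botCount k N = (k + 1).choose 2 * k.choose 2 * N ^ (k - 1) := rfl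
  have e : N ^ (k - 1) * N ^ 2 = N ^ (k + 1) := by
    rw [← pow_add]
    congr 1
    omega
  have hnat : botCount k N * N ^ 2
      ≤ ((k + 1).choose 2 * k.choose 2 * (k + 1).factorial) * Fintype.card (BlockCon k N) := by
    calc botCount k N * N ^ 2
        = (k + 1).choose 2 * k.choose 2 * N ^ (k - 1) * N ^ 2 :=
          congrArg (fun x => x * N ^ 2) hb
      _ = (k + 1).choose 2 * k.choose 2 * N ^ (k + 1) := by rw [mul_assoc, e]
      _ ≤ (k + 1).choose 2 * k.choose 2 * ((k + 1).factorial * Fintype.card (BlockCon k N)) :=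
          Nat.mul_le_mul_left _ hpow
      _ = ((k + 1).choose 2 * k.choose 2 * (k + 1).factorial) * Fintype.card (BlockCon k N) := by
          ring
  have hcpos' : (0 : ℝ) < (Fintype.card (BlockCon k N) : ℝ) := by exact_mod_cast hcpos
  have hNpos' : (0 : ℝ) < (N : ℝ) ^ 2 := by
    have : (0 : ℝ) < (N : ℝ) := by exact_mod_cast hNpos
    positivity
  rw [div_le_div_iff₀ hcpos' hNpos']
  exact_mod_cast hnat

end Vale.Agent.Lib.P170
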