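import Vale.Agent.Lib.P170.BlockDefs

/-!
The block system is satisfiable as soon as the part of the system in every block is: a union
bound over the blocks.
-/

namespace Vale.Agent.Lib.P170

open Finset

/-- The count `hcount` over all assignments as the cardinality of a filter. -/
theorem union_hcount_univ {X Y : Type*} [Fintype X] (sat : Y → X → Prop) (m : ℕ)
    [DecidablePred (fun G : Fin m → X => ∃ σ, ∀ j, sat σ (G j))] :
    hcount sat Set.univ m
      = (Finset.univ.filter (fun G : Fin m → X => ∃ σ, ∀ j, sat σ (G j))).card := by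
  unfold hcount
  rw [← Fintype.card_subtype, ← Nat.card_eq_fintype_card]
  refine Nat.card_congr (Equiv.subtypeEquivRight (fun G => ?_))
  simp

/-- Assignments of the blocks that satisfy the part of a tuple in every block glue to an
assignment of all variables that satisfies the tuple. -/
theorem union_glue (k p N m : ℕ) (G : Fin m → Fin p × BlockCon k N)
    (hG : ∀ i : Fin p, ∃ τ : Fin N → Bool,
      ∀ j, liftSat (blockEmb (p := p) i) (blockSat (k := k) (N := N)) τ (G j)) :
    ∃ σ : Fin (p * N) → Bool, ∀ j, multiSat σ (G j) := by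
  choose τ hτ using hG
  refine ⟨fun v => τ (finProdFinEquiv.symm v).1 (finProdFinEquiv.symm v).2, fun j => ?_⟩
  have hr : blockRestr (G j).1
      (fun v => τ (finProdFinEquiv.symm v).1 (finProdFinEquiv.symm v).2) = τ (G j).1 := by
    funext v
    simp only [blockRestr, Equiv.symm_apply_apply]
  unfold multiSat
  rw [hr]
  exact hτ (G j).1 j (G j).2 rfl

/-- The union bound over the blocks in counting form: a tuple of constraints whose part in every
block is satisfiable is satisfiable. -/
theorem multi_union_count (k p N m : ℕ) :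
    Fintype.card (Fin p × BlockCon k N) ^ m
        + ∑ i : Fin p, hcount (liftSat (blockEmb (p := p) i) (blockSat (k := k) (N := N)))
            Set.univ m
      ≤ hcount (multiSat (k := k) (p := p) (N := N)) Set.univ m
        + p * Fintype.card (Fin p × BlockCon k N) ^ m := by
  have dE : DecidableEq (Fin m → Fin p × BlockCon k N) :=
    fun _ _ => Classical.propDecidable _
  have dS : DecidablePred (fun G : Fin m → Fin p × BlockCon k N =>
      ∃ σ : Fin (p * N) → Bool, ∀ j, multiSat σ (G j)) := fun _ => Classical.propDecidable _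
  have dT : ∀ i : Fin p, DecidablePred (fun G : Fin m → Fin p × BlockCon k N =>
      ∃ τ : Fin N → Bool,
        ∀ j, liftSat (blockEmb (p := p) i) (blockSat (k := k) (N := N)) τ (G j)) :=
    fun _ _ => Classical.propDecidable _
  obtain ⟨S, hS⟩ : ∃ S : Finset (Fin m → Fin p × BlockCon k N),
      S = Finset.univ.filter (fun G : Fin m → Fin p × BlockCon k N =>
        ∃ σ : Fin (p * N) → Bool, ∀ j, multiSat σ (G j)) := ⟨_, rfl⟩
  obtain ⟨T, hT⟩ : ∃ T : Fin p → Finset (Fin m → Fin p × BlockCon k N),
      T = fun i => Finset.univ.filter (fun G : Fin m → Fin p × BlockCon k N =>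
        ∃ τ : Fin N → Bool,
          ∀ j, liftSat (blockEmb (p := p) i) (blockSat (k := k) (N := N)) τ (G j)) :=
    ⟨_, rfl⟩
  have e1 : hcount (multiSat (k := k) (p := p) (N := N)) Set.univ m = S.card := by
    rw [hS]
    exact union_hcount_univ _ m
  have e2 : ∀ i : Fin p,
      hcount (liftSat (blockEmb (p := p) i) (blockSat (k := k) (N := N))) Set.univ m
        = (T i).card := by
    intro i
    rw [hT]
    exact union_hcount_univ _ m
  have hU : Fintype.card (Fin m → Fin p × BlockCon k N)
      = Fintype.card (Fin p × BlockCon k N) ^ m := by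
    rw [Fintype.card_fun, Fintype.card_fin]
  have hsub : Sᶜ ⊆ Finset.univ.biUnion (fun i => (T i)ᶜ) := by
    intro G hG
    rw [hS, Finset.mem_compl, Finset.mem_filter] at hG
    by_contra hcon
    apply hG
    refine ⟨Finset.mem_univ _, union_glue k p N m G (fun i => ?_)⟩
    by_contra hi
    apply hcon
    rw [Finset.mem_biUnion]
    refine ⟨i, Finset.mem_univ _, ?_⟩
    rw [hT, Finset.mem_compl, Finset.mem_filter]
    exact fun h => hi h.2
  have h1 : S.card + Sᶜ.card = Fintype.card (Fin p × BlockCon k N) ^ m := by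
    rw [Finset.card_add_card_compl, hU]
  have h2 : ∀ i : Fin p,
      (T i).card + (T i)ᶜ.card = Fintype.card (Fin p × BlockCon k N) ^ m := by
    intro i
    rw [Finset.card_add_card_compl, hU]
  have h3 : Sᶜ.card ≤ ∑ i : Fin p, (T i)ᶜ.card :=
    (Finset.card_le_card hsub).trans Finset.card_biUnion_le
  have h4 : ∑ i : Fin p, (T i).card + ∑ i : Fin p, (T i)ᶜ.card
      = p * Fintype.card (Fin p × BlockCon k N) ^ m := by
    rw [← Finset.sum_add_distrib, Finset.sum_congr rfl (fun i _ => h2 i), Finset.sum_const,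
      Finset.card_univ, Fintype.card_fin, smul_eq_mul]
  rw [e1, Finset.sum_congr rfl (fun i _ => e2 i)]
  omega

/-- The algebra behind one term of the binomial sum. -/
theorem union_term (p' b h c : ℝ) (hp : 0 < p') (hb : 0 < b) (a m : ℕ) (ha : a ≤ m) :
    c * (((p' - 1) * b) ^ (m - a) * h) / (p' * b) ^ m
      = c * (1 / p') ^ a * (1 - 1 / p') ^ (m - a) * (h / b ^ a) := by
  obtain ⟨q, rfl⟩ : ∃ q, m = a + q := ⟨m - a, by omega⟩
  rw [Nat.add_sub_cancel_left]
  have h1 : (1 : ℝ) - 1 / p' = (p' - 1) / p' := by field_simp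
  rw [h1, div_pow, div_pow, one_pow, mul_pow, mul_pow, pow_add, pow_add]
  field_simp

/-- The union bound over the blocks: the block system fails to be satisfiable with probability
at most `p` times the probability that the part in one block does. -/
theorem multiQ_lower (k p N m : ℕ) (hk : 2 ≤ k) (hp : 1 ≤ p) (hN : 1 ≤ N) :
    1 - multiQ k p N m
      ≤ p * (1 - ∑ a ∈ Finset.range (m + 1), binW m (1 / (p : ℝ)) a * blockQ k N a) := by
  have hbot : 0 < botCount k N := by
    unfold botCount
    have h1 : 0 < (k + 1).choose 2 := Nat.choose_pos (by omega)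
    have h2 : 0 < k.choose 2 := Nat.choose_pos hk
    have h3 : 0 < N ^ (k - 1) := Nat.pow_pos hN
    exact Nat.mul_pos (Nat.mul_pos h1 h2) h3
  have hbc : 0 < Fintype.card (BlockCon k N) := by
    rw [card_blockCon]
    omega
  obtain ⟨bc, hbcdef⟩ : ∃ bc : ℕ, bc = Fintype.card (BlockCon k N) := ⟨_, rfl⟩
  rw [← hbcdef] at hbc
  have hle : bc ≤ p * bc := Nat.le_mul_of_pos_left bc hp
  obtain ⟨H, hHdef⟩ : ∃ H : ℕ,
      H = hcount (multiSat (k := k) (p := p) (N := N)) Set.univ m := ⟨_, rfl⟩
  obtain ⟨L, hLdef⟩ : ∃ L : ℕ, L = ∑ a ∈ Finset.range (m + 1),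
      m.choose a * ((p * bc - bc) ^ (m - a)
        * hcount (blockSat (k := k) (N := N)) Set.univ a) := ⟨_, rfl⟩
  have hlift : ∀ i : Fin p,
      hcount (liftSat (blockEmb (p := p) i) (blockSat (k := k) (N := N))) Set.univ m = L := by
    intro i
    rw [hcount_lift, Finset.Nat.sum_antidiagonal_eq_sum_range_succ_mk, card_multiCon,
      ← hbcdef, hLdef]
  have hmu : (p * bc) ^ m + p * L ≤ H + p * (p * bc) ^ m := by
    have h0 := multi_union_count k p N m
    rw [Finset.sum_congr rfl (fun i _ => hlift i), Finset.sum_const, Finset.card_univ,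
      Fintype.card_fin, smul_eq_mul, card_multiCon, ← hbcdef, ← hHdef] at h0
    exact h0
  have hp' : (0 : ℝ) < p := by exact_mod_cast hp
  have hb' : (0 : ℝ) < bc := by exact_mod_cast hbc
  obtain ⟨D, hDdef⟩ : ∃ D : ℝ, D = ((p : ℝ) * bc) ^ m := ⟨_, rfl⟩
  have hD : 0 < D := by
    rw [hDdef]
    positivity
  have hmuR : D + p * (L : ℝ) ≤ (H : ℝ) + p * D := by
    rw [hDdef]
    exact_mod_cast hmu
  have hQ : multiQ k p N m = (H : ℝ) / D := by
    unfold multiQ
    rw [card_multiCon, ← hbcdef, ← hHdef, hDdef]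
    push_cast
    rfl
  have hL : (L : ℝ) / D
      = ∑ a ∈ Finset.range (m + 1), binW m (1 / (p : ℝ)) a * blockQ k N a := by
    rw [hLdef, Nat.cast_sum, Finset.sum_div]
    refine Finset.sum_congr rfl (fun a ha => ?_)
    have ha' : a ≤ m := by
      rw [Finset.mem_range] at ha
      omega
    unfold binW blockQ
    rw [← hbcdef, hDdef]
    push_cast [Nat.cast_sub hle]
    have hsub : (p : ℝ) * bc - bc = ((p : ℝ) - 1) * bc := by ring
    rw [hsub]
    exact union_term (p : ℝ) (bc : ℝ) _ _ hp' hb' a m ha'
  rw [hQ, ← hL]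
  have e1 : (1 : ℝ) - H / D = (D - H) / D := by field_simp
  have e2 : (p : ℝ) * (1 - L / D) = (p * (D - L)) / D := by field_simp
  rw [e1, e2]
  exact div_le_div_of_nonneg_right (by linarith) hD.le

end Vale.Agent.Lib.P170
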