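import Vale.Agent.Lib.P170.UnitTransfer

/-!
Unsatisfiability with high probability also passes from `n` to `n + 1` variables at the cost of a
bounded number of clauses (by the restriction coupling); the two transfers combined.
-/

namespace Vale.Agent.Lib.P170

open Finset

theorem one_sub_choose_ratio {k n : ℕ} (hk : k ≤ n) :
    1 - (n.choose k : ℝ) / ((n + 1).choose k : ℝ) = (k : ℝ) / ((n : ℝ) + 1) := by
  have h := Nat.choose_mul_succ_eq n k
  have hc : (0 : ℝ) < ((n + 1).choose k : ℝ) := by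
    exact_mod_cast Nat.choose_pos (by omega)
  have hR : (n.choose k : ℝ) * ((n : ℝ) + 1)
      = ((n + 1).choose k : ℝ) * ((n : ℝ) + 1 - k) := by
    have := congrArg (fun x : ℕ => (x : ℝ)) h
    simp only [Nat.cast_mul] at this
    rw [Nat.cast_sub (by omega)] at this
    push_cast at this
    linarith
  have hn1 : (0 : ℝ) < (n : ℝ) + 1 := by positivity
  rw [sub_eq_iff_eq_add, div_add_div _ _ hn1.ne' hc.ne', eq_div_iff (by positivity)]
  nlinarith

/-- Unsatisfiability with high probability passes from `n` to `n + 1` variables at the cost of a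
bounded number of clauses. -/
theorem unsat_transfer (k : ℕ) (cmax η : ℝ) (hc : 0 ≤ cmax) (hη : 0 < η) :
    ∃ (C : ℕ) (n0 : ℕ), ∀ n : ℕ, n0 ≤ n → ∀ m : ℕ, (m : ℝ) ≤ cmax * n →
      satProb k (n + 1) (m + C) ≤ satProb k n m + η := by
  have hμ0 : 0 ≤ cmax * (k : ℝ) + 1 := by positivity
  obtain ⟨C, hCR⟩ : ∃ C : ℕ, (cmax * (k : ℝ) + 1) + 1 + 3 * (cmax * (k : ℝ) + 1) / η
      ≤ (C : ℝ) := ⟨_, Nat.le_ceil _⟩
  refine ⟨C, max k (C * k), ?_⟩
  intro n hn m hm
  have hkn : k ≤ n := le_trans (le_max_left _ _) hn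
  have hCk : C * k ≤ n := le_trans (le_max_right _ _) hn
  have hCkR : (C : ℝ) * k ≤ n := by exact_mod_cast hCk
  have hn1 : (0 : ℝ) < (n : ℝ) + 1 := by positivity
  have hp0 : 0 ≤ (n.choose k : ℝ) / ((n + 1).choose k : ℝ) := by positivity
  have hp1 : (n.choose k : ℝ) / ((n + 1).choose k : ℝ) ≤ 1 := by
    have hpos : (0 : ℝ) < ((n + 1).choose k : ℝ) := by
      exact_mod_cast Nat.choose_pos (by omega)
    rw [div_le_one hpos]
    exact_mod_cast Nat.choose_le_choose k (Nat.le_succ n)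
  have hmix := satProb_restrict hkn (Nat.le_succ n) (m + C)
  have hmx := mix_le hp0 hp1 (fun j => satProb k n j) (satProb_nonneg k n)
    (satProb_le_one k n) (fun j j' h => satProb_anti k n h) m (m := m + C)
  have h1 : satProb k (n + 1) (m + C) ≤ satProb k n m
      + ∑ j ∈ (range (m + C + 1)).filter (fun j => j < m),
          binW (m + C) ((n.choose k : ℝ) / ((n + 1).choose k : ℝ)) j := by
    refine le_trans hmix (le_trans (le_of_eq ?_) hmx)
    refine Finset.sum_congr rfl (fun j _ => ?_)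
    unfold binW
    rfl
  have hratio := one_sub_choose_ratio hkn
  have hlam0 : 0 ≤ ((m + C : ℕ) : ℝ) * ((k : ℝ) / ((n : ℝ) + 1)) := by positivity
  have hlamle : ((m + C : ℕ) : ℝ) * ((k : ℝ) / ((n : ℝ) + 1)) ≤ cmax * (k : ℝ) + 1 := by
    have hm0 : (0 : ℝ) ≤ m := Nat.cast_nonneg m
    have hk0 : (0 : ℝ) ≤ (k : ℝ) := Nat.cast_nonneg k
    rw [mul_div_assoc', div_le_iff₀ hn1]
    push_cast
    have h2 : (m : ℝ) * k ≤ cmax * n * k := mul_le_mul_of_nonneg_right hm hk0
    nlinarith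
  have hi0lt : ((m + C : ℕ) : ℝ) * (1 - (n.choose k : ℝ) / ((n + 1).choose k : ℝ)) < C := by
    rw [hratio]
    have h3μ : 0 ≤ 3 * (cmax * (k : ℝ) + 1) / η := by positivity
    linarith
  have htail := mixture_tail (m + C) C hp0 hp1 hi0lt
  rw [hratio] at htail
  have hsmall := tail_small hη hlam0 hlamle hCR
  have hfilter : (range (m + C + 1)).filter (fun j => j < m + C - C)
      = (range (m + C + 1)).filter (fun j => j < m) := by
    rw [Nat.add_sub_cancel]
  rw [hfilter] at htail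
  linarith

/-- The two-sided unit step transfer for clause width `k + 1 ≥ 2`. -/
theorem unit_transfer (k : ℕ) (hk1 : 1 ≤ k) (cmax η : ℝ) (hc : 0 ≤ cmax) (hη : 0 < η) :
    ∃ (C : ℕ) (δ : ℝ) (n0 : ℕ), 0 < δ ∧ ∀ n : ℕ, n0 ≤ n → ∀ m : ℕ, (m : ℝ) ≤ cmax * n →
      (satProb (k + 1) n m ≤ δ → satProb (k + 1) (n + 1) (m + C) ≤ η) ∧
      (1 - δ ≤ satProb (k + 1) n (m + C) → 1 - η ≤ satProb (k + 1) (n + 1) m) := by
  obtain ⟨C1, δ1, n1, hδ1, h1⟩ := sat_transfer k hk1 cmax η hc hη
  obtain ⟨C2, n2, h2⟩ := unsat_transfer (k + 1) cmax (η / 2) hc (by positivity)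
  refine ⟨max C1 C2, min δ1 (η / 2), max n1 n2, lt_min hδ1 (by positivity), ?_⟩
  intro n hn m hm
  constructor
  · intro hP
    have h3 := h2 n (le_trans (le_max_right _ _) hn) m hm
    have h4 : satProb (k + 1) (n + 1) (m + max C1 C2) ≤ satProb (k + 1) (n + 1) (m + C2) :=
      satProb_anti _ _ (Nat.add_le_add_left (le_max_right _ _) m)
    have h5 : min δ1 (η / 2) ≤ η / 2 := min_le_right _ _
    linarith
  · intro hP
    have h3 : satProb (k + 1) n (m + max C1 C2) ≤ satProb (k + 1) n (m + C1) :=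
      satProb_anti _ _ (Nat.add_le_add_left (le_max_left _ _) m)
    have h5 : min δ1 (η / 2) ≤ δ1 := min_le_left _ _
    exact h1 n (le_trans (le_max_left _ _) hn) m hm (by linarith)

end Vale.Agent.Lib.P170
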