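import Vale.Agent.Lib.P170.Slow
import Vale.Agent.Lib.P170.UnitBoth

/-!
Consecutive terms of a sharp threshold sequence of random `k`-SAT differ by `o(1)`.
-/

namespace Vale.Agent.Lib.P170

open Filter

theorem ratio_pow_tendsto (k : ℕ) :
    Tendsto (fun n : ℕ => ((((n + 1 : ℕ) : ℝ)) / (n : ℝ)) ^ k) atTop (nhds 1) := by
  have h1 : Tendsto (fun n : ℕ => 1 + 1 / (n : ℝ)) atTop (nhds 1) := by
    have := tendsto_one_div_atTop_nhds_zero_nat.const_add (1 : ℝ)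
    rwa [add_zero] at this
  have h2 : Tendsto (fun n : ℕ => (1 + 1 / (n : ℝ)) ^ k) atTop (nhds 1) := by
    have := h1.pow k
    rwa [one_pow] at this
  refine h2.congr' ?_
  filter_upwards [eventually_ge_atTop 1] with n hn
  have hn0 : (n : ℝ) ≠ 0 := by
    have : (0 : ℝ) < n := by exact_mod_cast hn
    exact this.ne'
  congr 1
  push_cast
  field_simp

/-- The upper half: `r (n + 1) ≤ r n + ε` eventually. -/
theorem consecutive_upper (k : ℕ) (hk : 1 ≤ k) (r : ℕ → ℝ) (hr : IsThresholdSeq k r)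
    (ε : ℝ) (hε : 0 < ε) : ∃ n0 : ℕ, ∀ n, n0 ≤ n → r (n + 1) ≤ r n + ε := by
  obtain ⟨n1, hn1⟩ := threshold_slow_variation k hk r hr 2 (ε / 2) (by norm_num) (by positivity)
  obtain ⟨n2, hn2⟩ := thresholdSeq_bdd hr
  have hCb : (0 : ℝ) < 2 ^ (k + 1) + 2 := by positivity
  have hev : ∀ᶠ n : ℕ in atTop, ((((n + 1 : ℕ) : ℝ)) / (n : ℝ)) ^ (k - 1)
      < 1 + ε / (2 * (2 ^ (k + 1) + 2)) :=
    (ratio_pow_tendsto (k - 1)).eventually_lt_const (by
      have : 0 < ε / (2 * (2 ^ (k + 1) + 2 : ℝ)) := by positivity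
      linarith)
  obtain ⟨n3, hn3⟩ := hev.exists_forall_of_atTop
  refine ⟨max (max n1 n2) (max n3 1), ?_⟩
  intro n hn
  have hn1' : n1 ≤ n := le_trans (le_trans (le_max_left _ _) (le_max_left _ _)) hn
  have hn2' : n2 ≤ n := le_trans (le_trans (le_max_right _ _) (le_max_left _ _)) hn
  have hn3' : n3 ≤ n := le_trans (le_trans (le_max_left _ _) (le_max_right _ _)) hn
  have hn4 : 1 ≤ n := le_trans (le_trans (le_max_right _ _) (le_max_right _ _)) hn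
  have hnR : (1 : ℝ) ≤ n := by exact_mod_cast hn4
  have h1 := hn1 n (n + 1) hn1' (Nat.le_succ n) (by
    push_cast
    linarith)
  have h2 := hn2 n hn2'
  have h3 := hn3 n hn3'
  set ρ := ((((n + 1 : ℕ) : ℝ)) / (n : ℝ)) ^ (k - 1) with hρ
  have hρ1 : 1 ≤ ρ := by
    apply one_le_pow₀
    rw [le_div_iff₀ (by linarith)]
    push_cast
    linarith
  have h4 : (ρ - 1) * r n ≤ (ρ - 1) * (2 ^ (k + 1) + 2) :=
    mul_le_mul_of_nonneg_left h2 (by linarith)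
  have h5 : (ρ - 1) * (2 ^ (k + 1) + 2) ≤ ε / 2 := by
    have : ρ - 1 ≤ ε / (2 * (2 ^ (k + 1) + 2)) := by linarith
    calc (ρ - 1) * (2 ^ (k + 1) + 2)
        ≤ ε / (2 * (2 ^ (k + 1) + 2)) * (2 ^ (k + 1) + 2) :=
          mul_le_mul_of_nonneg_right this hCb.le
      _ = ε / 2 := by
          field_simp
  nlinarith

/-- The lower half: `r n - ε ≤ r (n + 1)` eventually (clause width `k + 1 ≥ 2`). -/
theorem consecutive_lower (k : ℕ) (hk : 1 ≤ k) (r : ℕ → ℝ) (hr : IsThresholdSeq (k + 1) r)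
    (ε : ℝ) (hε : 0 < ε) : ∃ n0 : ℕ, ∀ n, n0 ≤ n → r n - ε ≤ r (n + 1) := by
  have hCb : (0 : ℝ) < 2 ^ (k + 1 + 1) + 2 := by positivity
  obtain ⟨C, δ, n3, hδ, htr⟩ := sat_transfer k hk (2 ^ (k + 1 + 1) + 2) (1 / 2) hCb.le
    (by norm_num)
  obtain ⟨n2, hn2⟩ := thresholdSeq_bdd hr
  have hT1 := (hr (ε / 4) (by positivity)).1
  have hT2 := (hr (ε / 4) (by positivity)).2
  rw [Metric.tendsto_atTop] at hT1 hT2
  obtain ⟨n4, hn4⟩ := hT1 δ hδ
  obtain ⟨n5, hn5⟩ := hT2 (1 / 2) (by norm_num)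
  refine ⟨max (max n2 n3) (max (max n4 n5)
    (max (⌈(C : ℝ) / (ε / 4)⌉₊ + 1) (⌈(2 ^ (k + 1 + 1) + 2 : ℝ) / (ε / 4)⌉₊ + 1))), ?_⟩
  intro n hn
  have hn2' : n2 ≤ n := le_trans (le_trans (le_max_left _ _) (le_max_left _ _)) hn
  have hn3' : n3 ≤ n := le_trans (le_trans (le_max_right _ _) (le_max_left _ _)) hn
  have hn4' : n4 ≤ n :=
    le_trans (le_trans (le_trans (le_max_left _ _) (le_max_left _ _)) (le_max_right _ _)) hn
  have hn5' : n5 ≤ n + 1 :=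
    le_trans (le_trans (le_trans (le_trans (le_max_right _ _) (le_max_left _ _))
      (le_max_right _ _)) hn) (Nat.le_succ n)
  have hn6 : ⌈(C : ℝ) / (ε / 4)⌉₊ + 1 ≤ n :=
    le_trans (le_trans (le_trans (le_max_left _ _) (le_max_right _ _)) (le_max_right _ _)) hn
  have hn7 : ⌈(2 ^ (k + 1 + 1) + 2 : ℝ) / (ε / 4)⌉₊ + 1 ≤ n :=
    le_trans (le_trans (le_trans (le_max_right _ _) (le_max_right _ _)) (le_max_right _ _)) hn
  have hCn : (C : ℝ) ≤ ε / 4 * n := by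
    have h1 : (C : ℝ) / (ε / 4) ≤ (⌈(C : ℝ) / (ε / 4)⌉₊ : ℝ) := Nat.le_ceil _
    have h2 : ((⌈(C : ℝ) / (ε / 4)⌉₊ + 1 : ℕ) : ℝ) ≤ n := by exact_mod_cast hn6
    push_cast at h2
    have h3 : (C : ℝ) / (ε / 4) ≤ n := by linarith
    rw [div_le_iff₀ (by positivity)] at h3
    linarith
  have hCbn : (2 ^ (k + 1 + 1) + 2 : ℝ) ≤ ε / 4 * n := by
    have h1 : (2 ^ (k + 1 + 1) + 2 : ℝ) / (ε / 4)
        ≤ (⌈(2 ^ (k + 1 + 1) + 2 : ℝ) / (ε / 4)⌉₊ : ℝ) := Nat.le_ceil _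
    have h2 : ((⌈(2 ^ (k + 1 + 1) + 2 : ℝ) / (ε / 4)⌉₊ + 1 : ℕ) : ℝ) ≤ n := by
      exact_mod_cast hn7
    push_cast at h2
    have h3 : (2 ^ (k + 1 + 1) + 2 : ℝ) / (ε / 4) ≤ n := by linarith
    rw [div_le_iff₀ (by positivity)] at h3
    linarith
  have hnpos : (0 : ℝ) < n := by
    by_contra hcon
    rw [not_lt] at hcon
    have : ε / 4 * (n : ℝ) ≤ 0 := mul_nonpos_of_nonneg_of_nonpos (by positivity) hcon
    linarith
  -- the upper density at `n + 1` is positive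
  have hd2 := hn5 (n + 1) hn5'
  rw [Real.dist_eq] at hd2
  have hd2' := (abs_lt.mp hd2).2
  have hpos1 : 0 < (r (n + 1) + ε / 4) * ((n + 1 : ℕ) : ℝ) := by
    by_contra hneg
    rw [not_lt] at hneg
    rw [Nat.floor_of_nonpos hneg, satProb_zero] at hd2'
    norm_num at hd2'
  have hpos1' : 0 < r (n + 1) + ε / 4 := by
    by_contra hneg
    rw [not_lt] at hneg
    have : (r (n + 1) + ε / 4) * ((n + 1 : ℕ) : ℝ) ≤ 0 :=
      mul_nonpos_of_nonpos_of_nonneg hneg (Nat.cast_nonneg _)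
    linarith
  rcases lt_or_ge (r n) (2 * (ε / 4)) with hsmall | hbig
  · linarith
  · have hb := hn2 n hn2'
    set m := ⌊(r n - 2 * (ε / 4)) * (n : ℝ)⌋₊ with hm
    have hx0 : 0 ≤ (r n - 2 * (ε / 4)) * (n : ℝ) := mul_nonneg (by linarith) hnpos.le
    have hmle : (m : ℝ) ≤ (r n - 2 * (ε / 4)) * (n : ℝ) := Nat.floor_le hx0
    have hmgt : (r n - 2 * (ε / 4)) * (n : ℝ) - 1 < m := Nat.sub_one_lt_floor _
    have hmmax : (m : ℝ) ≤ (2 ^ (k + 1 + 1) + 2) * (n : ℝ) := by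
      have : (r n - 2 * (ε / 4)) * (n : ℝ) ≤ (2 ^ (k + 1 + 1) + 2) * (n : ℝ) :=
        mul_le_mul_of_nonneg_right (by linarith) hnpos.le
      linarith
    have hmC : m + C ≤ ⌊(r n - ε / 4) * (n : ℝ)⌋₊ := by
      apply Nat.le_floor
      push_cast
      nlinarith
    have hd1 := hn4 n hn4'
    rw [Real.dist_eq] at hd1
    have hd1' := (abs_lt.mp hd1).1
    have hP : 1 - δ ≤ satProb (k + 1) n (m + C) := by
      have := satProb_anti (k + 1) n hmC
      linarith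
    have hhalf := htr n hn3' m hmmax hP
    have hlt : m < ⌊(r (n + 1) + ε / 4) * ((n + 1 : ℕ) : ℝ)⌋₊ := by
      by_contra hcon
      rw [not_lt] at hcon
      have := satProb_anti (k + 1) (n + 1) hcon
      linarith
    have hle : ((m + 1 : ℕ) : ℝ) ≤ (r (n + 1) + ε / 4) * ((n + 1 : ℕ) : ℝ) :=
      (Nat.le_floor_iff' (Nat.succ_ne_zero m)).mp hlt
    push_cast at hle
    have hkey : 0 < (r (n + 1) - r n + ε) * ((n : ℝ) + 1) := by nlinarith
    have hn1pos : (0 : ℝ) < (n : ℝ) + 1 := by linarith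
    have hfin : 0 < r (n + 1) - r n + ε := by
      by_contra hneg
      rw [not_lt] at hneg
      have := mul_nonpos_of_nonpos_of_nonneg hneg hn1pos.le
      linarith
    linarith

/-- Consecutive terms of a sharp threshold sequence of random `k`-SAT, `k ≥ 2`, differ by `o(1)`. -/
theorem consecutive_threshold (k : ℕ) (hk : 2 ≤ k) (r : ℕ → ℝ) (hr : IsThresholdSeq k r) :
    Tendsto (fun n : ℕ => r (n + 1) - r n) atTop (nhds 0) := by
  obtain ⟨k', rfl⟩ : ∃ k', k = k' + 1 := ⟨k - 1, by omega⟩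
  rw [Metric.tendsto_atTop]
  intro ε hε
  obtain ⟨n1, hn1⟩ := consecutive_upper (k' + 1) (by omega) r hr (ε / 2) (by positivity)
  obtain ⟨n2, hn2⟩ := consecutive_lower k' (by omega) r hr (ε / 2) (by positivity)
  refine ⟨max n1 n2, ?_⟩
  intro n hn
  have h1 := hn1 n (le_trans (le_max_left _ _) hn)
  have h2 := hn2 n (le_trans (le_max_right _ _) hn)
  rw [Real.dist_eq, sub_zero, abs_lt]
  constructor <;> linarith

end Vale.Agent.Lib.P170
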