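import Vale.Agent.Lib.P170.Restrict
import Vale.Agent.Lib.P170.Mixed

/-!
Adding one variable: the clauses on `n + 1` variables that contain the new variable, and the
resulting lower bound for the number of satisfiable formulas on `n + 1` variables.
-/

namespace Vale.Agent.Lib.P170

open Finset

theorem last_notMem_map {n : ℕ} (S : Finset (Fin n)) :
    Fin.last n ∉ S.map Fin.castSuccEmb := by
  intro h
  obtain ⟨i, _, hi⟩ := Finset.mem_map.mp h
  exact (Fin.castSucc_lt_last i).ne hi

/-- Extend a `k`-clause on `n` variables by a literal of the new variable `Fin.last n`, which is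
negated exactly when the Boolean is `true`. -/
def extClause {k n : ℕ} (p : Clause k n × Bool) : Clause (k + 1) (n + 1) :=
  ⟨(insert (Fin.last n) (p.1.1.1.map Fin.castSuccEmb),
    if p.2 then insert (Fin.last n) (p.1.1.2.map Fin.castSuccEmb)
    else p.1.1.2.map Fin.castSuccEmb), by
    refine ⟨?_, ?_⟩
    · rw [Finset.card_insert_of_notMem (last_notMem_map _), Finset.card_map, p.1.2.1]
    · split
      · exact Finset.insert_subset_insert _ (Finset.map_subset_map.mpr p.1.2.2)
      · exact (Finset.map_subset_map.mpr p.1.2.2).trans (Finset.subset_insert _ _)⟩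

theorem extClause_vars {k n : ℕ} (p : Clause k n × Bool) :
    (extClause p).1.1 = insert (Fin.last n) (p.1.1.1.map Fin.castSuccEmb) := rfl

theorem extClause_neg {k n : ℕ} (p : Clause k n × Bool) :
    (extClause p).1.2 = if p.2 then insert (Fin.last n) (p.1.1.2.map Fin.castSuccEmb)
      else p.1.1.2.map Fin.castSuccEmb := rfl

theorem extClause_injective {k n : ℕ} : Function.Injective (extClause (k := k) (n := n)) := by
  rintro ⟨e, s⟩ ⟨e', s'⟩ h
  have hv : insert (Fin.last n) (e.1.1.map Fin.castSuccEmb)
      = insert (Fin.last n) (e'.1.1.map Fin.castSuccEmb) :=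
    congrArg (fun E : Clause (k + 1) (n + 1) => E.1.1) h
  have hN : (if s then insert (Fin.last n) (e.1.2.map Fin.castSuccEmb)
        else e.1.2.map Fin.castSuccEmb)
      = (if s' then insert (Fin.last n) (e'.1.2.map Fin.castSuccEmb)
        else e'.1.2.map Fin.castSuccEmb) :=
    congrArg (fun E : Clause (k + 1) (n + 1) => E.1.2) h
  have hS : e.1.1 = e'.1.1 := by
    have h1 := congrArg (fun T => T.erase (Fin.last n)) hv
    simp only [Finset.erase_insert (last_notMem_map _)] at h1
    exact Finset.map_injective _ h1
  have hs : s = s' := by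
    cases s <;> cases s'
    · rfl
    · exfalso
      simp only [Bool.false_eq_true, if_false, if_true] at hN
      have : Fin.last n ∈ e.1.2.map Fin.castSuccEmb := by
        rw [hN]
        exact Finset.mem_insert_self _ _
      exact last_notMem_map _ this
    · exfalso
      simp only [Bool.false_eq_true, if_false, if_true] at hN
      have : Fin.last n ∈ e'.1.2.map Fin.castSuccEmb := by
        rw [← hN]
        exact Finset.mem_insert_self _ _
      exact last_notMem_map _ this
    · rfl
  subst hs
  have hN' : e.1.2 = e'.1.2 := by
    cases s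
    · simp only [Bool.false_eq_true, if_false] at hN
      exact Finset.map_injective _ hN
    · simp only [if_true] at hN
      have h1 := congrArg (fun T => T.erase (Fin.last n)) hN
      simp only [Finset.erase_insert (last_notMem_map _)] at h1
      exact Finset.map_injective _ h1
  have : e = e' := Subtype.ext (Prod.ext hS hN')
  rw [this]

theorem last_notMem_push {k n : ℕ} (x : Clause k n) :
    Fin.last n ∉ (pushClause (Nat.le_succ n) x).1.1 := by
  intro h
  have h' : Fin.last n ∈ x.1.1.map (Fin.castLEEmb (Nat.le_succ n)) := h
  obtain ⟨i, _, hi⟩ := Finset.mem_map.mp h'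
  have := congrArg Fin.val hi
  simp at this
  omega

/-- The clauses on `n + 1` variables obtained from a clause on `n` variables, either of the same
width (not using the new variable) or of width one less (extended by the new variable). -/
def liftMap {k n : ℕ} : Clause (k + 1) n ⊕ (Clause k n × Bool) → Clause (k + 1) (n + 1) :=
  Sum.elim (pushClause (Nat.le_succ n)) extClause

theorem liftMap_injective {k n : ℕ} : Function.Injective (liftMap (k := k) (n := n)) := by
  rintro (x | p) (y | q) h
  · exact congrArg Sum.inl ((pushClause (Nat.le_succ n)).injective h)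
  · exfalso
    have h' : pushClause (Nat.le_succ n) x = extClause q := h
    have h1 := last_notMem_push x
    rw [h', extClause_vars] at h1
    exact h1 (Finset.mem_insert_self _ _)
  · exfalso
    have h' : extClause p = pushClause (Nat.le_succ n) y := h
    have h1 := last_notMem_push y
    rw [← h', extClause_vars] at h1
    exact h1 (Finset.mem_insert_self _ _)
  · exact congrArg Sum.inr (extClause_injective h)

theorem sat_push_snoc {k n : ℕ} (σ : Fin n → Bool) (x : Clause k n) (h : ClauseSat σ x) :
    ClauseSat (Fin.snoc σ true : Fin (n + 1) → Bool) (pushClause (Nat.le_succ n) x) := by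
  rw [clauseSat_push]
  have : (fun i : Fin n => (Fin.snoc σ true : Fin (n + 1) → Bool) (Fin.castLE (Nat.le_succ n) i))
      = σ := by
    funext i
    exact Fin.snoc_castSucc (α := fun _ => Bool) true σ i
  rw [this]
  exact h

theorem sat_ext_snoc {k n : ℕ} (σ : Fin n → Bool) (e : Clause k n) (s : Bool)
    (h : ClauseSat σ e) :
    ClauseSat (Fin.snoc σ true : Fin (n + 1) → Bool) (extClause (e, s)) := by
  obtain ⟨i, hi, hiff⟩ := h
  refine ⟨Fin.castSucc i, ?_, ?_⟩
  · rw [extClause_vars]
    exact Finset.mem_insert_of_mem (Finset.mem_map.mpr ⟨i, hi, rfl⟩)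
  · have e1 : (Fin.snoc σ true : Fin (n + 1) → Bool) (Fin.castSucc i) = σ i :=
      Fin.snoc_castSucc (α := fun _ => Bool) true σ i
    rw [e1, hiff, extClause_neg]
    have hmem : Fin.castSucc i ∈ e.1.2.map Fin.castSuccEmb ↔ i ∈ e.1.2 := by
      constructor
      · intro hm
        obtain ⟨i2, hi2, he⟩ := Finset.mem_map.mp hm
        have : i2 = i := Fin.castSuccEmb.injective he
        exact this ▸ hi2
      · intro hm
        exact Finset.mem_map.mpr ⟨i, hm, rfl⟩
    cases s
    · simp only [Bool.false_eq_true, if_false]
      rw [hmem]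
    · simp only [if_true, Finset.mem_insert, not_or]
      rw [hmem]
      constructor
      · intro hn
        exact ⟨(Fin.castSucc_lt_last i).ne, hn⟩
      · intro hn
        exact hn.2

theorem card_clause_succ (k n : ℕ) :
    Fintype.card (Clause (k + 1) (n + 1))
      = Fintype.card (Clause (k + 1) n) + 2 * Fintype.card (Clause k n) := by
  rw [card_clause, card_clause, card_clause, Nat.choose_succ_succ]
  ring

/-- Lower bound for the number of satisfiable formulas on `n + 1` variables by mixed counts on
`n` variables. -/
theorem satCount_lift_lower (k n m : ℕ) :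
    ∑ ij ∈ antidiagonal m, m.choose ij.1 *
        (2 ^ ij.2 * mixN (ClauseSat (k := k + 1) (n := n)) (ClauseSat (k := k) (n := n))
          ij.2 ij.1 Set.univ)
      ≤ satCount (k + 1) (n + 1) m := by
  have h := lift_lower
    (fun (σ : Fin n → Bool) (x' : Clause (k + 1) (n + 1)) =>
      ClauseSat (Fin.snoc σ true : Fin (n + 1) → Bool) x')
    (ClauseSat (k := k + 1) (n := n)) (ClauseSat (k := k) (n := n)) liftMap liftMap_injective
    (fun σ x hx => sat_push_snoc σ x hx) (fun σ e s he => sat_ext_snoc σ e s he) Set.univ m
  refine le_trans h ?_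
  unfold satCount hcount
  refine Nat.card_le_card_of_injective
    (fun F => (⟨F.1, ?_⟩ : {F : Fin m → Clause (k + 1) (n + 1) // Satisfiable F})) ?_
  · obtain ⟨σ, -, hσ⟩ := F.2
    exact ⟨Fin.snoc σ true, hσ⟩
  · intro F1 F2 h12
    apply Subtype.ext
    simpa using congrArg Subtype.val h12

end Vale.Agent.Lib.P170
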