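import Vale.Agent.Lib.P170.Restrict

/-!
The first moment bound for random `k`-SAT and the resulting bound on threshold sequences.
-/

namespace Vale.Agent.Lib.P170

open Finset

open scoped Classical in
/-- The clauses violated by a fixed assignment are in bijection with the `k`-sets of variables. -/
theorem card_unsat (k n : ℕ) (σ : Fin n → Bool) :
    (Finset.univ.filter (fun C : Clause k n => ¬ ClauseSat σ C)).card = n.choose k := by
  classical
  have hcard : n.choose k = (Finset.powersetCard k (Finset.univ : Finset (Fin n))).card := by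
    rw [Finset.card_powersetCard, Finset.card_univ, Fintype.card_fin]
  rw [hcard]
  symm
  refine Finset.card_bij
    (fun S hS => (⟨(S, S.filter (fun i => σ i = true)),
      ⟨(Finset.mem_powersetCard.mp hS).2, Finset.filter_subset _ _⟩⟩ : Clause k n)) ?_ ?_ ?_
  · intro S hS
    simp only [Finset.mem_filter, Finset.mem_univ, true_and]
    rintro ⟨i, hi, hiff⟩
    simp only [Finset.mem_filter, not_and] at hiff
    by_cases hσ : σ i = true
    · exact (hiff.mp hσ) hi hσ
    · exact hσ (hiff.mpr (fun _ => hσ))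
  · intro S _ T _ hST
    have := congrArg (fun E : Clause k n => E.1.1) hST
    exact this
  · intro C hC
    have hC' : ¬ ClauseSat σ C := (Finset.mem_filter.mp hC).2
    refine ⟨C.1.1, Finset.mem_powersetCard.mpr ⟨Finset.subset_univ _, C.2.1⟩, ?_⟩
    apply Subtype.ext
    apply Prod.ext
    · rfl
    · show C.1.1.filter (fun i => σ i = true) = C.1.2
      ext i
      simp only [Finset.mem_filter]
      constructor
      · rintro ⟨hi, hσ⟩
        by_contra hiN
        exact hC' ⟨i, hi, by simp [hσ, hiN]⟩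
      · intro hiN
        refine ⟨C.2.2 hiN, ?_⟩
        by_contra hσ
        exact hC' ⟨i, C.2.2 hiN, by simp [hσ, hiN]⟩

open scoped Classical in
theorem card_sat (k n : ℕ) (σ : Fin n → Bool) :
    (Finset.univ.filter (fun C : Clause k n => ClauseSat σ C)).card = (2 ^ k - 1) * n.choose k := by
  classical
  have h := Finset.card_filter_add_card_filter_not (s := (Finset.univ : Finset (Clause k n)))
    (fun C : Clause k n => ClauseSat σ C)
  rw [card_unsat, Finset.card_univ, card_clause] at h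
  have h2 : (2 ^ k - 1) * n.choose k + n.choose k = 2 ^ k * n.choose k := by
    have : 1 ≤ 2 ^ k := Nat.one_le_two_pow
    calc (2 ^ k - 1) * n.choose k + n.choose k = (2 ^ k - 1 + 1) * n.choose k := by ring
      _ = 2 ^ k * n.choose k := by rw [Nat.sub_add_cancel this]
  omega

theorem satCount_le_first_moment (k n m : ℕ) :
    satCount k n m ≤ 2 ^ n * ((2 ^ k - 1) * n.choose k) ^ m := by
  classical
  unfold satCount
  rw [Nat.card_eq_fintype_card, Fintype.card_subtype]
  have hsub : (Finset.univ.filter (fun F : Fin m → Clause k n => Satisfiable F)) ⊆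
      Finset.univ.biUnion (fun σ : Fin n → Bool =>
        Fintype.piFinset (fun _ : Fin m =>
          Finset.univ.filter (fun C : Clause k n => ClauseSat σ C))) := by
    intro F hF
    obtain ⟨σ, hσ⟩ := (Finset.mem_filter.mp hF).2
    simp only [Finset.mem_biUnion, Finset.mem_univ, true_and, Fintype.mem_piFinset,
      Finset.mem_filter]
    exact ⟨σ, hσ⟩
  refine le_trans (Finset.card_le_card hsub) (le_trans Finset.card_biUnion_le ?_)
  simp only [Fintype.card_piFinset, Finset.prod_const, Finset.card_univ, Fintype.card_fin,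
    card_sat]
  simp [Finset.card_univ]

/-- The first moment bound `P_{k,n}(m) ≤ 2^n (1 - 2^(-k))^m`. -/
theorem satProb_le_first_moment {k n : ℕ} (hk : k ≤ n) (m : ℕ) :
    satProb k n m ≤ 2 ^ n * (1 - 1 / 2 ^ k : ℝ) ^ m := by
  rw [satProb_eq, card_clause]
  have hc : (0 : ℝ) < (n.choose k : ℝ) := by exact_mod_cast Nat.choose_pos hk
  have h2 : (0 : ℝ) < (2 : ℝ) ^ k := by positivity
  have hden : (0 : ℝ) < (((2 ^ k * n.choose k : ℕ) : ℝ)) ^ m := by
    push_cast
    positivity
  rw [div_le_iff₀ hden]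
  have h := satCount_le_first_moment k n m
  have h' : (satCount k n m : ℝ) ≤ ((2 ^ n * ((2 ^ k - 1) * n.choose k) ^ m : ℕ) : ℝ) := by
    exact_mod_cast h
  refine le_trans h' (le_of_eq ?_)
  have h1 : ((2 ^ k - 1 : ℕ) : ℝ) = (2 : ℝ) ^ k - 1 := by
    rw [Nat.cast_sub Nat.one_le_two_pow]
    push_cast
    ring
  push_cast
  rw [h1, mul_assoc, ← mul_pow]
  congr 2
  field_simp

theorem half_pow_bound (k : ℕ) : (1 - 1 / 2 ^ k : ℝ) ^ (2 ^ k) ≤ 1 / 2 := by
  have hx0 : (0 : ℝ) < 1 / 2 ^ k := by positivity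
  have hx1 : (1 : ℝ) / 2 ^ k ≤ 1 := by
    rw [div_le_one (by positivity)]
    exact one_le_pow₀ (by norm_num)
  have h1 : (2 : ℝ) ≤ (1 + 1 / 2 ^ k : ℝ) ^ (2 ^ k) := by
    have := one_add_mul_le_pow (show (-2 : ℝ) ≤ 1 / 2 ^ k by linarith) (2 ^ k)
    have e : (1 : ℝ) + ((2 ^ k : ℕ) : ℝ) * (1 / 2 ^ k) = 2 := by
      push_cast
      field_simp
      norm_num
    rw [e] at this
    exact this
  have h2 : (1 - 1 / 2 ^ k : ℝ) ^ (2 ^ k) * (1 + 1 / 2 ^ k : ℝ) ^ (2 ^ k) ≤ 1 := by
    rw [← mul_pow]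
    apply pow_le_one₀
    · nlinarith
    · nlinarith
  have h3 : (0 : ℝ) ≤ (1 - 1 / 2 ^ k : ℝ) ^ (2 ^ k) := by
    apply pow_nonneg
    linarith
  nlinarith

/-- At clause density `2^k (n+1)/n` the formula is satisfiable with probability at most `1/2`. -/
theorem satProb_le_half {k n : ℕ} (hk : k ≤ n) {m : ℕ} (hm : 2 ^ k * (n + 1) ≤ m) :
    satProb k n m ≤ 1 / 2 := by
  refine le_trans (satProb_anti k n hm) (le_trans (satProb_le_first_moment hk _) ?_)
  rw [pow_mul]
  have h := half_pow_bound k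
  have h0 : (0 : ℝ) ≤ (1 - 1 / 2 ^ k : ℝ) ^ (2 ^ k) := by
    apply pow_nonneg
    have : (1 : ℝ) / 2 ^ k ≤ 1 := by
      rw [div_le_one (by positivity)]
      exact one_le_pow₀ (by norm_num)
    linarith
  calc (2 : ℝ) ^ n * ((1 - 1 / 2 ^ k : ℝ) ^ (2 ^ k)) ^ (n + 1)
      ≤ (2 : ℝ) ^ n * (1 / 2) ^ (n + 1) :=
        mul_le_mul_of_nonneg_left (pow_le_pow_left₀ h0 h _) (by positivity)
    _ = 1 / 2 := by
        rw [pow_succ, one_div, inv_pow]
        field_simp

theorem satProb_zero (k n : ℕ) : satProb k n 0 = 1 := by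
  rw [satProb_eq]
  have : satCount k n 0 = 1 := by
    unfold satCount
    have : Nat.card {F : Fin 0 → Clause k n // Satisfiable F} = Nat.card (Fin 0 → Clause k n) := by
      refine Nat.card_congr (Equiv.subtypeUnivEquiv ?_)
      intro F
      exact ⟨fun _ => true, fun j => Fin.elim0 j⟩
    rw [this]
    simp
  rw [this]
  simp

/-- Every sharp threshold sequence is eventually bounded above. -/
theorem thresholdSeq_bdd {k : ℕ} {r : ℕ → ℝ} (hr : IsThresholdSeq k r) :
    ∃ n0 : ℕ, ∀ n, n0 ≤ n → r n ≤ 2 ^ (k + 1) + 2 := by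
  have h1 := (hr 1 one_pos).1
  rw [Metric.tendsto_atTop] at h1
  obtain ⟨n1, hn1⟩ := h1 (1 / 2) (by norm_num)
  refine ⟨max n1 (max k 1), ?_⟩
  intro n hn
  by_contra hcon
  rw [not_le] at hcon
  have hn1' : n1 ≤ n := le_trans (le_max_left _ _) hn
  have hkn : k ≤ n := le_trans (le_trans (le_max_left _ _) (le_max_right _ _)) hn
  have hn0 : 1 ≤ n := le_trans (le_trans (le_max_right _ _) (le_max_right _ _)) hn
  have hnR : (1 : ℝ) ≤ n := by exact_mod_cast hn0
  have hd := hn1 n hn1'
  rw [Real.dist_eq] at hd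
  have hd' := (abs_lt.mp hd).1
  have hm : 2 ^ k * (n + 1) ≤ ⌊(r n - 1) * (n : ℝ)⌋₊ := by
    apply Nat.le_floor
    push_cast
    have h2 : (1 : ℝ) ≤ (2 : ℝ) ^ k := one_le_pow₀ (by norm_num)
    have h3 : (2 : ℝ) ^ (k + 1) = 2 * 2 ^ k := by ring
    have h4 : (2 * 2 ^ k + 1) * (n : ℝ) ≤ (r n - 1) * n :=
      mul_le_mul_of_nonneg_right (by linarith) (by linarith)
    nlinarith
  have := satProb_le_half hkn hm
  linarith

end Vale.Agent.Lib.P170
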