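import Vale.Agent.Lib.P170.Mixed

/-!
The interpolation inequality for two kinds of constraints: if constraints of the first kind are
compatible with every set of assignments at least as often as constraints of the second kind,
then tuples of constraints of the first kind are satisfiable at least as often.
-/

namespace Vale.Agent.Lib.P170

open Finset

section Interp

variable {X1 X2 Y : Type*}

/-- With no constraints of the first kind the mixed count is the count of the second kind. -/
theorem mixN_zero_right [Fintype X2] (sat1 : Y → X1 → Prop) (sat2 : Y → X2 → Prop) (i : ℕ)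
    (A : Set Y) : mixN sat1 sat2 i 0 A = hcount sat2 A i := by
  induction i generalizing A with
  | zero =>
    rw [mixN_zero]
    exact hcount_zero_eq sat2 sat1 A
  | succ i ih =>
    rw [mixN_succ_i, hcount_succ]
    exact Finset.sum_congr rfl (fun e _ => ih _)

open scoped Classical in
/-- One constraint: the count is the number of constraints compatible with some member of `A`. -/
theorem hcount_one [Fintype X1] (sat1 : Y → X1 → Prop) (A : Set Y) :
    hcount sat1 A 1 = (Finset.univ.filter (fun x : X1 => ∃ σ ∈ A, sat1 σ x)).card := by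
  rw [hcount_succ sat1 A 0, Finset.card_eq_sum_ones, Finset.sum_filter]
  refine Finset.sum_congr rfl (fun e _ => ?_)
  by_cases h : ∃ σ ∈ A, sat1 σ e
  · rw [if_pos h]
    apply hcount_zero_of_nonempty
    obtain ⟨σ, hσ, hs⟩ := h
    exact ⟨σ, hσ, hs⟩
  · rw [if_neg h]
    have hem : A ∩ {σ | sat1 σ e} = ∅ := by
      ext σ
      simp only [Set.mem_inter_iff, Set.mem_ofPred_eq, Set.mem_empty_iff_false, iff_false,
        not_and]
      intro hσ hs
      exact h ⟨σ, hσ, hs⟩
    rw [hem, hcount_empty]

open scoped Classical in
/-- The exchange step of the interpolation. -/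
theorem interp_step [Fintype X1] [Fintype X2] (sat1 : Y → X1 → Prop) (sat2 : Y → X2 → Prop)
    (hK : ∀ A : Set Y,
      Fintype.card X1 * (Finset.univ.filter (fun e : X2 => ∃ σ ∈ A, sat2 σ e)).card
        ≤ Fintype.card X2 * (Finset.univ.filter (fun x : X1 => ∃ σ ∈ A, sat1 σ x)).card)
    (i a : ℕ) (A : Set Y) :
    Fintype.card X1 * mixN sat1 sat2 (i + 1) a A
      ≤ Fintype.card X2 * mixN sat1 sat2 i (a + 1) A := by
  have base : ∀ (j : ℕ) (B : Set Y),
      Fintype.card X1 * mixN sat1 sat2 (j + 1) 0 B
        ≤ Fintype.card X2 * mixN sat1 sat2 j (0 + 1) B := by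
    intro j
    induction j with
    | zero =>
      intro B
      rw [mixN_one_zero, mixN_zero, hcount_one]
      exact hK B
    | succ j ih =>
      intro B
      rw [mixN_succ_i sat1 sat2 (j + 1) 0, mixN_succ_i sat1 sat2 j (0 + 1), Finset.mul_sum,
        Finset.mul_sum]
      exact Finset.sum_le_sum (fun e _ => ih _)
  induction a generalizing A with
  | zero => exact base i A
  | succ a iha =>
    rw [mixN_succ_a sat1 sat2 (i + 1) a, mixN_succ_a sat1 sat2 i (a + 1), Finset.mul_sum,
      Finset.mul_sum]
    exact Finset.sum_le_sum (fun x _ => iha _)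

open scoped Classical in
/-- The interpolation inequality in counting form. -/
theorem interp_count [Fintype X1] [Fintype X2] (sat1 : Y → X1 → Prop) (sat2 : Y → X2 → Prop)
    (hK : ∀ A : Set Y,
      Fintype.card X1 * (Finset.univ.filter (fun e : X2 => ∃ σ ∈ A, sat2 σ e)).card
        ≤ Fintype.card X2 * (Finset.univ.filter (fun x : X1 => ∃ σ ∈ A, sat1 σ x)).card)
    (m : ℕ) (A : Set Y) :
    Fintype.card X1 ^ m * hcount sat2 A m ≤ Fintype.card X2 ^ m * hcount sat1 A m := by
  have key : ∀ (i a : ℕ) (B : Set Y),
      Fintype.card X1 ^ i * mixN sat1 sat2 i a B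
        ≤ Fintype.card X2 ^ i * mixN sat1 sat2 0 (a + i) B := by
    intro i
    induction i with
    | zero =>
      intro a B
      simp
    | succ i ih =>
      intro a B
      have h1 := interp_step sat1 sat2 hK i a B
      have h2 := ih (a + 1) B
      have e : a + 1 + i = a + (i + 1) := by omega
      rw [e] at h2
      calc Fintype.card X1 ^ (i + 1) * mixN sat1 sat2 (i + 1) a B
          = Fintype.card X1 ^ i * (Fintype.card X1 * mixN sat1 sat2 (i + 1) a B) := by ring
        _ ≤ Fintype.card X1 ^ i * (Fintype.card X2 * mixN sat1 sat2 i (a + 1) B) :=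
            Nat.mul_le_mul_left _ h1
        _ = Fintype.card X2 * (Fintype.card X1 ^ i * mixN sat1 sat2 i (a + 1) B) := by ring
        _ ≤ Fintype.card X2 * (Fintype.card X2 ^ i * mixN sat1 sat2 0 (a + (i + 1)) B) :=
            Nat.mul_le_mul_left _ h2
        _ = Fintype.card X2 ^ (i + 1) * mixN sat1 sat2 0 (a + (i + 1)) B := by ring
  have h := key m 0 A
  rw [mixN_zero_right, mixN_zero, zero_add] at h
  exact h

end Interp

end Vale.Agent.Lib.P170
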