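import Vale.Agent.Lib.P170.FirstMoment

/-!
A limiting threshold along a sequence of numbers of variables is the limit of every sharp
threshold sequence along that sequence.
-/

namespace Vale.Agent.Lib.P170

open Filter

/-- If `α` is a limiting threshold along the strictly increasing sequence `ν`, then every sharp
threshold sequence converges to `α` along `ν`. -/
theorem tendsto_of_limitingAlong (k : ℕ) (r : ℕ → ℝ) (hr : IsThresholdSeq k r) (ν : ℕ → ℕ)
    (hν : StrictMono ν) (α : ℝ) (h : LimitingThresholdAlong k ν α) :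
    Tendsto (fun j => r (ν j)) atTop (nhds α) := by
  obtain ⟨hα, hlow, hup⟩ := h
  have hνt : Tendsto ν atTop atTop := hν.tendsto_atTop
  rw [tendsto_order]
  constructor
  · intro a ha
    have hεpos : 0 < α - a := by linarith
    have hc0 : 0 ≤ max (α - (α - a) / 2) 0 := le_max_right _ _
    have hcα : max (α - (α - a) / 2) 0 < α := max_lt (by linarith) hα
    have h1 := hlow (max (α - (α - a) / 2) 0) hc0 hcα
    have h2 := ((hr ((α - a) / 2) (by linarith)).2).comp hνt
    have e1 : ∀ᶠ j in atTop,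
        (1 / 2 : ℝ) < satProb k (ν j) ⌊max (α - (α - a) / 2) 0 * (ν j : ℝ)⌋₊ :=
      (tendsto_order.1 h1).1 (1 / 2) (by norm_num)
    have e2 : ∀ᶠ j in atTop,
        satProb k (ν j) ⌊(r (ν j) + (α - a) / 2) * (ν j : ℝ)⌋₊ < 1 / 2 :=
      (tendsto_order.1 h2).2 (1 / 2) (by norm_num)
    filter_upwards [e1, e2] with j hj1 hj2
    by_contra hcon
    have hle : r (ν j) ≤ a := not_lt.mp hcon
    have hmax : α - (α - a) / 2 ≤ max (α - (α - a) / 2) 0 := le_max_left _ _
    have hmul : (r (ν j) + (α - a) / 2) * (ν j : ℝ)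
        ≤ max (α - (α - a) / 2) 0 * (ν j : ℝ) :=
      mul_le_mul_of_nonneg_right (by linarith) (Nat.cast_nonneg _)
    have hfl : ⌊(r (ν j) + (α - a) / 2) * (ν j : ℝ)⌋₊
        ≤ ⌊max (α - (α - a) / 2) 0 * (ν j : ℝ)⌋₊ := Nat.floor_le_floor hmul
    have hanti := satProb_anti k (ν j) hfl
    linarith
  · intro b hb
    have hεpos : 0 < b - α := by linarith
    have h1 := hup (α + (b - α) / 2) (by linarith)
    have h2 := ((hr ((b - α) / 2) (by linarith)).1).comp hνt
    have e1 : ∀ᶠ j in atTop,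
        satProb k (ν j) ⌊(α + (b - α) / 2) * (ν j : ℝ)⌋₊ < 1 / 2 :=
      (tendsto_order.1 h1).2 (1 / 2) (by norm_num)
    have e2 : ∀ᶠ j in atTop,
        (1 / 2 : ℝ) < satProb k (ν j) ⌊(r (ν j) - (b - α) / 2) * (ν j : ℝ)⌋₊ :=
      (tendsto_order.1 h2).1 (1 / 2) (by norm_num)
    filter_upwards [e1, e2] with j hj1 hj2
    by_contra hcon
    have hle : b ≤ r (ν j) := not_lt.mp hcon
    have hmul : (α + (b - α) / 2) * (ν j : ℝ)
        ≤ (r (ν j) - (b - α) / 2) * (ν j : ℝ) :=
      mul_le_mul_of_nonneg_right (by linarith) (Nat.cast_nonneg _)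
    have hfl : ⌊(α + (b - α) / 2) * (ν j : ℝ)⌋₊
        ≤ ⌊(r (ν j) - (b - α) / 2) * (ν j : ℝ)⌋₊ := Nat.floor_le_floor hmul
    have hanti := satProb_anti k (ν j) hfl
    linarith

end Vale.Agent.Lib.P170
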