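import Vale.Agent.Lib.P170.FirstMoment

/-!
The limit of a convergent sharp threshold sequence is a limiting threshold.
-/

namespace Vale.Agent.Lib.P170

open Filter

/-- If a sharp threshold sequence converges to `α > 0`, then `α` is a limiting threshold along
all numbers of variables. -/
theorem limitingThreshold_of_tendsto (k : ℕ) (r : ℕ → ℝ) (hr : IsThresholdSeq k r) (α : ℝ)
    (hα : 0 < α) (h : Tendsto r atTop (nhds α)) : LimitingThresholdAlong k (fun n => n) α := by
  refine ⟨hα, fun c _ hc => ?_, fun c hc => ?_⟩
  · have hε : 0 < (α - c) / 2 := by linarith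
    have h1 := (hr ((α - c) / 2) hε).1
    have hev : ∀ᶠ n : ℕ in atTop, α - (α - c) / 2 < r n :=
      (tendsto_order.1 h).1 _ (by linarith)
    refine tendsto_of_tendsto_of_tendsto_of_le_of_le' h1 tendsto_const_nhds ?_ ?_
    · filter_upwards [hev] with n hn
      refine satProb_anti k n (Nat.floor_le_floor ?_)
      exact mul_le_mul_of_nonneg_right (by linarith) (Nat.cast_nonneg n)
    · exact Eventually.of_forall (fun n => satProb_le_one k n _)
  · have hε : 0 < (c - α) / 2 := by linarith
    have h2 := (hr ((c - α) / 2) hε).2
    have hev : ∀ᶠ n : ℕ in atTop, r n < α + (c - α) / 2 :=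
      (tendsto_order.1 h).2 _ (by linarith)
    refine tendsto_of_tendsto_of_tendsto_of_le_of_le' tendsto_const_nhds h2 ?_ ?_
    · exact Eventually.of_forall (fun n => satProb_nonneg k n _)
    · filter_upwards [hev] with n hn
      refine satProb_anti k n (Nat.floor_le_floor ?_)
      exact mul_le_mul_of_nonneg_right (by linarith) (Nat.cast_nonneg n)

end Vale.Agent.Lib.P170
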