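import Mathlib

/-!
Random `k`-SAT: the model of problem P170.
-/

namespace Vale.Agent.Lib.P170

/-- A proper `k`-clause on the Boolean variables `x_i`, `i : Fin n`, coded as a pair `(S, N)`:
`S` is the set of its `k` distinct variables and `N ⊆ S` is the set of the variables that occur
negated.  There are `2 ^ k * n.choose k` such clauses. -/
abbrev Clause (k n : ℕ) : Type :=
  {C : Finset (Fin n) × Finset (Fin n) // C.1.card = k ∧ C.2 ⊆ C.1}

/-- The truth assignment `σ` satisfies the clause `C = (S, N)`: some variable `i ∈ S` carries a true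
literal, that is, `σ i = true` and `i` is not negated, or `σ i = false` and `i` is negated. -/
def ClauseSat {k n : ℕ} (σ : Fin n → Bool) (C : Clause k n) : Prop :=
  ∃ i ∈ C.1.1, (σ i = true ↔ i ∉ C.1.2)

/-- The formula `F = C_1 ∧ ... ∧ C_m`, given as the `m`-tuple of its clauses, is satisfiable. -/
def Satisfiable {k n m : ℕ} (F : Fin m → Clause k n) : Prop :=
  ∃ σ : Fin n → Bool, ∀ j, ClauseSat σ (F j)

/-- `satProb k n m` is `P_{k,n}(m)`: the probability that the conjunction of `m` independent
uniformly random proper `k`-clauses on `n` variables (sampled with replacement) is satisfiable,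
that is, the number of satisfiable `m`-tuples of clauses divided by the number of all `m`-tuples. -/
noncomputable def satProb (k n m : ℕ) : ℝ :=
  (Nat.card {F : Fin m → Clause k n // Satisfiable F} : ℝ) / (Nat.card (Fin m → Clause k n) : ℝ)

/-- `r` is a sharp threshold sequence for random `k`-SAT, in the sense of Friedgut's theorem:
for every `ε > 0`, `P_{k,n}(⌊(r n - ε) n⌋) → 1` and `P_{k,n}(⌊(r n + ε) n⌋) → 0` as `n → ∞`
(the floor of a negative number is read as `0`, and `P_{k,n}(0) = 1`). -/
def IsThresholdSeq (k : ℕ) (r : ℕ → ℝ) : Prop :=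
  ∀ ε : ℝ, 0 < ε →
    Filter.Tendsto (fun n : ℕ => satProb k n ⌊(r n - ε) * n⌋₊) Filter.atTop (nhds 1) ∧
    Filter.Tendsto (fun n : ℕ => satProb k n ⌊(r n + ε) * n⌋₊) Filter.atTop (nhds 0)

/-- `α` is a limiting satisfiability threshold of random `k`-SAT along the sequence `ν` of numbers
of variables: `0 < α`, and as `j → ∞`, `P_{k,ν j}(⌊c ν j⌋) → 1` for every `0 ≤ c < α` and
`P_{k,ν j}(⌊c ν j⌋) → 0` for every `c > α`.  With `ν j = j` this is the limiting threshold of the
problem statement. -/
def LimitingThresholdAlong (k : ℕ) (ν : ℕ → ℕ) (α : ℝ) : Prop :=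
  0 < α ∧
  (∀ c : ℝ, 0 ≤ c → c < α →
    Filter.Tendsto (fun j : ℕ => satProb k (ν j) ⌊c * (ν j : ℝ)⌋₊) Filter.atTop (nhds 1)) ∧
  (∀ c : ℝ, α < c →
    Filter.Tendsto (fun j : ℕ => satProb k (ν j) ⌊c * (ν j : ℝ)⌋₊) Filter.atTop (nhds 0))

end Vale.Agent.Lib.P170
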