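import Vale.Agent.Lib.P170.BlockInterp
import Vale.Agent.Lib.P170.BinUpper
import Vale.Agent.Lib.P170.BlockUnion
import Vale.Agent.Lib.P170.BlockLift
import Vale.Agent.Lib.P170.BlockRatio

/-!
Satisfiability with high probability passes from `N` variables to `p * N` variables at slightly
smaller clause density.
-/

namespace Vale.Agent.Lib.P170

open Finset

/-- Finite form: the probability that `m` random clauses of width `k + 1` on `p * N` variables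
are not satisfiable is at most `p` times the sum of the upper tail of the number of clauses of
one block beyond `a` and the probability that `a` random constraints of one block are not
satisfiable. -/
theorem multi_finite {k p N : ℕ} (hk : 2 ≤ k) (hp : 1 ≤ p) (hkN : k + 1 ≤ N) (m a : ℕ)
    (ha : (m : ℝ) * (1 / (p : ℝ)) < a) :
    1 - satProb (k + 1) (p * N) m
      ≤ p * ((1 - blockQ k N a)
          + (m : ℝ) * (1 / (p : ℝ)) * (1 - 1 / (p : ℝ)) / ((a : ℝ) - m * (1 / (p : ℝ))) ^ 2) := by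
  have hpR : (1 : ℝ) ≤ p := by exact_mod_cast hp
  have hp0 : (0 : ℝ) < p := by linarith
  have h0 : (0 : ℝ) ≤ 1 / (p : ℝ) := by positivity
  have h1 : 1 / (p : ℝ) ≤ 1 := by
    rw [div_le_one hp0]
    exact hpR
  have hpN : k + 1 ≤ p * N := le_trans hkN (Nat.le_mul_of_pos_left N (by omega))
  have hi := multi_interp k p N m hk hpN
  have hl := multiQ_lower k p N m hk hp (by omega : 1 ≤ N)
  have hmix := mix_ge (m := m) h0 h1 (blockQ k N) (blockQ_nonneg k N) (blockQ_le_one k N)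
    (fun j j' h => blockQ_anti k N h) a
  have htl := tail_binW_upper (m := m) h0 h1 ha
  calc 1 - satProb (k + 1) (p * N) m ≤ 1 - multiQ k p N m := by linarith
    _ ≤ p * (1 - ∑ a' ∈ Finset.range (m + 1), binW m (1 / (p : ℝ)) a' * blockQ k N a') := hl
    _ ≤ p * ((1 - blockQ k N a)
          + (m : ℝ) * (1 / (p : ℝ)) * (1 - 1 / (p : ℝ))
            / ((a : ℝ) - m * (1 / (p : ℝ))) ^ 2) := by
        apply mul_le_mul_of_nonneg_left _ hp0.le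
        linarith

/-- From a bound on a ceiling to a bound without division. -/
theorem mtrans_ceil {x y : ℝ} (hy : 0 < y) {N : ℕ} (h : ⌈x / y⌉₊ ≤ N) : x ≤ y * N := by
  have h1 : x / y ≤ (⌈x / y⌉₊ : ℝ) := Nat.le_ceil _
  have h2 : ((⌈x / y⌉₊ : ℕ) : ℝ) ≤ N := by exact_mod_cast h
  have h3 : x / y ≤ N := le_trans h1 h2
  rw [div_le_iff₀ hy] at h3
  linarith

/-- The choice of the width `b0` of the set of variables used for the clauses of width `k`: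
the two facts about it that the block estimate needs. -/
theorem mtrans_width {k N : ℕ} (hk : 2 ≤ k) (hkN : k + 1 ≤ N) {β : ℝ} (hβ0 : 0 < β)
    (hβ1 : β ≤ 1) (hnβ : 2 * ((k : ℝ) + 1) ≤ β * N) {t : ℕ}
    (ht : (1 - (β / 4) ^ (k + 1)) ^ t < 1 / 2) :
    ((⌊β * (N : ℝ)⌋₊).choose k : ℝ) / (Fintype.card (Clause k N) : ℝ) ≤ β ∧
      2 * (Fintype.card (Clause (k + 1) N) - (⌊β * (N : ℝ)⌋₊).choose (k + 1)) ^ t
        ≤ Fintype.card (Clause (k + 1) N) ^ t := by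
  have hkR : (0 : ℝ) ≤ k := Nat.cast_nonneg k
  have hNpos : (0 : ℝ) < N := by
    have : 0 < N := by omega
    exact_mod_cast this
  have hq01 : (β / 4) ^ (k + 1) ≤ 1 := by
    apply pow_le_one₀ (by positivity)
    linarith
  have hb0le : ((⌊β * N⌋₊ : ℕ) : ℝ) ≤ β * N := Nat.floor_le (by positivity)
  have hb0n : ⌊β * (N : ℝ)⌋₊ ≤ N := by
    have : ((⌊β * N⌋₊ : ℕ) : ℝ) ≤ N := by nlinarith
    exact_mod_cast this
  have hb0k : k + 1 ≤ ⌊β * (N : ℝ)⌋₊ := by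
    apply Nat.le_floor
    push_cast
    linarith
  have hb0lt : β * N - 1 < ((⌊β * N⌋₊ : ℕ) : ℝ) := Nat.sub_one_lt_floor _
  have hB2 := small_width_error (by omega : 1 ≤ k) hkN hb0n hβ0 hb0le
  have hK0 := large_width_kill hb0k hb0n hβ0 (by linarith)
  have hK0le : (⌊β * (N : ℝ)⌋₊).choose (k + 1) ≤ Fintype.card (Clause (k + 1) N) := by
    rw [card_clause]
    calc (⌊β * (N : ℝ)⌋₊).choose (k + 1) ≤ N.choose (k + 1) := Nat.choose_le_choose _ hb0n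
      _ ≤ 2 ^ (k + 1) * N.choose (k + 1) := Nat.le_mul_of_pos_left _ (by positivity)
  exact ⟨hB2, kill_pow hK0le hK0 hq01 ht⟩

/-- The number of clauses of width `k` that meet a block is bounded. -/
theorem mtrans_lam {k N a : ℕ} (hN1 : 2 * k + 2 ≤ N) {A μ : ℝ} (hA0 : 0 < A)
    (hμ : μ = 2 * A * ((k : ℝ) * ((k : ℝ) + 1))) (haA : (a : ℝ) ≤ A * N) :
    0 ≤ (a : ℝ) * ((k : ℝ) * ((k : ℝ) + 1) / ((N : ℝ) - k)) ∧
      (a : ℝ) * ((k : ℝ) * ((k : ℝ) + 1) / ((N : ℝ) - k)) ≤ μ := by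
  have hkR : (0 : ℝ) ≤ k := Nat.cast_nonneg k
  have hNR : (2 : ℝ) * k + 2 ≤ N := by exact_mod_cast hN1
  have hNk : (0 : ℝ) < (N : ℝ) - k := by linarith
  have ha0 : (0 : ℝ) ≤ a := Nat.cast_nonneg a
  refine ⟨by positivity, ?_⟩
  rw [mul_div_assoc', div_le_iff₀ hNk, hμ]
  have hkk : 0 ≤ (k : ℝ) * ((k : ℝ) + 1) := by positivity
  calc (a : ℝ) * ((k : ℝ) * ((k : ℝ) + 1)) ≤ (A * N) * ((k : ℝ) * ((k : ℝ) + 1)) :=
        mul_le_mul_of_nonneg_right haA hkk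
    _ ≤ 2 * A * ((k : ℝ) * ((k : ℝ) + 1)) * ((N : ℝ) - k) := by
        have h2 : (N : ℝ) ≤ 2 * ((N : ℝ) - k) := by linarith
        have h3 : A * ((k : ℝ) * ((k : ℝ) + 1)) * N
            ≤ A * ((k : ℝ) * ((k : ℝ) + 1)) * (2 * ((N : ℝ) - k)) :=
          mul_le_mul_of_nonneg_left h2 (by positivity)
        linarith

/-- The share of the never satisfied constraints among `a ≤ A N` constraints of a block. -/
theorem mtrans_bot {k N a : ℕ} (hk : 2 ≤ k) (hN1 : 2 * k + 2 ≤ N) {A η' c0 : ℝ} (hA0 : 0 < A)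
    (hc0 : c0 = (((k + 1).choose 2 * k.choose 2 * (k + 1).factorial : ℕ) : ℝ))
    (hnc : 5 * A * c0 ≤ η' * N) (haA : (a : ℝ) ≤ A * N) :
    (a : ℝ) * ((botCount k N : ℝ) / (Fintype.card (BlockCon k N) : ℝ)) ≤ η' / 5 := by
  have hNR : (2 : ℝ) * k + 2 ≤ N := by exact_mod_cast hN1
  have hkR : (0 : ℝ) ≤ k := Nat.cast_nonneg k
  have hNpos : (0 : ℝ) < N := by linarith
  have hNne : (N : ℝ) ≠ 0 := hNpos.ne'
  have hbot := bot_ratio_le k N hk hN1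
  rw [← hc0] at hbot
  calc (a : ℝ) * ((botCount k N : ℝ) / (Fintype.card (BlockCon k N) : ℝ))
      ≤ (A * N) * (c0 / (N : ℝ) ^ 2) := mul_le_mul haA hbot (by positivity) (by positivity)
    _ = A * c0 / N := by
        field_simp
    _ ≤ η' / 5 := by
        rw [div_le_iff₀ hNpos]
        linarith

/-- The constraints of one block are satisfiable with probability at least `1 - 4 η' / 5`. -/
theorem mtrans_block {k N a : ℕ} (hk : 2 ≤ k) (hN1 : 2 * k + 2 ≤ N) {A η' μ β c0 : ℝ}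
    (hA0 : 0 < A) (hη'0 : 0 < η') (hμ : μ = 2 * A * ((k : ℝ) * ((k : ℝ) + 1)))
    (hc0 : c0 = (((k + 1).choose 2 * k.choose 2 * (k + 1).factorial : ℕ) : ℝ))
    {i0 t : ℕ} (hi0R : μ + 1 + 3 * μ / (3 * η' / 5) ≤ (i0 : ℝ))
    (hβ0 : 0 < β) (hβ1 : β ≤ 1) (hβη : 2 ^ i0 * β ≤ η' / 5)
    (ht : (1 - (β / 4) ^ (k + 1)) ^ t < 1 / 2)
    (hnβ : 2 * ((k : ℝ) + 1) ≤ β * N) (hnc : 5 * A * c0 ≤ η' * N)
    (haA : (a : ℝ) ≤ A * N)
    (hP : 1 - η' / (5 * 2 ^ i0) ≤ satProb (k + 1) N (a + i0 * t)) :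
    1 - blockQ k N a ≤ 4 * (η' / 5) := by
  have hkN : k + 1 ≤ N := by omega
  obtain ⟨hB2, htN⟩ := mtrans_width hk hkN hβ0 hβ1 hnβ ht
  obtain ⟨hlam0, hlamle⟩ := mtrans_lam hN1 hA0 hμ haA
  have hμ0 : 0 ≤ μ := le_trans hlam0 hlamle
  have hratio := small_ratio k N hkN
  have hi0lt : (a : ℝ) * (2 * (k : ℝ) * (Fintype.card (Clause k N) : ℝ)
      / (Fintype.card (Clause (k + 1) N) : ℝ)) < i0 := by
    rw [hratio]
    have h3μ : 0 ≤ 3 * μ / (3 * η' / 5) := by positivity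
    linarith
  have hblock := blockQ_lower hk hkN a i0 t ⌊β * (N : ℝ)⌋₊ htN hi0lt
  rw [hratio] at hblock
  have htail := tail_small (show 0 < 3 * η' / 5 by positivity) hlam0 hlamle hi0R
  have h53 : 3 * η' / 5 / 3 = η' / 5 := by ring
  rw [h53] at htail
  have hT1 := mtrans_bot hk hN1 hA0 hc0 hnc haA
  have hP' : 1 - satProb (k + 1) N (a + i0 * t) ≤ η' / (5 * 2 ^ i0) := by linarith
  have hT3 : (2 : ℝ) ^ i0 * (1 - satProb (k + 1) N (a + i0 * t)) ≤ η' / 5 := by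
    calc (2 : ℝ) ^ i0 * (1 - satProb (k + 1) N (a + i0 * t))
        ≤ 2 ^ i0 * (η' / (5 * 2 ^ i0)) := mul_le_mul_of_nonneg_left hP' (by positivity)
      _ = η' / 5 := by
          field_simp
  have hT4 : (2 : ℝ) ^ i0 * (((⌊β * (N : ℝ)⌋₊).choose k : ℝ)
      / (Fintype.card (Clause k N) : ℝ)) ≤ η' / 5 :=
    le_trans (mul_le_mul_of_nonneg_left hB2 (by positivity)) hβη
  linarith

/-- The upper tail of the number of clauses in one block is small. -/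
theorem mtrans_tail {p N m a : ℕ} (hp : 1 ≤ p) {cmax ζ η' : ℝ} (hζ : 0 < ζ) (hη'0 : 0 < η')
    (hNpos : (0 : ℝ) < N) (hnd : 5 * cmax ≤ ζ ^ 2 * η' * N)
    (hm : (m : ℝ) ≤ cmax * ((p : ℝ) * N)) (hma : (m : ℝ) / p + ζ * N ≤ a) :
    (m : ℝ) * (1 / (p : ℝ)) < a ∧
      (m : ℝ) * (1 / (p : ℝ)) * (1 - 1 / (p : ℝ))
        / ((a : ℝ) - m * (1 / (p : ℝ))) ^ 2 ≤ η' / 5 := by
  have hpR : (1 : ℝ) ≤ p := by exact_mod_cast hp
  have hp0 : (0 : ℝ) < p := by linarith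
  have hm0 : (0 : ℝ) ≤ m := Nat.cast_nonneg m
  have hmp : (m : ℝ) * (1 / (p : ℝ)) ≤ cmax * N := by
    rw [mul_one_div, div_le_iff₀ hp0]
    calc (m : ℝ) ≤ cmax * ((p : ℝ) * N) := hm
      _ = cmax * N * p := by ring
  have hmp0 : 0 ≤ (m : ℝ) * (1 / (p : ℝ)) := by positivity
  have hgap : ζ * N ≤ (a : ℝ) - m * (1 / (p : ℝ)) := by
    rw [mul_one_div]
    linarith
  have hζN : 0 < ζ * N := by positivity
  refine ⟨by linarith, ?_⟩
  have h1p0 : 0 ≤ 1 - 1 / (p : ℝ) := by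
    rw [sub_nonneg, div_le_one hp0]
    exact hpR
  have h1p1 : 1 - 1 / (p : ℝ) ≤ 1 := by
    have h1p : 0 ≤ 1 / (p : ℝ) := by positivity
    linarith
  have hnum : (m : ℝ) * (1 / (p : ℝ)) * (1 - 1 / (p : ℝ)) ≤ cmax * N := by
    calc (m : ℝ) * (1 / (p : ℝ)) * (1 - 1 / (p : ℝ)) ≤ (m : ℝ) * (1 / (p : ℝ)) * 1 :=
          mul_le_mul_of_nonneg_left h1p1 hmp0
      _ ≤ cmax * N := by
          rw [mul_one]
          exact hmp
  have hden : (ζ * N) ^ 2 ≤ ((a : ℝ) - m * (1 / (p : ℝ))) ^ 2 :=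
    pow_le_pow_left₀ hζN.le hgap 2
  have hdenpos : 0 < ((a : ℝ) - m * (1 / (p : ℝ))) ^ 2 :=
    lt_of_lt_of_le (by positivity) hden
  rw [div_le_iff₀ hdenpos]
  have h5 : cmax * N ≤ η' / 5 * (ζ * N) ^ 2 := by
    have h6 : 5 * cmax * N ≤ ζ ^ 2 * η' * N * N := mul_le_mul_of_nonneg_right hnd hNpos.le
    have h7 : η' / 5 * (ζ * N) ^ 2 = ζ ^ 2 * η' * N * N / 5 := by ring
    rw [h7, le_div_iff₀ (by norm_num : (0 : ℝ) < 5)]
    linarith
  calc (m : ℝ) * (1 / (p : ℝ)) * (1 - 1 / (p : ℝ)) ≤ cmax * N := hnum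
    _ ≤ η' / 5 * (ζ * N) ^ 2 := h5
    _ ≤ η' / 5 * ((a : ℝ) - m * (1 / (p : ℝ))) ^ 2 :=
        mul_le_mul_of_nonneg_left hden (by positivity)

/-- Satisfiability with high probability passes from `N` variables to `p * N` variables: if
`a + C` clauses on `N` variables are satisfiable with probability at least `1 - δ`, where `a`
exceeds `m / p` by `ζ N`, then `m` clauses on `p * N` variables are satisfiable with probability
at least `1 - η`. -/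
theorem multi_transfer (k p : ℕ) (hk : 2 ≤ k) (hp : 1 ≤ p) (cmax ζ η : ℝ) (hc : 0 ≤ cmax)
    (hζ : 0 < ζ) (hη : 0 < η) :
    ∃ (C : ℕ) (δ : ℝ) (n0 : ℕ), 0 < δ ∧ ∀ N : ℕ, n0 ≤ N → ∀ m a : ℕ,
      (m : ℝ) ≤ cmax * ((p : ℝ) * N) → (m : ℝ) / p + ζ * N ≤ a → (a : ℝ) ≤ (cmax + ζ) * N + 1 →
      1 - δ ≤ satProb (k + 1) N (a + C) → 1 - η ≤ satProb (k + 1) (p * N) m := by
  have hpR : (1 : ℝ) ≤ p := by exact_mod_cast hp
  have hp0 : (0 : ℝ) < p := by linarith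
  obtain ⟨η', hη'⟩ : ∃ η' : ℝ, η' = η / p := ⟨_, rfl⟩
  have hη'0 : 0 < η' := by
    rw [hη']
    positivity
  obtain ⟨A, hA⟩ : ∃ A : ℝ, A = cmax + ζ + 1 := ⟨_, rfl⟩
  have hA0 : 0 < A := by
    rw [hA]
    linarith
  obtain ⟨μ, hμ⟩ : ∃ μ : ℝ, μ = 2 * A * ((k : ℝ) * ((k : ℝ) + 1)) := ⟨_, rfl⟩
  obtain ⟨i0, hi0R⟩ : ∃ i0 : ℕ, μ + 1 + 3 * μ / (3 * η' / 5) ≤ (i0 : ℝ) := ⟨_, Nat.le_ceil _⟩
  obtain ⟨β, hβ0, hβ1, hβη⟩ : ∃ β : ℝ, 0 < β ∧ β ≤ 1 ∧ 2 ^ i0 * β ≤ η' / 5 := by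
    refine ⟨min 1 (η' / (5 * 2 ^ i0)), lt_min one_pos (by positivity), min_le_left _ _, ?_⟩
    calc (2 : ℝ) ^ i0 * min 1 (η' / (5 * 2 ^ i0)) ≤ 2 ^ i0 * (η' / (5 * 2 ^ i0)) :=
          mul_le_mul_of_nonneg_left (min_le_right _ _) (by positivity)
      _ = η' / 5 := by
          field_simp
  have hq00 : 0 < (β / 4) ^ (k + 1) := by positivity
  obtain ⟨t, ht⟩ := exists_pow_lt_of_lt_one (show (0 : ℝ) < 1 / 2 by norm_num)
    (show 1 - (β / 4) ^ (k + 1) < 1 by linarith)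
  obtain ⟨c0, hc0⟩ : ∃ c0 : ℝ,
      c0 = (((k + 1).choose 2 * k.choose 2 * (k + 1).factorial : ℕ) : ℝ) := ⟨_, rfl⟩
  refine ⟨i0 * t, η' / (5 * 2 ^ i0),
    max (2 * k + 2) (max ⌈2 * ((k : ℝ) + 1) / β⌉₊
      (max ⌈5 * A * c0 / η'⌉₊ ⌈5 * cmax / (ζ ^ 2 * η')⌉₊)),
    by positivity, ?_⟩
  intro N hN m a hm hma haU hP
  have hN1 : 2 * k + 2 ≤ N := le_trans (le_max_left _ _) hN
  have hN2 : ⌈2 * ((k : ℝ) + 1) / β⌉₊ ≤ N :=
    le_trans (le_trans (le_max_left _ _) (le_max_right _ _)) hN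
  have hN3 : ⌈5 * A * c0 / η'⌉₊ ≤ N :=
    le_trans (le_trans (le_trans (le_max_left _ _) (le_max_right _ _)) (le_max_right _ _)) hN
  have hN4 : ⌈5 * cmax / (ζ ^ 2 * η')⌉₊ ≤ N :=
    le_trans (le_trans (le_trans (le_max_right _ _) (le_max_right _ _)) (le_max_right _ _)) hN
  have hkN : k + 1 ≤ N := by omega
  have hNpos : (0 : ℝ) < N := by
    have : 0 < N := by omega
    exact_mod_cast this
  have hnβ : 2 * ((k : ℝ) + 1) ≤ β * N := mtrans_ceil hβ0 hN2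
  have hnc : 5 * A * c0 ≤ η' * N := mtrans_ceil hη'0 hN3
  have hnd : 5 * cmax ≤ ζ ^ 2 * η' * N := mtrans_ceil (by positivity) hN4
  have haA : (a : ℝ) ≤ A * N := by
    rw [hA]
    have hN1' : (1 : ℝ) ≤ N := by
      have : 1 ≤ N := by omega
      exact_mod_cast this
    linarith
  have hblock := mtrans_block hk hN1 hA0 hη'0 hμ hc0 hi0R hβ0 hβ1 hβη ht hnβ hnc haA hP
  obtain ⟨ha, hT5⟩ := mtrans_tail hp hζ hη'0 hNpos hnd hm hma
  have hfin := multi_finite hk hp hkN m a ha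
  have hsum : (1 - blockQ k N a) + (m : ℝ) * (1 / (p : ℝ)) * (1 - 1 / (p : ℝ))
      / ((a : ℝ) - m * (1 / (p : ℝ))) ^ 2 ≤ η' := by linarith
  have hfinal : (p : ℝ) * η' = η := by
    rw [hη']
    field_simp
  have hmul := mul_le_mul_of_nonneg_left hsum hp0.le
  linarith

end Vale.Agent.Lib.P170
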