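import Vale.Agent.Lib.P170.Consecutive

/-!
Elementary regularity of sharp threshold sequences over a bounded number of steps and over
short windows.
-/

namespace Vale.Agent.Lib.P170

open Filter

/-- A sharp threshold sequence is eventually larger than every negative number. -/
theorem thresholdSeq_lower {k : ℕ} {r : ℕ → ℝ} (hr : IsThresholdSeq k r) (ε : ℝ) (hε : 0 < ε) :
    ∃ n0 : ℕ, ∀ n, n0 ≤ n → 1 ≤ (r n + ε) * n := by
  have h2 := (hr ε hε).2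
  rw [Metric.tendsto_atTop] at h2
  obtain ⟨n0, hn0⟩ := h2 (1 / 2) (by norm_num)
  refine ⟨n0, ?_⟩
  intro n hn
  by_contra hcon
  rw [not_le] at hcon
  have hfl : ⌊(r n + ε) * n⌋₊ = 0 := Nat.floor_eq_zero.mpr hcon
  have h := hn0 n hn
  rw [hfl, satProb_zero, Real.dist_eq] at h
  norm_num at h

/-- Summation of consecutive increments. -/
theorem psteps_sum (r : ℕ → ℝ) (δ : ℝ) (n0 : ℕ)
    (h : ∀ n, n0 ≤ n → |r (n + 1) - r n| ≤ δ) :
    ∀ s n : ℕ, n0 ≤ n → |r (n + s) - r n| ≤ (s : ℝ) * δ := by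
  intro s
  induction s with
  | zero =>
    intro n _
    simp
  | succ s ih =>
    intro n hn
    have h1 := h (n + s) (by omega)
    have h2 := ih n hn
    have e : r (n + (s + 1)) - r n = (r (n + s + 1) - r (n + s)) + (r (n + s) - r n) := by
      rw [← add_assoc]
      ring
    rw [e]
    calc |(r (n + s + 1) - r (n + s)) + (r (n + s) - r n)|
        ≤ |r (n + s + 1) - r (n + s)| + |r (n + s) - r n| := abs_add_le _ _
      _ ≤ δ + (s : ℝ) * δ := add_le_add h1 h2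
      _ = ((s + 1 : ℕ) : ℝ) * δ := by
          push_cast
          ring

/-- Finitely many steps: a sharp threshold sequence changes by at most `ε` over at most `S`
consecutive steps, for large `n`. -/
theorem threshold_steps (k : ℕ) (hk : 2 ≤ k) (r : ℕ → ℝ) (hr : IsThresholdSeq k r) (S : ℕ)
    (ε : ℝ) (hε : 0 < ε) :
    ∃ n0 : ℕ, ∀ n s : ℕ, n0 ≤ n → s ≤ S → |r (n + s) - r n| ≤ ε := by
  have hc := consecutive_threshold k hk r hr
  rw [Metric.tendsto_atTop] at hc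
  have hS : (0 : ℝ) < (S : ℝ) + 1 := by positivity
  obtain ⟨n0, hn0⟩ := hc (ε / ((S : ℝ) + 1)) (div_pos hε hS)
  refine ⟨n0, ?_⟩
  intro n s hn hs
  have hstep : ∀ n, n0 ≤ n → |r (n + 1) - r n| ≤ ε / ((S : ℝ) + 1) := by
    intro n hn
    have h := hn0 n hn
    rw [Real.dist_eq, sub_zero] at h
    exact h.le
  have h1 := psteps_sum r _ n0 hstep s n hn
  refine le_trans h1 ?_
  have hsS : (s : ℝ) ≤ (S : ℝ) := by exact_mod_cast hs
  calc (s : ℝ) * (ε / ((S : ℝ) + 1)) ≤ ((S : ℝ) + 1) * (ε / ((S : ℝ) + 1)) :=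
        mul_le_mul_of_nonneg_right (by linarith) (div_pos hε hS).le
    _ = ε := by field_simp

/-- The chord bound for powers of `1 + γ` with `γ` between zero and one. -/
theorem psteps_pow_le (γ : ℝ) (h0 : 0 ≤ γ) (h1 : γ ≤ 1) (j : ℕ) :
    (1 + γ) ^ j ≤ 1 + ((2 : ℝ) ^ j - 1) * γ := by
  induction j with
  | zero => simp
  | succ j ih =>
    have h2 : (1 : ℝ) ≤ 2 ^ j := one_le_pow₀ (by norm_num)
    have hg : γ ^ 2 ≤ γ := by nlinarith
    calc (1 + γ) ^ (j + 1) = (1 + γ) ^ j * (1 + γ) := pow_succ _ _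
      _ ≤ (1 + ((2 : ℝ) ^ j - 1) * γ) * (1 + γ) :=
          mul_le_mul_of_nonneg_right ih (by linarith)
      _ = 1 + (2 : ℝ) ^ j * γ + ((2 : ℝ) ^ j - 1) * γ ^ 2 := by ring
      _ ≤ 1 + (2 : ℝ) ^ j * γ + ((2 : ℝ) ^ j - 1) * γ := by
          have h3 := mul_le_mul_of_nonneg_left hg (by linarith : (0 : ℝ) ≤ 2 ^ j - 1)
          linarith
      _ = 1 + ((2 : ℝ) ^ (j + 1) - 1) * γ := by
          rw [pow_succ]
          ring

/-- A sharp threshold sequence does not decrease much from `N` to a slightly larger `n`. -/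
theorem threshold_down (k : ℕ) (hk : 1 ≤ k) (r : ℕ → ℝ) (hr : IsThresholdSeq k r) (ε : ℝ)
    (hε : 0 < ε) :
    ∃ (γ : ℝ) (n0 : ℕ), 0 < γ ∧ ∀ N n : ℕ, n0 ≤ N → N ≤ n → (n : ℝ) ≤ (1 + γ) * N →
      r n - ε ≤ r N := by
  obtain ⟨n1, hn1⟩ := thresholdSeq_bdd hr
  obtain ⟨n2, hn2⟩ := threshold_slow_variation k hk r hr 2 (ε / 2) (by norm_num) (by positivity)
  have hR : (0 : ℝ) < 2 ^ (k + 1) + 2 := by positivity
  have hP : (0 : ℝ) < 2 ^ (k - 1) := by positivity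
  have hden : (0 : ℝ) < 2 * (2 ^ (k + 1) + 2) * 2 ^ (k - 1) := by positivity
  obtain ⟨γ, hγdef⟩ : ∃ γ : ℝ, γ = min 1 (ε / (2 * (2 ^ (k + 1) + 2) * 2 ^ (k - 1))) :=
    ⟨_, rfl⟩
  have hγ0 : 0 < γ := by
    rw [hγdef]
    exact lt_min one_pos (div_pos hε hden)
  have hγ1 : γ ≤ 1 := by
    rw [hγdef]
    exact min_le_left _ _
  have hγ2 : γ ≤ ε / (2 * (2 ^ (k + 1) + 2) * 2 ^ (k - 1)) := by
    rw [hγdef]
    exact min_le_right _ _
  have hpow := psteps_pow_le γ hγ0.le hγ1 (k - 1)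
  have hkey : ((1 + γ) ^ (k - 1) - 1) * (2 ^ (k + 1) + 2) ≤ ε / 2 := by
    have h1 : (1 + γ) ^ (k - 1) - 1 ≤ 2 ^ (k - 1) * γ := by
      have h4 : ((2 : ℝ) ^ (k - 1) - 1) * γ ≤ 2 ^ (k - 1) * γ := by nlinarith
      linarith
    have h2 : (2 : ℝ) ^ (k - 1) * γ * (2 ^ (k + 1) + 2) ≤ ε / 2 := by
      calc (2 : ℝ) ^ (k - 1) * γ * (2 ^ (k + 1) + 2)
          = (2 ^ (k - 1) * (2 ^ (k + 1) + 2)) * γ := by ring
        _ ≤ (2 ^ (k - 1) * (2 ^ (k + 1) + 2))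
              * (ε / (2 * (2 ^ (k + 1) + 2) * 2 ^ (k - 1))) :=
            mul_le_mul_of_nonneg_left hγ2 (mul_pos hP hR).le
        _ = ε / 2 := by field_simp
    calc ((1 + γ) ^ (k - 1) - 1) * (2 ^ (k + 1) + 2)
        ≤ (2 ^ (k - 1) * γ) * (2 ^ (k + 1) + 2) := mul_le_mul_of_nonneg_right h1 hR.le
      _ ≤ ε / 2 := h2
  refine ⟨γ, max (max n1 n2) 1, hγ0, ?_⟩
  intro N n hN hNn hn
  have hN1 : n1 ≤ N := le_trans (le_trans (le_max_left _ _) (le_max_left _ _)) hN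
  have hN2 : n2 ≤ N := le_trans (le_trans (le_max_right _ _) (le_max_left _ _)) hN
  have hN0 : 1 ≤ N := le_trans (le_max_right _ _) hN
  have hNpos : (0 : ℝ) < (N : ℝ) := by exact_mod_cast hN0
  have hn2N : (n : ℝ) ≤ 2 * N := by
    have h5 : (1 + γ) * (N : ℝ) ≤ 2 * N := by nlinarith
    linarith
  have hslow := hn2 N n hN2 hNn hn2N
  have hrN := hn1 N hN1
  have hq1 : (1 : ℝ) ≤ (n : ℝ) / N := by
    rw [le_div_iff₀ hNpos, one_mul]
    exact_mod_cast hNn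
  have hq2 : (n : ℝ) / N ≤ 1 + γ := by
    rw [div_le_iff₀ hNpos]
    exact hn
  have hρ1 : (1 : ℝ) ≤ ((n : ℝ) / N) ^ (k - 1) := one_le_pow₀ hq1
  have hρ2 : ((n : ℝ) / N) ^ (k - 1) ≤ (1 + γ) ^ (k - 1) :=
    pow_le_pow_left₀ (by linarith) hq2 _
  have he : ((n : ℝ) / N) ^ (k - 1) * r N = (((n : ℝ) / N) ^ (k - 1) - 1) * r N + r N := by
    ring
  have hmain : ((n : ℝ) / N) ^ (k - 1) * r N ≤ r N + ε / 2 := by
    rcases le_or_gt 0 (r N) with hpos | hneg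
    · have h6 : (((n : ℝ) / N) ^ (k - 1) - 1) * r N
          ≤ ((1 + γ) ^ (k - 1) - 1) * (2 ^ (k + 1) + 2) :=
        mul_le_mul (by linarith) hrN hpos (by linarith)
      linarith
    · have h7 : (((n : ℝ) / N) ^ (k - 1) - 1) * r N ≤ 0 :=
        mul_nonpos_of_nonneg_of_nonpos (by linarith) hneg.le
      linarith
  linarith

end Vale.Agent.Lib.P170
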