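import Vale.Agent.Lib.P170.MultiTransfer
import Vale.Agent.Lib.P170.PersistSteps

/-!
A sharp threshold sequence does not decrease from `N` to a fixed multiple `p * N`.
-/

namespace Vale.Agent.Lib.P170

open Filter

/-- A sharp threshold sequence of random `(k + 1)`-SAT, `k ≥ 2`, does not decrease from `N` to
`p * N`, up to `ε`, for large `N`. -/
theorem threshold_multiple (k : ℕ) (hk : 2 ≤ k) (r : ℕ → ℝ) (hr : IsThresholdSeq (k + 1) r)
    (p : ℕ) (hp : 1 ≤ p) (ε : ℝ) (hε : 0 < ε) :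
    ∃ N0 : ℕ, ∀ N, N0 ≤ N → r N - ε ≤ r (p * N) := by
  obtain ⟨n1, hn1⟩ := thresholdSeq_bdd hr
  obtain ⟨R, hR⟩ : ∃ R : ℝ, R = 2 ^ (k + 1 + 1) + 2 := ⟨_, rfl⟩
  have hRpos : 0 < R := by
    rw [hR]
    positivity
  obtain ⟨C, δ, n0, hδ, hT⟩ := multi_transfer k p hk hp (R + ε) (ε / 8) (1 / 2)
    (by positivity) (by positivity) (by norm_num)
  have h1 := (hr (ε / 2) (by positivity)).1
  have h2 := (hr (ε / 4) (by positivity)).2
  obtain ⟨n2, hn2⟩ : ∃ n2 : ℕ, ∀ N, n2 ≤ N →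
      1 - δ ≤ satProb (k + 1) N ⌊(r N - ε / 2) * N⌋₊ := by
    have hev := (tendsto_order.1 h1).1 (1 - δ) (by linarith)
    obtain ⟨n2, hn2⟩ := Filter.eventually_atTop.1 hev
    exact ⟨n2, fun N hN => (hn2 N hN).le⟩
  obtain ⟨n3, hn3⟩ : ∃ n3 : ℕ, ∀ n, n3 ≤ n →
      satProb (k + 1) n ⌊(r n + ε / 4) * n⌋₊ ≤ 1 / 4 := by
    have hev := (tendsto_order.1 h2).2 (1 / 4) (by norm_num)
    obtain ⟨n3, hn3⟩ := Filter.eventually_atTop.1 hev
    exact ⟨n3, fun n hn => (hn3 n hn).le⟩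
  obtain ⟨n4, hn4⟩ := thresholdSeq_lower hr (ε / 4) (by positivity)
  refine ⟨max (max (max n0 n1) (max n2 n3)) (max (max n4 1) ⌈8 * ((C : ℝ) + 2) / ε⌉₊),
    fun N hN => ?_⟩
  have hN0 : n0 ≤ N := le_trans (le_trans (le_max_left _ _) (le_max_left _ _))
    (le_trans (le_max_left _ _) hN)
  have hN1 : n1 ≤ N := le_trans (le_trans (le_max_right _ _) (le_max_left _ _))
    (le_trans (le_max_left _ _) hN)
  have hN2 : n2 ≤ N := le_trans (le_trans (le_max_left _ _) (le_max_right _ _))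
    (le_trans (le_max_left _ _) hN)
  have hN3 : n3 ≤ N := le_trans (le_trans (le_max_right _ _) (le_max_right _ _))
    (le_trans (le_max_left _ _) hN)
  have hN4 : n4 ≤ N := le_trans (le_trans (le_max_left _ _) (le_max_left _ _))
    (le_trans (le_max_right _ _) hN)
  have hN5 : 1 ≤ N := le_trans (le_trans (le_max_right _ _) (le_max_left _ _))
    (le_trans (le_max_right _ _) hN)
  have hN6 : ⌈8 * ((C : ℝ) + 2) / ε⌉₊ ≤ N := le_trans (le_max_right _ _)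
    (le_trans (le_max_right _ _) hN)
  by_contra hcon
  push Not at hcon
  have hpN : N ≤ p * N := Nat.le_mul_of_pos_left N hp
  have hcast : ((p * N : ℕ) : ℝ) = (p : ℝ) * N := by push_cast; ring
  have hNpos : (0 : ℝ) < N := by exact_mod_cast hN5
  have hppos : (0 : ℝ) < p := by exact_mod_cast hp
  have hm_prob : satProb (k + 1) (p * N) ⌊(r (p * N) + ε / 4) * ((p * N : ℕ) : ℝ)⌋₊ ≤ 1 / 4 :=
    hn3 (p * N) (le_trans hN3 hpN)
  have hge1 : 1 ≤ (r (p * N) + ε / 4) * ((p * N : ℕ) : ℝ) := hn4 (p * N) (le_trans hN4 hpN)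
  have hm_le : ((⌊(r (p * N) + ε / 4) * ((p * N : ℕ) : ℝ)⌋₊ : ℕ) : ℝ)
      ≤ (r (p * N) + ε / 4) * ((p * N : ℕ) : ℝ) := Nat.floor_le (by linarith)
  have hrb : r (p * N) ≤ R := by
    rw [hR]
    exact hn1 (p * N) (le_trans hN1 hpN)
  obtain ⟨m, hm⟩ : ∃ m : ℕ, m = ⌊(r (p * N) + ε / 4) * ((p * N : ℕ) : ℝ)⌋₊ := ⟨_, rfl⟩
  rw [← hm] at hm_prob hm_le
  rw [hcast] at hm_le
  have hm_cmax : (m : ℝ) ≤ (R + ε) * ((p : ℝ) * N) := by
    have h3 : (r (p * N) + ε / 4) * ((p : ℝ) * N) ≤ (R + ε) * ((p : ℝ) * N) :=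
      mul_le_mul_of_nonneg_right (by linarith) (by positivity)
    linarith
  have hm_div : (m : ℝ) / p ≤ (r (p * N) + ε / 4) * N := by
    rw [div_le_iff₀ hppos]
    calc (m : ℝ) ≤ (r (p * N) + ε / 4) * ((p : ℝ) * N) := hm_le
      _ = (r (p * N) + ε / 4) * N * p := by ring
  have hm_div2 : (m : ℝ) / p ≤ (R + ε) * N := by
    rw [div_le_iff₀ hppos]
    calc (m : ℝ) ≤ (R + ε) * ((p : ℝ) * N) := hm_cmax
      _ = (R + ε) * N * p := by ring
  have hnonneg : 0 ≤ (m : ℝ) / p + ε / 8 * N := by positivity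
  obtain ⟨a, ha⟩ : ∃ a : ℕ, a = ⌈(m : ℝ) / p + ε / 8 * N⌉₊ := ⟨_, rfl⟩
  have ha_ge : (m : ℝ) / p + ε / 8 * N ≤ a := by
    rw [ha]
    exact Nat.le_ceil _
  have ha_lt : (a : ℝ) < (m : ℝ) / p + ε / 8 * N + 1 := by
    rw [ha]
    exact Nat.ceil_lt_add_one hnonneg
  have ha_le : (a : ℝ) ≤ (R + ε + ε / 8) * N + 1 := by nlinarith
  have hNbig : 8 * ((C : ℝ) + 2) / ε ≤ N := by
    have h4 := Nat.le_ceil (8 * ((C : ℝ) + 2) / ε)
    have h5 : ((⌈8 * ((C : ℝ) + 2) / ε⌉₊ : ℕ) : ℝ) ≤ N := by exact_mod_cast hN6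
    linarith
  have hNbig' : 8 * ((C : ℝ) + 2) ≤ N * ε := by
    rwa [div_le_iff₀ hε] at hNbig
  have hac : ((a + C : ℕ) : ℝ) ≤ (r N - ε / 2) * N := by
    push_cast
    have h6 : (r (p * N) + ε / 4) * N ≤ (r N - ε + ε / 4) * N :=
      mul_le_mul_of_nonneg_right (by linarith) hNpos.le
    nlinarith
  have hfl : a + C ≤ ⌊(r N - ε / 2) * N⌋₊ := Nat.le_floor hac
  have hsat : 1 - δ ≤ satProb (k + 1) N (a + C) :=
    le_trans (hn2 N hN2) (satProb_anti (k + 1) N hfl)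
  have hfin := hT N hN0 m a hm_cmax ha_ge ha_le hsat
  linarith

end Vale.Agent.Lib.P170
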