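import Vale.Agent.Lib.P170.PersistWindow

/-!
Convergence of a sharp threshold sequence along a subsequence with bounded consecutive ratios
implies convergence.
-/

namespace Vale.Agent.Lib.P170

open Filter

/-- A sequence that does not decrease, up to `ε`, from `n` to any `n'` in the windows
`[J n, Λ n]`, and that converges along a strictly increasing sequence with bounded consecutive
ratios, converges. -/
theorem tendsto_of_persist (r : ℕ → ℝ)
    (hP : ∀ ε : ℝ, 0 < ε → ∃ J : ℕ, ∀ Λ : ℝ, ∃ n0 : ℕ, ∀ n n' : ℕ, n0 ≤ n → J * n ≤ n' →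
      (n' : ℝ) ≤ Λ * n → r n - ε ≤ r n')
    (ν : ℕ → ℕ) (K α : ℝ) (hν : StrictMono ν) (hK : ∀ j, (ν (j + 1) : ℝ) ≤ K * ν j)
    (h : Tendsto (fun j => r (ν j)) atTop (nhds α)) : Tendsto r atTop (nhds α) := by
  have hid : ∀ j, j ≤ ν j := fun j => hν.id_le j
  have hKnn : 0 ≤ K := by
    by_contra hneg
    push Not at hneg
    have h01 : ν 0 < ν (0 + 1) := hν (by norm_num)
    have h1 : (ν (0 + 1) : ℝ) ≤ K * ν 0 := hK 0
    have h2 : K * (ν 0 : ℝ) ≤ 0 := mul_nonpos_of_nonpos_of_nonneg hneg.le (Nat.cast_nonneg _)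
    have h3 : (0 : ℝ) < ν (0 + 1) := by
      have h4 : 0 < ν (0 + 1) := lt_of_le_of_lt (Nat.zero_le _) h01
      exact_mod_cast h4
    linarith
  rw [Metric.tendsto_atTop]
  intro ε hε
  obtain ⟨J, hJ⟩ := hP (ε / 2) (half_pos hε)
  obtain ⟨J', hJJ', hJ'1⟩ : ∃ J' : ℕ, J ≤ J' ∧ 1 ≤ J' :=
    ⟨max J 1, le_max_left _ _, le_max_right _ _⟩
  obtain ⟨n0, hn0⟩ := hJ ((J' : ℝ) * K)
  obtain ⟨j1, hj1⟩ := Metric.tendsto_atTop.mp h (ε / 2) (half_pos hε)
  obtain ⟨M, hMj1, hMn0⟩ : ∃ M : ℕ, j1 ≤ M ∧ n0 ≤ M :=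
    ⟨max j1 n0, le_max_left _ _, le_max_right _ _⟩
  refine ⟨max (J' * ν M) (max n0 (ν j1 + 1)), fun n hn => ?_⟩
  have hn1 : J' * ν M ≤ n := le_trans (le_max_left _ _) hn
  have hn2 : n0 ≤ n := le_trans (le_trans (le_max_left _ _) (le_max_right _ _)) hn
  have hn3 : ν j1 + 1 ≤ n := le_trans (le_trans (le_max_right _ _) (le_max_right _ _)) hn
  -- lower bound
  have hlow : α - ε < r n := by
    have hex : ∃ j, n < J' * ν (j + 1) := by
      refine ⟨n, ?_⟩
      have h5 : n + 1 ≤ ν (n + 1) := hid (n + 1)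
      have h6 : 1 * ν (n + 1) ≤ J' * ν (n + 1) := Nat.mul_le_mul_right _ hJ'1
      omega
    obtain ⟨j, hj_spec, hj_min⟩ :
        ∃ j, n < J' * ν (j + 1) ∧ ∀ m < j, ¬ n < J' * ν (m + 1) :=
      ⟨Nat.find hex, Nat.find_spec hex, fun m hm => Nat.find_min hex hm⟩
    have hjM : M ≤ j := by
      by_contra hlt
      push Not at hlt
      have h5 : ν (j + 1) ≤ ν M := hν.monotone hlt
      have h6 : J' * ν (j + 1) ≤ J' * ν M := Nat.mul_le_mul_left _ h5
      omega
    have hj_low : J' * ν j ≤ n := by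
      rcases Nat.eq_zero_or_pos j with h0 | hpos
      · rw [h0]
        exact le_trans (Nat.mul_le_mul_left _ (hν.monotone (Nat.zero_le M))) hn1
      · have hmin := hj_min (j - 1) (by omega)
        have hj' : j - 1 + 1 = j := by omega
        rw [hj'] at hmin
        exact not_lt.mp hmin
    have hjj1 : j1 ≤ j := le_trans hMj1 hjM
    have hjn0 : n0 ≤ ν j := le_trans (le_trans hMn0 hjM) (hid j)
    have hreal : (n : ℝ) ≤ (J' : ℝ) * K * ν j := by
      have h1 : (n : ℝ) ≤ (J' : ℝ) * (ν (j + 1) : ℝ) := by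
        exact_mod_cast hj_spec.le
      have h2 : (J' : ℝ) * (ν (j + 1) : ℝ) ≤ (J' : ℝ) * (K * ν j) :=
        mul_le_mul_of_nonneg_left (hK j) (Nat.cast_nonneg _)
      calc (n : ℝ) ≤ (J' : ℝ) * (ν (j + 1) : ℝ) := h1
        _ ≤ (J' : ℝ) * (K * ν j) := h2
        _ = (J' : ℝ) * K * ν j := by ring
    have hstep := hn0 (ν j) n hjn0 (le_trans (Nat.mul_le_mul_right _ hJJ') hj_low) hreal
    have hd := hj1 j hjj1
    rw [Real.dist_eq, abs_lt] at hd
    linarith [hd.1]
  -- upper bound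
  have hup : r n < α + ε := by
    have hex : ∃ j, J' * n ≤ ν j := ⟨J' * n, hid _⟩
    obtain ⟨j, hj_spec, hj_min⟩ : ∃ j, J' * n ≤ ν j ∧ ∀ m < j, ¬ J' * n ≤ ν m :=
      ⟨Nat.find hex, Nat.find_spec hex, fun m hm => Nat.find_min hex hm⟩
    have hnle : 1 * n ≤ J' * n := Nat.mul_le_mul_right _ hJ'1
    have hjj1 : j1 < j := by
      by_contra hle
      push Not at hle
      have h5 : ν j ≤ ν j1 := hν.monotone hle
      omega
    have hprev : ν (j - 1) < J' * n := not_le.mp (hj_min (j - 1) (by omega))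
    have hKj : (ν j : ℝ) ≤ K * ν (j - 1) := by
      have h5 := hK (j - 1)
      have hj' : j - 1 + 1 = j := by omega
      rw [hj'] at h5
      exact h5
    have hreal : (ν j : ℝ) ≤ (J' : ℝ) * K * n := by
      have h1 : (ν (j - 1) : ℝ) ≤ (J' : ℝ) * (n : ℝ) := by
        exact_mod_cast hprev.le
      calc (ν j : ℝ) ≤ K * ν (j - 1) := hKj
        _ ≤ K * ((J' : ℝ) * (n : ℝ)) := mul_le_mul_of_nonneg_left h1 hKnn
        _ = (J' : ℝ) * K * n := by ring
    have hstep := hn0 n (ν j) hn2 (le_trans (Nat.mul_le_mul_right _ hJJ') hj_spec) hreal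
    have hd := hj1 j hjj1.le
    rw [Real.dist_eq, abs_lt] at hd
    linarith [hd.2]
  rw [Real.dist_eq, abs_lt]
  constructor <;> linarith

/-- A sharp threshold sequence of random `(k + 1)`-SAT, `k ≥ 2`, that converges along a strictly
increasing sequence of numbers of variables with bounded consecutive ratios converges. -/
theorem threshold_of_bounded_ratio (k : ℕ) (hk : 2 ≤ k) (r : ℕ → ℝ)
    (hr : IsThresholdSeq (k + 1) r) (ν : ℕ → ℕ) (K α : ℝ) (hν : StrictMono ν)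
    (hK : ∀ j, (ν (j + 1) : ℝ) ≤ K * ν j)
    (h : Tendsto (fun j => r (ν j)) atTop (nhds α)) : Tendsto r atTop (nhds α) :=
  tendsto_of_persist r (fun ε hε => threshold_persist k hk r hr ε hε) ν K α hν hK h

end Vale.Agent.Lib.P170
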