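import Vale.Agent.Lib.P170.PersistMul

/-!
A sharp threshold sequence does not decrease from `n` to any `n'` in a window `[J n, Λ n]`.
-/

namespace Vale.Agent.Lib.P170

open Filter

/-- If `p ≥ D`, `n ≥ D`, `γ D ≥ 2 (1 + γ)` and `p n < p N + p + n`, then `n ≤ (1 + γ) N`. -/
theorem pwin_arith (γ : ℝ) (hγ : 0 < γ) (D n p N : ℕ) (hD : 2 * (1 + γ) ≤ γ * D)
    (hD0 : 0 < D) (hpD : D ≤ p) (hnD : D ≤ n) (h : p * n < p * N + p + n) :
    (n : ℝ) ≤ (1 + γ) * N := by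
  have hp0 : (0 : ℝ) < p := by exact_mod_cast lt_of_lt_of_le hD0 hpD
  have hDr : (0 : ℝ) < D := by exact_mod_cast hD0
  have hr : (p : ℝ) * n < p * N + p + n := by exact_mod_cast h
  have h1 : (n : ℝ) - N - 1 < n / p := by
    rw [lt_div_iff₀ hp0]
    nlinarith
  have h2 : (n : ℝ) / p ≤ n / D :=
    div_le_div_of_nonneg_left (Nat.cast_nonneg n) hDr (by exact_mod_cast hpD)
  have h3 : (1 : ℝ) ≤ n / D := (one_le_div hDr).mpr (by exact_mod_cast hnD)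
  have hx0 : (0 : ℝ) ≤ n / D := by positivity
  have h4 : (n : ℝ) - 2 * (n / D) < N := by linarith
  have h5 : (n : ℝ) ≤ (1 + γ) * (n - 2 * (n / D)) := by
    have e : (1 + γ) * ((n : ℝ) - 2 * (n / D)) - n = n / D * (γ * D - 2 * (1 + γ)) := by
      field_simp
      ring
    have h0 := mul_nonneg hx0 (sub_nonneg.mpr hD)
    linarith
  have h6 : (1 + γ) * ((n : ℝ) - 2 * (n / D)) ≤ (1 + γ) * N :=
    mul_le_mul_of_nonneg_left h4.le (by linarith)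
  linarith

/-- A sharp threshold sequence of random `(k + 1)`-SAT, `k ≥ 2`, does not decrease, up to `ε`,
from `n` to any `n'` with `J n ≤ n' ≤ Λ n`, for large `n`; here `J` depends only on `ε`. -/
theorem threshold_persist (k : ℕ) (hk : 2 ≤ k) (r : ℕ → ℝ) (hr : IsThresholdSeq (k + 1) r)
    (ε : ℝ) (hε : 0 < ε) :
    ∃ J : ℕ, ∀ Λ : ℝ, ∃ n0 : ℕ, ∀ n n' : ℕ, n0 ≤ n → J * n ≤ n' → (n' : ℝ) ≤ Λ * n →
      r n - ε ≤ r n' := by
  have hε3 : 0 < ε / 3 := by positivity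
  obtain ⟨γ, n1, hγ, hdown⟩ := threshold_down (k + 1) (by omega) r hr (ε / 3) hε3
  have hmul : ∀ p : ℕ, ∃ N0 : ℕ, 1 ≤ p → ∀ N, N0 ≤ N → r N - ε / 3 ≤ r (p * N) := by
    intro p
    by_cases hp : 1 ≤ p
    · obtain ⟨N0, hN0⟩ := threshold_multiple k hk r hr p hp (ε / 3) hε3
      exact ⟨N0, fun _ => hN0⟩
    · exact ⟨0, fun h => absurd h hp⟩
  choose N0 hN0 using hmul
  obtain ⟨D, hDdef⟩ : ∃ D : ℕ, D = ⌈2 * (1 + γ) / γ⌉₊ + 2 := ⟨_, rfl⟩
  have hD2 : 2 ≤ D := by omega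
  have hDγ : 2 * (1 + γ) ≤ γ * D := by
    have h1 : 2 * (1 + γ) / γ ≤ (D : ℝ) := by
      rw [hDdef]
      push_cast
      linarith [Nat.le_ceil (2 * (1 + γ) / γ)]
    rw [div_le_iff₀ hγ] at h1
    linarith
  refine ⟨D, fun Λ => ?_⟩
  obtain ⟨n2, hsteps⟩ := threshold_steps (k + 1) (by omega) r hr ⌈Λ⌉₊ (ε / 3) hε3
  obtain ⟨M, hM⟩ : ∃ M : ℕ, M = (Finset.range (⌈Λ⌉₊ + 1)).sup N0 := ⟨_, rfl⟩
  refine ⟨2 * (n1 + M + n2) + 1 + D, ?_⟩
  intro n n' hn hJ hΛ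
  have hnpos : 0 < n := by omega
  have hnD : D ≤ n := by omega
  obtain ⟨p, hp⟩ : ∃ p : ℕ, p = (n' + n - 1) / n := ⟨_, rfl⟩
  have hA : n' ≤ p * n := by
    have h := Nat.lt_mul_div_succ (n' + n - 1) hnpos
    rw [← hp] at h
    have e : n * (p + 1) = p * n + n := by ring
    omega
  have hB : p * n < n' + n := by
    have h := Nat.div_mul_le_self (n' + n - 1) n
    rw [← hp] at h
    omega
  have hpJ : D ≤ p := by
    rw [hp]
    exact (Nat.le_div_iff_mul_le hnpos).mpr (by omega)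
  have hp2 : 2 ≤ p := le_trans hD2 hpJ
  have hppos : 0 < p := by omega
  have hn'S : n' ≤ ⌈Λ⌉₊ * n := by
    have h : (n' : ℝ) ≤ (⌈Λ⌉₊ : ℝ) * n :=
      le_trans hΛ (mul_le_mul_of_nonneg_right (Nat.le_ceil Λ) (Nat.cast_nonneg n))
    exact_mod_cast h
  have hpS : p ≤ ⌈Λ⌉₊ := by
    have h4 : p * n < (⌈Λ⌉₊ + 1) * n := by
      have e : (⌈Λ⌉₊ + 1) * n = ⌈Λ⌉₊ * n + n := by ring
      omega
    have h5 := Nat.lt_of_mul_lt_mul_right h4
    omega
  obtain ⟨N, hN⟩ : ∃ N : ℕ, N = n' / p := ⟨_, rfl⟩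
  obtain ⟨s, hs⟩ : ∃ s : ℕ, s = n' % p := ⟨_, rfl⟩
  have hC : p * N + s = n' := by
    rw [hN, hs]
    exact Nat.div_add_mod n' p
  have hsp : s < p := by
    rw [hs]
    exact Nat.mod_lt n' hppos
  have hNn : N ≤ n := by
    rw [hN]
    exact Nat.div_le_of_le_mul hA
  have hkey : p * n < p * N + p + n := by omega
  have hN2 : n ≤ 2 * N + 1 := by
    by_contra hcon
    push Not at hcon
    have h1 : (2 : ℤ) ≤ p := by exact_mod_cast hp2
    have h2 : (p : ℤ) * n < p * N + p + n := by exact_mod_cast hkey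
    have h3 : (2 : ℤ) * N + 1 < n := by exact_mod_cast hcon
    have h4 : (0 : ℤ) ≤ N := Nat.cast_nonneg N
    nlinarith [mul_nonneg (sub_nonneg.mpr h1) (by linarith : (0 : ℤ) ≤ (n : ℤ) - N - 1)]
  have hNbig : n1 + M + n2 ≤ N := by omega
  have hreal : (n : ℝ) ≤ (1 + γ) * N := pwin_arith γ hγ D n p N hDγ (by omega) hpJ hnD hkey
  have e1 : r n - ε / 3 ≤ r N := hdown N n (by omega) hNn hreal
  have e2 : r N - ε / 3 ≤ r (p * N) := by
    refine hN0 p (by omega) N ?_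
    have h : N0 p ≤ M := by
      rw [hM]
      exact Finset.le_sup (Finset.mem_range.mpr (by omega))
    omega
  have e3 : |r (p * N + s) - r (p * N)| ≤ ε / 3 := by
    refine hsteps (p * N) s ?_ (by omega)
    have h : N ≤ p * N := Nat.le_mul_of_pos_left N hppos
    omega
  rw [hC] at e3
  have e4 := (abs_le.mp e3).1
  linarith

end Vale.Agent.Lib.P170
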