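import Mathlib

/-!
An abstract counting identity behind the restriction coupling for random constraint systems.
-/

namespace Vale.Agent.Lib.P170

open Finset

section Thin

variable {X X' Y : Type*}

/-- Number of `m`-tuples over `X` all of whose entries are satisfied by a common `σ ∈ A`. -/
noncomputable def hcount (sat : Y → X → Prop) (A : Set Y) (m : ℕ) : ℕ :=
  Nat.card {G : Fin m → X // ∃ σ ∈ A, ∀ j, sat σ (G j)}

/-- The constraint predicate on `X'` induced by an embedding `f : X ↪ X'`: an element of `X'`
constrains `σ` only if it lies in the range of `f`. -/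
def liftSat (f : X ↪ X') (sat : Y → X → Prop) : Y → X' → Prop :=
  fun σ x' => ∀ x, x' = f x → sat σ x

theorem hcount_mono [Finite X] (sat : Y → X → Prop) {A B : Set Y} (h : A ⊆ B) (m : ℕ) :
    hcount sat A m ≤ hcount sat B m := by
  unfold hcount
  refine Nat.card_le_card_of_injective
    (fun G => (⟨G.1, ?_⟩ : {G : Fin m → X // ∃ σ ∈ B, ∀ j, sat σ (G j)})) ?_
  · obtain ⟨σ, hσ, hs⟩ := G.2
    exact ⟨σ, h hσ, hs⟩
  · intro G1 G2 h12
    apply Subtype.ext
    simpa using congrArg Subtype.val h12

theorem hcount_succ [Fintype X] (sat : Y → X → Prop) (A : Set Y) (m : ℕ) :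
    hcount sat A (m + 1) = ∑ x : X, hcount sat (A ∩ {σ | sat σ x}) m := by
  unfold hcount
  rw [← Nat.card_sigma]
  refine Nat.card_congr ?_
  refine
    { toFun := fun G => ⟨G.1 0, ⟨Fin.tail G.1, ?_⟩⟩
      invFun := fun p => ⟨Fin.cons p.1 p.2.1, ?_⟩
      left_inv := ?_
      right_inv := ?_ }
  · obtain ⟨σ, hσ, hs⟩ := G.2
    exact ⟨σ, ⟨hσ, hs 0⟩, fun j => hs j.succ⟩
  · obtain ⟨σ, hσ, hs⟩ := p.2.2
    refine ⟨σ, hσ.1, ?_⟩
    intro j
    refine Fin.cases ?_ (fun i => ?_) j
    · simpa using hσ.2
    · simpa using hs i
  · intro G
    apply Subtype.ext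
    simp [Fin.cons_self_tail]
  · rintro ⟨x, G, hG⟩
    rfl

theorem hcount_zero_eq (sat : Y → X → Prop) (sat' : Y → X' → Prop) (A : Set Y) :
    hcount sat' A 0 = hcount sat A 0 := by
  unfold hcount
  refine Nat.card_congr ?_
  refine
    { toFun := fun G => ⟨fun j => Fin.elim0 j, ?_⟩
      invFun := fun G => ⟨fun j => Fin.elim0 j, ?_⟩
      left_inv := ?_
      right_inv := ?_ }
  · obtain ⟨σ, hσ, -⟩ := G.2
    exact ⟨σ, hσ, fun j => Fin.elim0 j⟩
  · obtain ⟨σ, hσ, -⟩ := G.2
    exact ⟨σ, hσ, fun j => Fin.elim0 j⟩
  · intro G
    apply Subtype.ext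
    funext j
    exact Fin.elim0 j
  · intro G
    apply Subtype.ext
    funext j
    exact Fin.elim0 j

/-- The thinning identity: the number of `m`-tuples over `X'` whose entries in the range of `f` are
simultaneously satisfiable is a binomial-type sum of the corresponding counts over `X`. -/
theorem hcount_lift [Fintype X] [Fintype X'] (f : X ↪ X') (sat : Y → X → Prop) (A : Set Y) (m : ℕ) :
    hcount (liftSat f sat) A m =
      ∑ ij ∈ antidiagonal m,
        m.choose ij.1 * ((Fintype.card X' - Fintype.card X) ^ ij.2 * hcount sat A ij.1) := by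
  classical
  induction m generalizing A with
  | zero =>
    simp only [Finset.Nat.antidiagonal_zero, sum_singleton, Nat.choose_zero_right, pow_zero, one_mul]
    exact hcount_zero_eq sat (liftSat f sat) A
  | succ m ih =>
    have key := sum_antidiagonal_choose_succ_mul
      (fun i j => (Fintype.card X' - Fintype.card X) ^ j * hcount sat A i) m
    simp only [Nat.cast_id] at key
    rw [key, hcount_succ]
    have hsplit : ∑ x' : X', hcount (liftSat f sat) (A ∩ {σ | liftSat f sat σ x'}) m
        = ∑ x : X, hcount (liftSat f sat) (A ∩ {σ | sat σ x}) m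
          + (Fintype.card X' - Fintype.card X) * hcount (liftSat f sat) A m := by
      rw [← Finset.sum_filter_add_sum_filter_not Finset.univ (fun x' => x' ∈ Set.range f)]
      congr 1
      · have : (Finset.univ.filter (fun x' => x' ∈ Set.range f)) = Finset.univ.map f := by
          ext x'
          simp
        rw [this, Finset.sum_map]
        refine Finset.sum_congr rfl (fun x _ => ?_)
        congr 2
        ext σ
        simp only [Set.mem_ofPred_eq, liftSat]
        constructor
        · intro h
          exact h x rfl
        · intro h y hy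
          have := f.injective hy
          subst this
          exact h
      · have hcard : (Finset.univ.filter (fun x' => x' ∉ Set.range f)).card
            = Fintype.card X' - Fintype.card X := by
          rw [Finset.filter_not, Finset.card_sdiff_of_subset (Finset.filter_subset _ _)]
          have : (Finset.univ.filter (fun x' => x' ∈ Set.range f)) = Finset.univ.map f := by
            ext x'
            simp
          rw [this, Finset.card_map]
          simp [Finset.card_univ]
        rw [← hcard, ← smul_eq_mul, ← Finset.sum_const]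
        refine Finset.sum_congr rfl (fun x' hx' => ?_)
        congr 1
        ext σ
        simp only [Set.mem_inter_iff, Set.mem_ofPred_eq, liftSat, and_iff_left_iff_imp]
        intro _ y hy
        exact absurd ⟨y, hy.symm⟩ (Finset.mem_filter.mp hx').2
    rw [hsplit]
    have h1 : ∑ x : X, hcount (liftSat f sat) (A ∩ {σ | sat σ x}) m
        = ∑ ij ∈ antidiagonal m,
            m.choose ij.2 * ((Fintype.card X' - Fintype.card X) ^ ij.2 * hcount sat A (ij.1 + 1)) := by
      simp_rw [ih]
      rw [Finset.sum_comm]
      refine Finset.sum_congr rfl (fun ij hij => ?_)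
      rw [hcount_succ, ← Finset.mul_sum, ← Finset.mul_sum]
      have : m.choose ij.1 = m.choose ij.2 :=
        Nat.choose_symm_of_eq_add (Finset.HasAntidiagonal.mem_antidiagonal.mp hij).symm
      rw [this]
    have h2 : (Fintype.card X' - Fintype.card X) * hcount (liftSat f sat) A m
        = ∑ ij ∈ antidiagonal m,
            m.choose ij.1 * ((Fintype.card X' - Fintype.card X) ^ (ij.2 + 1) * hcount sat A ij.1) := by
      rw [ih, Finset.mul_sum]
      refine Finset.sum_congr rfl (fun ij _ => ?_)
      ring
    rw [h1, h2, add_comm]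

end Thin

end Vale.Agent.Lib.P170
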