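import Vale.Agent.Lib.P170.Model
import Vale.Agent.Lib.P170.Thinning

/-!
The restriction coupling for random `k`-SAT: a satisfiable formula on `n'` variables stays
satisfiable after deleting every clause that uses a variable outside the first `n`.
-/

namespace Vale.Agent.Lib.P170

open Finset

theorem card_clause (k n : ℕ) : Fintype.card (Clause k n) = 2 ^ k * n.choose k := by
  classical
  rw [Fintype.card_subtype]
  have h1 : (Finset.univ.filter
      (fun C : Finset (Fin n) × Finset (Fin n) => C.1.card = k ∧ C.2 ⊆ C.1)).card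
      = ((Finset.powersetCard k (Finset.univ : Finset (Fin n))).sigma
          (fun S => S.powerset)).card := by
    symm
    refine Finset.card_bij (fun a _ => (a.1, a.2)) ?_ ?_ ?_
    · intro a ha
      simp only [Finset.mem_sigma, Finset.mem_powersetCard, Finset.mem_powerset] at ha
      simp [ha.1.2, ha.2]
    · rintro ⟨a1, a2⟩ _ ⟨b1, b2⟩ _ hab
      simp only [Prod.mk.injEq] at hab
      obtain ⟨rfl, rfl⟩ := hab
      rfl
    · intro C hC
      simp only [Finset.mem_filter, Finset.mem_univ, true_and] at hC
      exact ⟨⟨C.1, C.2⟩, by simp [hC.1, hC.2], rfl⟩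
  rw [h1, Finset.card_sigma]
  rw [Finset.sum_congr rfl (fun S hS => by
    rw [Finset.card_powerset, (Finset.mem_powersetCard.mp hS).2])]
  simp [Finset.card_powersetCard, mul_comm]

theorem card_clause_pos {k n : ℕ} (hk : k ≤ n) : 0 < Fintype.card (Clause k n) := by
  rw [card_clause]
  exact Nat.mul_pos (by positivity) (Nat.choose_pos hk)

/-- Regard a clause on the variables `Fin n` as a clause on the variables `Fin n'`, `n ≤ n'`. -/
def pushFun {k n n' : ℕ} (h : n ≤ n') (C : Clause k n) : Clause k n' :=
  ⟨(C.1.1.map (Fin.castLEEmb h), C.1.2.map (Fin.castLEEmb h)), by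
    refine ⟨?_, Finset.map_subset_map.mpr C.2.2⟩
    rw [Finset.card_map]
    exact C.2.1⟩

theorem pushFun_injective {k n n' : ℕ} (h : n ≤ n') :
    Function.Injective (pushFun (k := k) h) := by
  intro C D hCD
  have h1 : C.1.1.map (Fin.castLEEmb h) = D.1.1.map (Fin.castLEEmb h) :=
    congrArg (fun E : Clause k n' => E.1.1) hCD
  have h2 : C.1.2.map (Fin.castLEEmb h) = D.1.2.map (Fin.castLEEmb h) :=
    congrArg (fun E : Clause k n' => E.1.2) hCD
  rw [Finset.map_inj] at h1 h2
  exact Subtype.ext (Prod.ext h1 h2)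

/-- The embedding of the clauses on `n` variables into the clauses on `n' ≥ n` variables. -/
def pushClause {k n n' : ℕ} (h : n ≤ n') : Clause k n ↪ Clause k n' :=
  ⟨pushFun h, pushFun_injective h⟩

theorem clauseSat_push {k n n' : ℕ} (h : n ≤ n') (σ' : Fin n' → Bool) (C : Clause k n) :
    ClauseSat σ' (pushClause h C) ↔ ClauseSat (fun i => σ' (Fin.castLE h i)) C := by
  have e1 : (pushClause h C).1.1 = C.1.1.map (Fin.castLEEmb h) := rfl
  have e2 : (pushClause h C).1.2 = C.1.2.map (Fin.castLEEmb h) := rfl
  unfold ClauseSat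
  rw [e1, e2]
  constructor
  · rintro ⟨i', hi', hiff⟩
    obtain ⟨i, hi, rfl⟩ := Finset.mem_map.mp hi'
    refine ⟨i, hi, ?_⟩
    rw [Fin.castLEEmb_apply] at hiff
    rw [hiff, Finset.mem_map]
    constructor
    · intro hn hin
      exact hn ⟨i, hin, rfl⟩
    · rintro hn ⟨i2, hi2, he⟩
      have : i2 = i := (Fin.castLEEmb h).injective he
      exact hn (this ▸ hi2)
  · rintro ⟨i, hi, hiff⟩
    refine ⟨Fin.castLE h i, Finset.mem_map.mpr ⟨i, hi, rfl⟩, ?_⟩
    rw [hiff, Finset.mem_map]
    constructor
    · rintro hn ⟨i2, hi2, he⟩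
      have : i2 = i := (Fin.castLEEmb h).injective he
      exact hn (this ▸ hi2)
    · intro hn hin
      exact hn ⟨i, hin, rfl⟩

/-- The number of satisfiable `m`-tuples of proper `k`-clauses on `n` variables. -/
noncomputable def satCount (k n m : ℕ) : ℕ :=
  Nat.card {F : Fin m → Clause k n // Satisfiable F}

theorem satCount_eq_hcount (k n m : ℕ) :
    satCount k n m = hcount (ClauseSat (k := k) (n := n)) Set.univ m := by
  unfold satCount hcount Satisfiable
  simp

theorem satProb_eq (k n m : ℕ) :
    satProb k n m = (satCount k n m : ℝ) / (Fintype.card (Clause k n) : ℝ) ^ m := by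
  unfold satProb satCount
  simp [Nat.card_eq_fintype_card]

theorem satCount_le (k n m : ℕ) : satCount k n m ≤ Fintype.card (Clause k n) ^ m := by
  unfold satCount
  have h := Nat.card_le_card_of_injective
    (fun F : {F : Fin m → Clause k n // Satisfiable F} => F.1) Subtype.val_injective
  simpa [Nat.card_eq_fintype_card] using h

theorem satProb_nonneg (k n m : ℕ) : 0 ≤ satProb k n m := by
  rw [satProb_eq]
  positivity

theorem satProb_le_one (k n m : ℕ) : satProb k n m ≤ 1 := by
  rw [satProb_eq]
  have h := satCount_le k n m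
  have h' : (satCount k n m : ℝ) ≤ (Fintype.card (Clause k n) : ℝ) ^ m := by
    exact_mod_cast h
  exact div_le_one_of_le₀ h' (by positivity)

theorem satCount_succ_le (k n m : ℕ) :
    satCount k n (m + 1) ≤ Fintype.card (Clause k n) * satCount k n m := by
  rw [satCount_eq_hcount, satCount_eq_hcount, hcount_succ]
  calc ∑ x : Clause k n, hcount ClauseSat (Set.univ ∩ {σ | ClauseSat σ x}) m
      ≤ ∑ _x : Clause k n, hcount (ClauseSat (k := k) (n := n)) Set.univ m :=
        Finset.sum_le_sum (fun x _ => hcount_mono _ Set.inter_subset_left m)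
    _ = Fintype.card (Clause k n) * hcount (ClauseSat (k := k) (n := n)) Set.univ m := by
        simp [Finset.card_univ]

theorem satProb_succ_le (k n m : ℕ) : satProb k n (m + 1) ≤ satProb k n m := by
  rw [satProb_eq, satProb_eq]
  rcases Nat.eq_zero_or_pos (Fintype.card (Clause k n)) with h0 | hpos
  · rw [h0]
    simp only [Nat.cast_zero, ne_eq, Nat.add_eq_zero_iff, one_ne_zero, and_false,
      not_false_eq_true, zero_pow, div_zero]
    positivity
  · have hposR : (0 : ℝ) < (Fintype.card (Clause k n) : ℝ) := by exact_mod_cast hpos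
    rw [div_le_div_iff₀ (by positivity) (by positivity)]
    have h := satCount_succ_le k n m
    have h' : (satCount k n (m + 1) : ℝ) ≤ (Fintype.card (Clause k n) : ℝ) * satCount k n m := by
      exact_mod_cast h
    calc (satCount k n (m + 1) : ℝ) * (Fintype.card (Clause k n) : ℝ) ^ m
        ≤ ((Fintype.card (Clause k n) : ℝ) * satCount k n m) * (Fintype.card (Clause k n) : ℝ) ^ m :=
          mul_le_mul_of_nonneg_right h' (by positivity)
      _ = (satCount k n m : ℝ) * (Fintype.card (Clause k n) : ℝ) ^ (m + 1) := by ring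

theorem satProb_anti (k n : ℕ) {j j' : ℕ} (h : j ≤ j') : satProb k n j' ≤ satProb k n j := by
  induction h with
  | refl => exact le_rfl
  | step _ ih => exact le_trans (satProb_succ_le k n _) ih

/-- Counting form of the restriction coupling. -/
theorem satCount_restrict {k n n' : ℕ} (h : n ≤ n') (m : ℕ) :
    satCount k n' m ≤ ∑ ij ∈ antidiagonal m,
      m.choose ij.1 * ((Fintype.card (Clause k n') - Fintype.card (Clause k n)) ^ ij.2
        * satCount k n ij.1) := by
  have hle : satCount k n' m ≤
      hcount (liftSat (pushClause (k := k) h) ClauseSat) Set.univ m := by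
    unfold satCount hcount
    refine Nat.card_le_card_of_injective
      (fun F => (⟨F.1, ?_⟩ : {F : Fin m → Clause k n' //
        ∃ σ ∈ Set.univ, ∀ j, liftSat (pushClause (k := k) h) ClauseSat σ (F j)})) ?_
    · obtain ⟨σ', hσ'⟩ := F.2
      refine ⟨fun i => σ' (Fin.castLE h i), Set.mem_univ _, ?_⟩
      intro j x hx
      have := hσ' j
      rw [hx, clauseSat_push] at this
      exact this
    · intro F1 F2 h12
      apply Subtype.ext
      simpa using congrArg Subtype.val h12
  refine le_trans hle (le_of_eq ?_)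
  rw [hcount_lift]
  simp only [satCount_eq_hcount]

/-- The restriction coupling as an inequality between satisfiability probabilities: for
`k ≤ n ≤ n'`, `P_{k,n'}(m)` is at most the mean of `P_{k,n}(J)` for `J` binomial with parameters
`m` and `p = C(n,k)/C(n',k)`. -/
theorem satProb_restrict {k n n' : ℕ} (hk : k ≤ n) (h : n ≤ n') (m : ℕ) :
    satProb k n' m ≤ ∑ j ∈ Finset.range (m + 1),
      (m.choose j : ℝ) * ((n.choose k : ℝ) / n'.choose k) ^ j
        * (1 - (n.choose k : ℝ) / n'.choose k) ^ (m - j) * satProb k n j := by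
  have ha : 0 < Fintype.card (Clause k n) := card_clause_pos hk
  have ha' : 0 < Fintype.card (Clause k n') := card_clause_pos (le_trans hk h)
  have hle : Fintype.card (Clause k n) ≤ Fintype.card (Clause k n') :=
    Fintype.card_le_of_embedding (pushClause h)
  set a : ℝ := (Fintype.card (Clause k n) : ℝ) with ha_def
  set a' : ℝ := (Fintype.card (Clause k n') : ℝ) with ha'_def
  have haR : 0 < a := by rw [ha_def]; exact_mod_cast ha
  have ha'R : 0 < a' := by rw [ha'_def]; exact_mod_cast ha'
  have hp : (n.choose k : ℝ) / n'.choose k = a / a' := by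
    rw [ha_def, ha'_def, card_clause, card_clause]
    push_cast
    have h2 : (2 : ℝ) ^ k ≠ 0 := by positivity
    have hc : ((n'.choose k : ℕ) : ℝ) ≠ 0 := by
      exact_mod_cast (Nat.choose_pos (le_trans hk h)).ne'
    field_simp
  have hb : ((Fintype.card (Clause k n') - Fintype.card (Clause k n) : ℕ) : ℝ) = a' - a := by
    rw [Nat.cast_sub hle]
  rw [hp]
  have hcount := satCount_restrict (k := k) h m
  have hcountR : (satCount k n' m : ℝ) ≤ ∑ ij ∈ antidiagonal m,
      (m.choose ij.1 : ℝ) * ((a' - a) ^ ij.2 * satCount k n ij.1) := by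
    have := (Nat.cast_le (α := ℝ)).mpr hcount
    rw [Nat.cast_sum] at this
    refine le_trans this (le_of_eq ?_)
    refine Finset.sum_congr rfl (fun ij _ => ?_)
    rw [Nat.cast_mul, Nat.cast_mul, Nat.cast_pow, hb]
  rw [Finset.Nat.sum_antidiagonal_eq_sum_range_succ_mk] at hcountR
  rw [satProb_eq, div_le_iff₀ (by positivity)]
  refine le_trans hcountR (le_of_eq ?_)
  rw [Finset.sum_mul]
  refine Finset.sum_congr rfl (fun j hj => ?_)
  have hjm : j ≤ m := Nat.lt_succ_iff.mp (Finset.mem_range.mp hj)
  rw [satProb_eq, ← ha_def]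
  have e1 : a' ^ m = a' ^ j * a' ^ (m - j) := by
    rw [← pow_add, Nat.add_sub_cancel' hjm]
  have e2 : (1 - a / a') = (a' - a) / a' := by
    field_simp
  rw [e1, e2, div_pow, div_pow]
  field_simp

end Vale.Agent.Lib.P170
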