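import Vale.Agent.Lib.P170.Tail
import Vale.Agent.Lib.P170.FirstMoment

/-!
One-sided slow variation of sharp threshold sequences of random `k`-SAT.
-/

namespace Vale.Agent.Lib.P170

open Filter

/-- Every sharp threshold sequence `r` of random `k`-SAT satisfies
`r n' ≤ (n'/n)^(k-1) r n + ε` for all large `n` and all `n ≤ n' ≤ Λ n`. -/
theorem threshold_slow_variation (k : ℕ) (hk : 1 ≤ k) (r : ℕ → ℝ) (hr : IsThresholdSeq k r)
    (Λ ε : ℝ) (hΛ : 1 ≤ Λ) (hε : 0 < ε) :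
    ∃ n0 : ℕ, ∀ n n' : ℕ, n0 ≤ n → n ≤ n' → (n' : ℝ) ≤ Λ * n →
      r n' ≤ ((n' : ℝ) / n) ^ (k - 1) * r n + ε := by
  have hΛ0 : 0 < Λ := by linarith
  set L := Λ ^ (k - 1) with hL
  have hL1 : 1 ≤ L := one_le_pow₀ hΛ
  have hL0 : 0 < L := by linarith
  set ε1 := ε / (4 * L) with hε1
  have hε10 : 0 < ε1 := by positivity
  have hLε1 : L * ε1 = ε / 4 := by
    rw [hε1]
    field_simp
  have hT0 := (hr ε1 hε10).2
  have hT1 := (hr (ε / 4) (by positivity)).1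
  rw [Metric.tendsto_atTop] at hT0 hT1
  obtain ⟨n1, hn1⟩ := hT0 (1 / 4) (by norm_num)
  obtain ⟨n2, hn2⟩ := hT1 (1 / 4) (by norm_num)
  obtain ⟨n3, hn3⟩ := thresholdSeq_bdd hr
  obtain ⟨K, hK⟩ := satProb_transfer k hk Λ (2 ^ (k + 1) + 2) (ε / 4) hΛ (by positivity)
  refine ⟨max (max n1 n2) (max n3 (⌈2 * |K|⌉₊ + 1)), ?_⟩
  intro n n' hn hnn' hΛn
  have hn1' : n1 ≤ n := le_trans (le_trans (le_max_left _ _) (le_max_left _ _)) hn
  have hn2' : n2 ≤ n' := le_trans (le_trans (le_trans (le_max_right _ _) (le_max_left _ _)) hn) hnn'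
  have hn3' : n3 ≤ n' := le_trans (le_trans (le_trans (le_max_left _ _) (le_max_right _ _)) hn) hnn'
  have hn4 : ⌈2 * |K|⌉₊ + 1 ≤ n := le_trans (le_trans (le_max_right _ _) (le_max_right _ _)) hn
  have hn4R : 2 * |K| + 1 ≤ (n : ℝ) := by
    have h1 : 2 * |K| ≤ (⌈2 * |K|⌉₊ : ℝ) := Nat.le_ceil _
    have h2 : ((⌈2 * |K|⌉₊ + 1 : ℕ) : ℝ) ≤ n := by exact_mod_cast hn4
    push_cast at h2
    linarith
  have hKabs : 0 ≤ |K| := abs_nonneg K
  have hnpos : (0 : ℝ) < n := by linarith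
  have hnn'R : (n : ℝ) ≤ n' := by exact_mod_cast hnn'
  have hn'pos : (0 : ℝ) < n' := lt_of_lt_of_le hnpos hnn'R
  by_contra hcon
  rw [not_le] at hcon
  set ρ := ((n' : ℝ) / n) ^ (k - 1) with hρ
  have hρL : ρ ≤ L := by
    apply pow_le_pow_left₀ (by positivity)
    rw [div_le_iff₀ hnpos]
    exact hΛn
  have hρ0 : 0 ≤ ρ := by positivity
  -- the lower density is positive
  have hd0 := hn1 n hn1'
  rw [Real.dist_eq] at hd0
  have hd0' := (abs_lt.mp hd0).2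
  have hcpos : 0 < (r n + ε1) * (n : ℝ) := by
    by_contra hneg
    rw [not_lt] at hneg
    rw [Nat.floor_of_nonpos hneg, satProb_zero] at hd0'
    norm_num at hd0'
  have hc0 : 0 ≤ r n + ε1 := by
    by_contra hneg
    rw [not_le] at hneg
    nlinarith
  have hd1 := hn2 n' hn2'
  rw [Real.dist_eq] at hd1
  have hd1' := (abs_lt.mp hd1).1
  have hbd := hn3 n' hn3'
  have hgap : (r n + ε1) * ρ + ε / 4 ≤ r n' - ε / 4 := by
    have h1 : ε1 * ρ ≤ ε / 4 := by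
      calc ε1 * ρ ≤ ε1 * L := mul_le_mul_of_nonneg_left hρL hε10.le
        _ = ε / 4 := by rw [mul_comm, hLε1]
    nlinarith
  have hKn : K ≤ n := by
    have : K ≤ |K| := le_abs_self K
    linarith
  have hmain := hK n n' (r n + ε1) (r n' - ε / 4) hKn hnn' hΛn hc0 (by linarith) hgap
  have hKn2 : K / n < 1 / 2 := by
    rw [div_lt_iff₀ hnpos]
    have : K ≤ |K| := le_abs_self K
    linarith
  linarith

end Vale.Agent.Lib.P170
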