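import Vale.Agent.Lib.P170.Tail

/-!
From thresholds along a sequence with ratios tending to one to thresholds along all `n`.
-/

namespace Vale.Agent.Lib.P170

open Filter

/-- Locate `n` between two consecutive terms of a strictly increasing sequence. -/
theorem exists_block (ν : ℕ → ℕ) (hν : StrictMono ν) (j0 n : ℕ) (hn : ν j0 ≤ n) :
    ∃ j, j0 ≤ j ∧ ν j ≤ n ∧ n < ν (j + 1) := by
  classical
  have hj0n : j0 ≤ n := le_trans (hν.le_apply) hn
  refine ⟨Nat.findGreatest (fun j => ν j ≤ n) n, Nat.le_findGreatest hj0n hn,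
    Nat.findGreatest_spec (P := fun j => ν j ≤ n) hj0n hn, ?_⟩
  by_contra hcon
  rw [not_lt] at hcon
  have h1 : Nat.findGreatest (fun j => ν j ≤ n) n + 1 ≤ n := le_trans (hν.le_apply) hcon
  have h2 := Nat.le_findGreatest (P := fun j => ν j ≤ n) h1 hcon
  omega

/-- Transfer inside one block `[ν j, ν (j+1)]` of a sequence whose consecutive ratios tend to `1`. -/
theorem block_transfer (k : ℕ) (hk : 1 ≤ k) (ν : ℕ → ℕ) (hν : StrictMono ν)
    (hratio : Tendsto (fun j : ℕ => (ν (j + 1) : ℝ) / ν j) atTop (nhds 1))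
    (c c' ε : ℝ) (hc : 0 ≤ c) (hcc' : c < c') (hε : 0 < ε) :
    ∃ j0, ∀ j, j0 ≤ j → ∀ n n' : ℕ, ν j ≤ n → n ≤ n' → n' ≤ ν (j + 1) →
      satProb k n' ⌊c' * n'⌋₊ ≤ satProb k n ⌊c * n⌋₊ + ε := by
  set η := (c' - c) / 2 with hη
  have hη0 : 0 < η := by
    rw [hη]
    linarith
  set s := (c' - c) / (2 * (c + 1)) with hs
  have hs0 : 0 < s := by
    rw [hs]
    apply div_pos <;> linarith
  have hcs : c * s ≤ (c' - c) / 2 := by
    rw [hs]
    rw [mul_div_assoc']
    rw [div_le_div_iff₀ (by linarith) (by norm_num)]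
    nlinarith
  obtain ⟨K, hK⟩ := satProb_transfer k hk 2 c' η (by norm_num) hη0
  have hpow : Tendsto (fun j : ℕ => ((ν (j + 1) : ℝ) / ν j) ^ (k - 1)) atTop (nhds 1) := by
    have := hratio.pow (k - 1)
    rwa [one_pow] at this
  have e1 : ∀ᶠ j in atTop, (ν (j + 1) : ℝ) / ν j < 2 :=
    hratio.eventually_lt_const (by norm_num)
  have e2 : ∀ᶠ j in atTop, ((ν (j + 1) : ℝ) / ν j) ^ (k - 1) < 1 + s :=
    hpow.eventually_lt_const (by linarith)
  have e3 : ∀ᶠ j : ℕ in atTop, |K| / ε + |K| + 1 ≤ (j : ℝ) :=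
    tendsto_natCast_atTop_atTop.eventually_ge_atTop _
  obtain ⟨j0, hj0⟩ := (e1.and (e2.and e3)).exists_forall_of_atTop
  refine ⟨j0, ?_⟩
  intro j hj n n' hn hnn' hn'
  obtain ⟨h1, h2, h3⟩ := hj0 j hj
  have hjν : (j : ℝ) ≤ ν j := by exact_mod_cast hν.le_apply
  have hKabs : 0 ≤ |K| := abs_nonneg K
  have hKε : 0 ≤ |K| / ε := by positivity
  have hνpos : (0 : ℝ) < ν j := by linarith
  have hnR : (ν j : ℝ) ≤ n := by exact_mod_cast hn
  have hnpos : (0 : ℝ) < n := lt_of_lt_of_le hνpos hnR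
  have hnn'R : (n : ℝ) ≤ n' := by exact_mod_cast hnn'
  have hn'R : (n' : ℝ) ≤ ν (j + 1) := by exact_mod_cast hn'
  have hn'pos : (0 : ℝ) < n' := lt_of_lt_of_le hnpos hnn'R
  have hKn : K ≤ n := by
    have : K ≤ |K| := le_abs_self K
    linarith
  have hΛ : (n' : ℝ) ≤ 2 * n := by
    have : (ν (j + 1) : ℝ) < 2 * ν j := by
      rwa [div_lt_iff₀ hνpos] at h1
    linarith
  have hrat : (n' : ℝ) / n ≤ (ν (j + 1) : ℝ) / ν j :=
    div_le_div₀ (by positivity) hn'R hνpos hnR
  have hratpow : ((n' : ℝ) / n) ^ (k - 1) ≤ 1 + s :=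
    le_trans (pow_le_pow_left₀ (by positivity) hrat _) h2.le
  have hgap : c * ((n' : ℝ) / n) ^ (k - 1) + η ≤ c' := by
    have : c * ((n' : ℝ) / n) ^ (k - 1) ≤ c * (1 + s) := mul_le_mul_of_nonneg_left hratpow hc
    rw [hη]
    linarith
  have hmain := hK n n' c c' hKn hnn' hΛ hc le_rfl hgap
  have hKn' : K / n ≤ ε := by
    have h4 : K / n ≤ |K| / n := div_le_div_of_nonneg_right (le_abs_self K) hnpos.le
    have h5 : |K| / n ≤ ε := by
      rw [div_le_iff₀ hnpos]
      have : |K| / ε ≤ n := by linarith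
      rw [div_le_iff₀ hε] at this
      linarith
    linarith
  linarith

/-- A limiting threshold along a strictly increasing sequence whose consecutive ratios tend to one
is a limiting threshold along all `n`. -/
theorem limitingThreshold_of_subseq (k : ℕ) (hk : 1 ≤ k) (ν : ℕ → ℕ) (hν : StrictMono ν)
    (hratio : Tendsto (fun j : ℕ => (ν (j + 1) : ℝ) / ν j) atTop (nhds 1))
    (α : ℝ) (h : LimitingThresholdAlong k ν α) :
    LimitingThresholdAlong k (fun n => n) α := by
  obtain ⟨hα, hsat, hunsat⟩ := h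
  refine ⟨hα, ?_, ?_⟩
  · intro c hc hcα
    rw [Metric.tendsto_atTop]
    intro ε hε
    set c'' := (c + α) / 2 with hc''
    have hcc'' : c < c'' := by
      rw [hc'']
      linarith
    have hc''α : c'' < α := by
      rw [hc'']
      linarith
    obtain ⟨j1, hj1⟩ := block_transfer k hk ν hν hratio c c'' (ε / 2) hc hcc'' (by positivity)
    have hT := hsat c'' (by linarith) hc''α
    rw [Metric.tendsto_atTop] at hT
    obtain ⟨j2, hj2⟩ := hT (ε / 2) (by positivity)
    refine ⟨ν (max j1 j2), ?_⟩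
    intro n hn
    obtain ⟨j, hj, hjn, hnj⟩ := exists_block ν hν (max j1 j2) n hn
    have hb := hj1 j (le_trans (le_max_left _ _) hj) n (ν (j + 1)) hjn hnj.le le_rfl
    have hd := hj2 (j + 1) (by
      have := le_trans (le_max_right j1 j2) hj
      omega)
    rw [Real.dist_eq] at hd ⊢
    have hd' := (abs_lt.mp hd).1
    have hle := satProb_le_one k n ⌊c * (n : ℝ)⌋₊
    rw [abs_lt]
    constructor <;> linarith
  · intro c' hc'
    rw [Metric.tendsto_atTop]
    intro ε hε
    set c := (α + c') / 2 with hcdef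
    have hαc : α < c := by
      rw [hcdef]
      linarith
    have hcc' : c < c' := by
      rw [hcdef]
      linarith
    obtain ⟨j1, hj1⟩ := block_transfer k hk ν hν hratio c c' (ε / 2) (by linarith) hcc'
      (by positivity)
    have hT := hunsat c hαc
    rw [Metric.tendsto_atTop] at hT
    obtain ⟨j2, hj2⟩ := hT (ε / 2) (by positivity)
    refine ⟨ν (max j1 j2), ?_⟩
    intro n hn
    obtain ⟨j, hj, hjn, hnj⟩ := exists_block ν hν (max j1 j2) n hn
    have hb := hj1 j (le_trans (le_max_left _ _) hj) (ν j) n le_rfl hjn hnj.le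
    have hd := hj2 j (le_trans (le_max_right _ _) hj)
    rw [Real.dist_eq] at hd ⊢
    have hd' := (abs_lt.mp hd).2
    have hge := satProb_nonneg k n ⌊c' * (n : ℝ)⌋₊
    rw [abs_lt]
    constructor <;> linarith

end Vale.Agent.Lib.P170
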