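import Vale.Agent.Lib.P170.Restrict

/-!
Binomial weights, Chebyshev's tail bound for them, and the density transfer estimate.
-/

namespace Vale.Agent.Lib.P170

open Finset

/-- The binomial weight `C(m,j) p^j (1-p)^(m-j)`. -/
noncomputable def binW (m : ℕ) (p : ℝ) (j : ℕ) : ℝ :=
  (m.choose j : ℝ) * p ^ j * (1 - p) ^ (m - j)

theorem binW_nonneg {m : ℕ} {p : ℝ} (h0 : 0 ≤ p) (h1 : p ≤ 1) (j : ℕ) : 0 ≤ binW m p j := by
  unfold binW
  have : 0 ≤ 1 - p := by linarith
  positivity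

theorem sum_binW (m : ℕ) (p : ℝ) : ∑ j ∈ range (m + 1), binW m p j = 1 := by
  have h := add_pow p (1 - p) m
  rw [show p + (1 - p) = 1 by ring, one_pow] at h
  rw [h]
  refine Finset.sum_congr rfl (fun j _ => ?_)
  unfold binW
  ring

theorem var_binW (m : ℕ) (p : ℝ) :
    ∑ j ∈ range (m + 1), ((m : ℝ) * p - j) ^ 2 * binW m p j = m * p * (1 - p) := by
  have h := congrArg (Polynomial.eval p) (bernsteinPolynomial.variance ℝ m)
  simp only [Polynomial.eval_finset_sum, Polynomial.eval_mul, Polynomial.eval_pow,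
    Polynomial.eval_sub, Polynomial.eval_X, Polynomial.eval_natCast,
    Polynomial.eval_one, bernsteinPolynomial, nsmul_eq_mul] at h
  rw [← h]
  refine Finset.sum_congr rfl (fun j _ => ?_)
  unfold binW
  ring

theorem tail_binW {m : ℕ} {p : ℝ} (h0 : 0 ≤ p) (h1 : p ≤ 1) {j0 : ℕ}
    (hj : (j0 : ℝ) < m * p) :
    ∑ j ∈ (range (m + 1)).filter (fun j => j < j0), binW m p j
      ≤ m * p * (1 - p) / (m * p - j0) ^ 2 := by
  have hd : (0 : ℝ) < m * p - j0 := by linarith
  rw [le_div_iff₀ (by positivity), ← var_binW, Finset.sum_mul]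
  calc ∑ j ∈ (range (m + 1)).filter (fun j => j < j0), binW m p j * ((m : ℝ) * p - j0) ^ 2
      ≤ ∑ j ∈ (range (m + 1)).filter (fun j => j < j0), ((m : ℝ) * p - j) ^ 2 * binW m p j := by
        refine Finset.sum_le_sum (fun j hjm => ?_)
        have hjj : (j : ℝ) ≤ j0 := by
          exact_mod_cast (Finset.mem_filter.mp hjm).2.le
        have hb := binW_nonneg h0 h1 (m := m) j
        have hsq : ((m : ℝ) * p - j0) ^ 2 ≤ ((m : ℝ) * p - j) ^ 2 := by
          apply pow_le_pow_left₀ hd.le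
          linarith
        calc binW m p j * ((m : ℝ) * p - j0) ^ 2 ≤ binW m p j * ((m : ℝ) * p - j) ^ 2 :=
              mul_le_mul_of_nonneg_left hsq hb
          _ = ((m : ℝ) * p - j) ^ 2 * binW m p j := by ring
    _ ≤ ∑ j ∈ range (m + 1), ((m : ℝ) * p - j) ^ 2 * binW m p j := by
        refine Finset.sum_le_sum_of_subset_of_nonneg (Finset.filter_subset _ _) (fun j _ _ => ?_)
        have hb := binW_nonneg h0 h1 (m := m) j
        positivity

theorem mix_le {m : ℕ} {p : ℝ} (h0 : 0 ≤ p) (h1 : p ≤ 1) (s : ℕ → ℝ)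
    (hs0 : ∀ j, 0 ≤ s j) (hs1 : ∀ j, s j ≤ 1) (hanti : ∀ j j', j ≤ j' → s j' ≤ s j) (j0 : ℕ) :
    ∑ j ∈ range (m + 1), binW m p j * s j
      ≤ s j0 + ∑ j ∈ (range (m + 1)).filter (fun j => j < j0), binW m p j := by
  rw [← Finset.sum_filter_add_sum_filter_not (range (m + 1)) (fun j => j < j0)]
  have hA : ∑ j ∈ (range (m + 1)).filter (fun j => j < j0), binW m p j * s j
      ≤ ∑ j ∈ (range (m + 1)).filter (fun j => j < j0), binW m p j :=
    Finset.sum_le_sum (fun j _ => mul_le_of_le_one_right (binW_nonneg h0 h1 j) (hs1 j))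
  have hB : ∑ j ∈ (range (m + 1)).filter (fun j => ¬ j < j0), binW m p j * s j ≤ s j0 := by
    calc ∑ j ∈ (range (m + 1)).filter (fun j => ¬ j < j0), binW m p j * s j
        ≤ ∑ j ∈ (range (m + 1)).filter (fun j => ¬ j < j0), binW m p j * s j0 := by
          refine Finset.sum_le_sum (fun j hj => ?_)
          exact mul_le_mul_of_nonneg_left
            (hanti j0 j (not_lt.mp (Finset.mem_filter.mp hj).2)) (binW_nonneg h0 h1 j)
      _ ≤ ∑ j ∈ range (m + 1), binW m p j * s j0 := by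
          refine Finset.sum_le_sum_of_subset_of_nonneg (Finset.filter_subset _ _)
            (fun j _ _ => mul_nonneg (binW_nonneg h0 h1 j) (hs0 j0))
      _ = s j0 := by rw [← Finset.sum_mul, sum_binW, one_mul]
  linarith

theorem choose_ratio_lower {k n n' : ℕ} (hk : k ≤ n) (h : n ≤ n') :
    ((n + 1 - k : ℕ) : ℝ) ^ k / (n' : ℝ) ^ k ≤ (n.choose k : ℝ) / n'.choose k := by
  have hc : ((n'.choose k : ℕ) : ℝ) ≠ 0 := by
    exact_mod_cast (Nat.choose_pos (le_trans hk h)).ne'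
  have hf : ((k.factorial : ℕ) : ℝ) ≠ 0 := by
    exact_mod_cast (Nat.factorial_pos k).ne'
  have h1 : (n.choose k : ℝ) / n'.choose k
      = (n.descFactorial k : ℝ) / n'.descFactorial k := by
    rw [Nat.descFactorial_eq_factorial_mul_choose, Nat.descFactorial_eq_factorial_mul_choose]
    push_cast
    field_simp
  rw [h1]
  have hpos : 0 < n'.descFactorial k := by
    rw [Nat.descFactorial_eq_factorial_mul_choose]
    exact Nat.mul_pos (Nat.factorial_pos k) (Nat.choose_pos (le_trans hk h))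
  apply div_le_div₀
  · positivity
  · exact_mod_cast Nat.pow_sub_le_descFactorial n k
  · exact_mod_cast hpos
  · exact_mod_cast Nat.descFactorial_le_pow n' k

theorem gap_lower (k : ℕ) (hk : 1 ≤ k) {N N' c c' C η Λ p M J : ℝ}
    (hN : 0 < N) (hNN' : N ≤ N') (hΛ : N' ≤ Λ * N) (hkN : (k : ℝ) ≤ N)
    (hc : 0 ≤ c) (hη : 0 < η) (hc' : c' ≤ C) (hgap : c * (N' / N) ^ (k - 1) + η ≤ c')
    (hp0 : 0 ≤ p) (hp1 : p ≤ 1) (hp : ((N + 1 - k) / N') ^ k ≤ p)
    (hM : c' * N' - 1 ≤ M) (hJ : J ≤ c * N) :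
    η / Λ ^ (k - 1) * N - (C * k ^ 2 + 1) ≤ M * p - J := by
  have hN' : 0 < N' := lt_of_lt_of_le hN hNN'
  have hk1 : (1 : ℝ) ≤ k := by exact_mod_cast hk
  have hΛpos : 0 < Λ := by
    by_contra hcon
    rw [not_lt] at hcon
    nlinarith
  set x := N / N' with hx
  have hx0 : 0 < x := div_pos hN hN'
  have hx1 : x ≤ 1 := (div_le_one hN').mpr hNN'
  have hxΛ : 1 / Λ ≤ x := by
    rw [hx, div_le_div_iff₀ hΛpos hN']
    linarith
  have hc'0 : 0 < c' := by
    have : 0 ≤ c * (N' / N) ^ (k - 1) := by positivity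
    linarith
  have hbern : 1 - (k : ℝ) * ((k - 1) / N) ≤ (1 - (k - 1) / N) ^ k := by
    have h2 : (-2 : ℝ) ≤ -((k - 1) / N) := by
      have : ((k : ℝ) - 1) / N ≤ 1 := by
        rw [div_le_one hN]
        linarith
      linarith
    have h3 := one_add_mul_le_pow h2 k
    have e1 : 1 + (k : ℝ) * -((k - 1) / N) = 1 - (k : ℝ) * ((k - 1) / N) := by ring
    have e2 : 1 + -(((k : ℝ) - 1) / N) = 1 - (k - 1) / N := by ring
    rw [e1, e2] at h3
    exact h3
  have hp' : x ^ k * (1 - (k : ℝ) * ((k - 1) / N)) ≤ p := by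
    have e : ((N + 1 - k) / N') ^ k = x ^ k * (1 - (k - 1) / N) ^ k := by
      rw [← mul_pow]
      congr 1
      rw [hx]
      field_simp
      ring
    rw [e] at hp
    exact le_trans (mul_le_mul_of_nonneg_left hbern (by positivity)) hp
  have hxk : x ^ k * N' = x ^ (k - 1) * N := by
    obtain ⟨k', rfl⟩ : ∃ k', k = k' + 1 := ⟨k - 1, by omega⟩
    simp only [Nat.add_sub_cancel, pow_succ]
    rw [hx]
    field_simp
  have hxk1 : x ^ (k - 1) ≤ 1 := pow_le_one₀ hx0.le hx1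
  have hxk0 : 0 < x ^ (k - 1) := by positivity
  have hxkΛ : 1 / Λ ^ (k - 1) ≤ x ^ (k - 1) := by
    rw [← one_div_pow]
    exact pow_le_pow_left₀ (by positivity) hxΛ _
  have h1 : c' * x ^ (k - 1) * N - C * k ^ 2 ≤ c' * N' * p := by
    have hle : c' * N' * (x ^ k * (1 - (k : ℝ) * ((k - 1) / N))) ≤ c' * N' * p :=
      mul_le_mul_of_nonneg_left hp' (by positivity)
    refine le_trans ?_ hle
    have e : c' * N' * (x ^ k * (1 - (k : ℝ) * ((k - 1) / N)))
        = c' * x ^ (k - 1) * N - c' * x ^ (k - 1) * (k * (k - 1)) := by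
      have e0 : c' * N' * (x ^ k * (1 - (k : ℝ) * ((k - 1) / N)))
          = c' * (x ^ k * N') * (1 - (k : ℝ) * ((k - 1) / N)) := by ring
      rw [e0, hxk]
      field_simp
    rw [e]
    have hle2 : c' * x ^ (k - 1) * (k * (k - 1)) ≤ C * k ^ 2 := by
      have a1 : c' * x ^ (k - 1) ≤ C := by nlinarith
      have a2 : (k : ℝ) * (k - 1) ≤ k ^ 2 := by nlinarith
      have a4 : (0 : ℝ) ≤ k * (k - 1) := by nlinarith
      calc c' * x ^ (k - 1) * (k * (k - 1)) ≤ C * (k * (k - 1)) :=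
            mul_le_mul_of_nonneg_right a1 a4
        _ ≤ C * k ^ 2 := mul_le_mul_of_nonneg_left a2 (by linarith)
    linarith
  have h2 : c' * N' * p - 1 ≤ M * p := by
    have : (c' * N' - 1) * p ≤ M * p := mul_le_mul_of_nonneg_right hM hp0
    nlinarith
  have h3 : J ≤ (c' - η) * x ^ (k - 1) * N := by
    have e : (N' / N) ^ (k - 1) * x ^ (k - 1) = 1 := by
      rw [← mul_pow, hx]
      have : N' / N * (N / N') = 1 := by field_simp
      rw [this, one_pow]
    have hcle : c ≤ (c' - η) * x ^ (k - 1) := by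
      have h4 : c * (N' / N) ^ (k - 1) ≤ c' - η := by linarith
      calc c = c * (N' / N) ^ (k - 1) * x ^ (k - 1) := by rw [mul_assoc, e, mul_one]
        _ ≤ (c' - η) * x ^ (k - 1) := mul_le_mul_of_nonneg_right h4 hxk0.le
    calc J ≤ c * N := hJ
      _ ≤ (c' - η) * x ^ (k - 1) * N := mul_le_mul_of_nonneg_right hcle hN.le
  have h5 : η / Λ ^ (k - 1) * N ≤ η * x ^ (k - 1) * N := by
    have : η / Λ ^ (k - 1) ≤ η * x ^ (k - 1) := by
      rw [div_eq_mul_one_div]
      exact mul_le_mul_of_nonneg_left hxkΛ hη.le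
    exact mul_le_mul_of_nonneg_right this hN.le
  linarith

/-- Density transfer: for `n ≤ n' ≤ Λ n`, a density `c'` on `n'` variables that exceeds
`c (n'/n)^(k-1)` by a fixed margin is at most as satisfiable as density `c` on `n` variables,
up to an error `K / n`. -/
theorem satProb_transfer (k : ℕ) (hk : 1 ≤ k) (Λ C η : ℝ) (hΛ : 1 ≤ Λ) (hη : 0 < η) :
    ∃ K : ℝ, ∀ (n n' : ℕ) (c c' : ℝ), K ≤ n → n ≤ n' → (n' : ℝ) ≤ Λ * n → 0 ≤ c → c' ≤ C →
      c * ((n' : ℝ) / n) ^ (k - 1) + η ≤ c' →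
      satProb k n' ⌊c' * n'⌋₊ ≤ satProb k n ⌊c * n⌋₊ + K / n := by
  have hΛ0 : 0 < Λ := by linarith
  set θ := η / Λ ^ (k - 1) with hθ
  have hθ0 : 0 < θ := by positivity
  set D := |C| * k ^ 2 + 1 with hD
  have hD0 : 0 < D := by positivity
  have hA0 : 0 ≤ 2 * D / θ := by positivity
  have hB0 : 0 ≤ 4 * |C| * Λ / θ ^ 2 := by positivity
  refine ⟨k + 2 * D / θ + 4 * |C| * Λ / θ ^ 2 + 1, ?_⟩
  intro n n' c c' hK hnn' hΛn hc hc' hgap
  have hk1 : (1 : ℝ) ≤ k := by exact_mod_cast hk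
  have hKk : (k : ℝ) ≤ n := by linarith
  have hkn : k ≤ n := by exact_mod_cast hKk
  have hN : (0 : ℝ) < n := by linarith
  have hnn'R : (n : ℝ) ≤ n' := by exact_mod_cast hnn'
  have hN' : (0 : ℝ) < n' := lt_of_lt_of_le hN hnn'R
  have hc'0 : 0 < c' := by
    have : 0 ≤ c * ((n' : ℝ) / n) ^ (k - 1) := by positivity
    linarith
  have hC : |C| = C := abs_of_nonneg (by linarith)
  set p := (n.choose k : ℝ) / n'.choose k with hp
  have hp0 : 0 ≤ p := by positivity
  have hp1 : p ≤ 1 := by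
    have hpos : (0 : ℝ) < (n'.choose k : ℝ) := by
      exact_mod_cast Nat.choose_pos (le_trans hkn hnn')
    rw [hp, div_le_one hpos]
    exact_mod_cast Nat.choose_le_choose k hnn'
  have hplow : (((n : ℝ) + 1 - k) / n') ^ k ≤ p := by
    have h0 := choose_ratio_lower hkn hnn'
    rw [← div_pow] at h0
    have e : ((n + 1 - k : ℕ) : ℝ) = (n : ℝ) + 1 - k := by
      rw [Nat.cast_sub (by omega)]
      push_cast
      ring
    rw [e] at h0
    exact h0
  set m := ⌊c' * n'⌋₊ with hm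
  set j0 := ⌊c * n⌋₊ with hj0
  have hM : c' * n' - 1 ≤ m := (Nat.sub_one_lt_floor _).le
  have hMle : (m : ℝ) ≤ c' * n' := Nat.floor_le (by positivity)
  have hJ : (j0 : ℝ) ≤ c * n := Nat.floor_le (by positivity)
  have hgapL := gap_lower k hk hN hnn'R hΛn hKk hc hη hc' hgap hp0 hp1 hplow hM hJ
  rw [← hθ] at hgapL
  have hnD : 2 * D ≤ θ * n := by
    have : 2 * D / θ ≤ n := by linarith
    rw [div_le_iff₀ hθ0] at this
    linarith
  have hhalf : θ * n / 2 ≤ m * p - j0 := by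
    rw [hD, hC] at hnD
    linarith
  have hhalf0 : 0 < θ * n / 2 := by positivity
  have hpos : (j0 : ℝ) < m * p := by linarith
  have hmix := satProb_restrict hkn hnn' m
  have h1 : satProb k n' m ≤ satProb k n j0
      + ∑ j ∈ (range (m + 1)).filter (fun j => j < j0), binW m p j := by
    refine le_trans hmix ?_
    have hmx := mix_le hp0 hp1 (fun j => satProb k n j) (satProb_nonneg k n)
      (satProb_le_one k n) (fun j j' h => satProb_anti k n h) j0 (m := m)
    refine le_trans (le_of_eq ?_) hmx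
    refine Finset.sum_congr rfl (fun j _ => ?_)
    unfold binW
    rfl
  have h2 := tail_binW hp0 hp1 hpos
  have h3 : (m : ℝ) * p * (1 - p) / (m * p - j0) ^ 2 ≤ (4 * |C| * Λ / θ ^ 2) / n := by
    have hm0 : (0 : ℝ) ≤ m := Nat.cast_nonneg m
    have hnum1 : (m : ℝ) * p * (1 - p) ≤ m := by
      have hq0 : 0 ≤ 1 - p := by linarith
      have hq1 : 1 - p ≤ 1 := by linarith
      calc (m : ℝ) * p * (1 - p) ≤ (m : ℝ) * 1 * 1 := by
            apply mul_le_mul (mul_le_mul_of_nonneg_left hp1 hm0) hq1 hq0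
            positivity
        _ = m := by ring
    have hnum2 : (m : ℝ) ≤ C * Λ * n := by
      calc (m : ℝ) ≤ c' * n' := hMle
        _ ≤ C * (Λ * n) := mul_le_mul hc' hΛn hN'.le (by linarith)
        _ = C * Λ * n := by ring
    have hnum3 : (0 : ℝ) ≤ m * p * (1 - p) := by
      have hq0 : 0 ≤ 1 - p := by linarith
      positivity
    have hden : (θ * n / 2) ^ 2 ≤ ((m : ℝ) * p - j0) ^ 2 :=
      pow_le_pow_left₀ hhalf0.le hhalf 2
    calc (m : ℝ) * p * (1 - p) / (m * p - j0) ^ 2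
        ≤ (C * Λ * n) / (θ * n / 2) ^ 2 :=
          div_le_div₀ (le_trans hnum3 (le_trans hnum1 hnum2)) (le_trans hnum1 hnum2)
            (by positivity) hden
      _ = (4 * |C| * Λ / θ ^ 2) / n := by
          rw [hC]
          field_simp
          ring
  have h4 : (4 * |C| * Λ / θ ^ 2) / n ≤ (k + 2 * D / θ + 4 * |C| * Λ / θ ^ 2 + 1) / n := by
    apply div_le_div_of_nonneg_right _ hN.le
    linarith
  linarith

end Vale.Agent.Lib.P170
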