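import Vale.Agent.Lib.P170.Tail
import Vale.Agent.Lib.P170.FirstMoment
import Vale.Agent.Lib.P170.Backbone
import Vale.Agent.Lib.P170.Extend

/-!
The unit step transfer: satisfiability with high probability passes from `n` to `n + 1` variables
at the cost of a bounded number of clauses.
-/

namespace Vale.Agent.Lib.P170

open Finset

/-- The normalised mixed count: the probability that `a` random clauses of width `k + 1` and `i`
random clauses of width `k` on `n` variables are simultaneously satisfiable. -/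
noncomputable def mixQ (k n a i : ℕ) : ℝ :=
  (mixN (ClauseSat (k := k + 1) (n := n)) (ClauseSat (k := k) (n := n)) i a Set.univ : ℝ)
    / ((Fintype.card (Clause (k + 1) n) : ℝ) ^ a * (Fintype.card (Clause k n) : ℝ) ^ i)

theorem mixQ_zero (k n a : ℕ) : mixQ k n a 0 = satProb (k + 1) n a := by
  unfold mixQ
  rw [mixN_zero, ← satCount_eq_hcount, satProb_eq]
  simp

theorem mixQ_nonneg (k n a i : ℕ) : 0 ≤ mixQ k n a i := by
  unfold mixQ
  positivity

theorem mixQ_anti_a {k n : ℕ} (hk : k + 1 ≤ n) (a i : ℕ) : mixQ k n (a + 1) i ≤ mixQ k n a i := by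
  unfold mixQ
  have hA : (0 : ℝ) < (Fintype.card (Clause (k + 1) n) : ℝ) := by
    exact_mod_cast card_clause_pos hk
  have hE : (0 : ℝ) < (Fintype.card (Clause k n) : ℝ) := by
    exact_mod_cast card_clause_pos (le_trans (Nat.le_succ k) hk)
  rw [div_le_div_iff₀ (by positivity) (by positivity)]
  have h := mixN_succ_a_le (ClauseSat (k := k + 1) (n := n)) (ClauseSat (k := k) (n := n)) i a
    Set.univ
  have h' : (mixN (ClauseSat (k := k + 1) (n := n)) (ClauseSat (k := k) (n := n)) i (a + 1)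
      Set.univ : ℝ) ≤ (Fintype.card (Clause (k + 1) n) : ℝ)
        * mixN (ClauseSat (k := k + 1) (n := n)) (ClauseSat (k := k) (n := n)) i a Set.univ := by
    exact_mod_cast h
  calc _ ≤ ((Fintype.card (Clause (k + 1) n) : ℝ)
        * mixN (ClauseSat (k := k + 1) (n := n)) (ClauseSat (k := k) (n := n)) i a Set.univ)
        * ((Fintype.card (Clause (k + 1) n) : ℝ) ^ a * (Fintype.card (Clause k n) : ℝ) ^ i) :=
        mul_le_mul_of_nonneg_right h' (by positivity)
    _ = _ := by ring

theorem mixQ_anti_i {k n : ℕ} (hk : k + 1 ≤ n) (a i : ℕ) : mixQ k n a (i + 1) ≤ mixQ k n a i := by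
  unfold mixQ
  have hA : (0 : ℝ) < (Fintype.card (Clause (k + 1) n) : ℝ) := by
    exact_mod_cast card_clause_pos hk
  have hE : (0 : ℝ) < (Fintype.card (Clause k n) : ℝ) := by
    exact_mod_cast card_clause_pos (le_trans (Nat.le_succ k) hk)
  rw [div_le_div_iff₀ (by positivity) (by positivity)]
  have h := mixN_succ_i_le (ClauseSat (k := k + 1) (n := n)) (ClauseSat (k := k) (n := n)) i a
    Set.univ
  have h' : (mixN (ClauseSat (k := k + 1) (n := n)) (ClauseSat (k := k) (n := n)) (i + 1) a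
      Set.univ : ℝ) ≤ (Fintype.card (Clause k n) : ℝ)
        * mixN (ClauseSat (k := k + 1) (n := n)) (ClauseSat (k := k) (n := n)) i a Set.univ := by
    exact_mod_cast h
  calc _ ≤ ((Fintype.card (Clause k n) : ℝ)
        * mixN (ClauseSat (k := k + 1) (n := n)) (ClauseSat (k := k) (n := n)) i a Set.univ)
        * ((Fintype.card (Clause (k + 1) n) : ℝ) ^ a * (Fintype.card (Clause k n) : ℝ) ^ i) :=
        mul_le_mul_of_nonneg_right h' (by positivity)
    _ = _ := by ring

theorem mixQ_anti_a' {k n : ℕ} (hk : k + 1 ≤ n) (i : ℕ) {a a' : ℕ} (ha : a ≤ a') :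
    mixQ k n a' i ≤ mixQ k n a i := by
  induction ha with
  | refl => exact le_rfl
  | step _ ih => exact le_trans (mixQ_anti_a hk _ _) ih

theorem mixQ_anti_i' {k n : ℕ} (hk : k + 1 ≤ n) (a : ℕ) {i i' : ℕ} (hi : i ≤ i') :
    mixQ k n a i' ≤ mixQ k n a i := by
  induction hi with
  | refl => exact le_rfl
  | step _ ih => exact le_trans (mixQ_anti_i hk _ _) ih

theorem mixQ_anti {k n : ℕ} (hk : k + 1 ≤ n) {a a' i i' : ℕ} (ha : a ≤ a') (hi : i ≤ i') :
    mixQ k n a' i' ≤ mixQ k n a i :=
  le_trans (mixQ_anti_a' hk i' ha) (mixQ_anti_i' hk a hi)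

theorem mixQ_le_one {k n : ℕ} (hk : k + 1 ≤ n) (a i : ℕ) : mixQ k n a i ≤ 1 := by
  have h := mixQ_anti hk (Nat.zero_le a) (Nat.zero_le i)
  refine le_trans h ?_
  rw [mixQ_zero, satProb_zero]

/-- The coupling: the satisfiability probability on `n + 1` variables dominates a binomial
mixture of mixed probabilities on `n` variables. -/
theorem satProb_succ_lower {k n : ℕ} (hk : k + 1 ≤ n) (m : ℕ) :
    ∑ a ∈ Finset.range (m + 1),
        binW m ((Fintype.card (Clause (k + 1) n) : ℝ)
          / (Fintype.card (Clause (k + 1) (n + 1)) : ℝ)) a * mixQ k n a (m - a)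
      ≤ satProb (k + 1) (n + 1) m := by
  have hA : (0 : ℝ) < (Fintype.card (Clause (k + 1) n) : ℝ) := by
    exact_mod_cast card_clause_pos hk
  have hE : (0 : ℝ) < (Fintype.card (Clause k n) : ℝ) := by
    exact_mod_cast card_clause_pos (le_trans (Nat.le_succ k) hk)
  have hA' : (Fintype.card (Clause (k + 1) (n + 1)) : ℝ)
      = (Fintype.card (Clause (k + 1) n) : ℝ) + 2 * (Fintype.card (Clause k n) : ℝ) := by
    rw [card_clause_succ]
    push_cast
    ring
  set A : ℝ := (Fintype.card (Clause (k + 1) n) : ℝ) with hAdef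
  set E : ℝ := (Fintype.card (Clause k n) : ℝ) with hEdef
  have hA'pos : 0 < A + 2 * E := by positivity
  have hcount := satCount_lift_lower k n m
  have hcountR : ∑ ij ∈ antidiagonal m, (m.choose ij.1 : ℝ) *
      ((2 : ℝ) ^ ij.2 * (mixN (ClauseSat (k := k + 1) (n := n)) (ClauseSat (k := k) (n := n))
        ij.2 ij.1 Set.univ : ℝ)) ≤ (satCount (k + 1) (n + 1) m : ℝ) := by
    have := (Nat.cast_le (α := ℝ)).mpr hcount
    rw [Nat.cast_sum] at this
    refine le_trans (le_of_eq ?_) this
    refine Finset.sum_congr rfl (fun ij _ => ?_)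
    push_cast
    ring
  rw [Finset.Nat.sum_antidiagonal_eq_sum_range_succ_mk] at hcountR
  rw [satProb_eq, hA', le_div_iff₀ (by positivity)]
  refine le_trans (le_of_eq ?_) hcountR
  rw [Finset.sum_mul]
  refine Finset.sum_congr rfl (fun a ha => ?_)
  have ham : a ≤ m := Nat.lt_succ_iff.mp (Finset.mem_range.mp ha)
  unfold mixQ binW
  rw [← hAdef, ← hEdef]
  have e1 : (A + 2 * E) ^ m = (A + 2 * E) ^ a * (A + 2 * E) ^ (m - a) := by
    rw [← pow_add, Nat.add_sub_cancel' ham]
  have e2 : 1 - A / (A + 2 * E) = 2 * E / (A + 2 * E) := by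
    field_simp
    ring
  rw [e1, e2, div_pow, div_pow, mul_pow]
  field_simp

/-- Dropping the terms of the mixture with more than `i0` clauses of the smaller width. -/
theorem mixture_lower {k n : ℕ} (hk : k + 1 ≤ n) (m i0 : ℕ) {p : ℝ} (h0 : 0 ≤ p) (h1 : p ≤ 1) :
    mixQ k n m i0 - ∑ a ∈ (Finset.range (m + 1)).filter (fun a => a < m - i0), binW m p a
      ≤ ∑ a ∈ Finset.range (m + 1), binW m p a * mixQ k n a (m - a) := by
  have hsplit := Finset.sum_filter_add_sum_filter_not (Finset.range (m + 1))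
    (fun a => a < m - i0) (fun a => binW m p a)
  rw [sum_binW] at hsplit
  have hQ1 := mixQ_le_one hk m i0
  have hQ0 := mixQ_nonneg k n m i0
  have htail0 : 0 ≤ ∑ a ∈ (Finset.range (m + 1)).filter (fun a => a < m - i0), binW m p a :=
    Finset.sum_nonneg (fun a _ => binW_nonneg h0 h1 a)
  calc mixQ k n m i0 - ∑ a ∈ (Finset.range (m + 1)).filter (fun a => a < m - i0), binW m p a
      ≤ (∑ a ∈ (Finset.range (m + 1)).filter (fun a => ¬ a < m - i0), binW m p a)
          * mixQ k n m i0 := by nlinarith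
    _ = ∑ a ∈ (Finset.range (m + 1)).filter (fun a => ¬ a < m - i0),
          binW m p a * mixQ k n m i0 := by rw [Finset.sum_mul]
    _ ≤ ∑ a ∈ (Finset.range (m + 1)).filter (fun a => ¬ a < m - i0),
          binW m p a * mixQ k n a (m - a) := by
        refine Finset.sum_le_sum (fun a ha => ?_)
        have ha1 : a ≤ m :=
          Nat.lt_succ_iff.mp (Finset.mem_range.mp (Finset.mem_filter.mp ha).1)
        have ha2 : ¬ a < m - i0 := (Finset.mem_filter.mp ha).2
        exact mul_le_mul_of_nonneg_left (mixQ_anti hk ha1 (by omega)) (binW_nonneg h0 h1 a)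
    _ ≤ ∑ a ∈ Finset.range (m + 1), binW m p a * mixQ k n a (m - a) := by
        refine Finset.sum_le_sum_of_subset_of_nonneg (Finset.filter_subset _ _)
          (fun a _ _ => mul_nonneg (binW_nonneg h0 h1 a) (mixQ_nonneg k n a _))

/-- Chebyshev bound for the discarded part of the mixture. -/
theorem mixture_tail (m i0 : ℕ) {p : ℝ} (h0 : 0 ≤ p) (h1 : p ≤ 1)
    (hi0 : (m : ℝ) * (1 - p) < i0) :
    ∑ a ∈ (Finset.range (m + 1)).filter (fun a => a < m - i0), binW m p a
      ≤ (m : ℝ) * (1 - p) / ((i0 : ℝ) - m * (1 - p)) ^ 2 := by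
  have hd : 0 < (i0 : ℝ) - m * (1 - p) := by linarith
  have hq0 : 0 ≤ 1 - p := by linarith
  have hm0 : (0 : ℝ) ≤ m := Nat.cast_nonneg m
  rcases le_or_gt i0 m with hle | hgt
  · have hcast : ((m - i0 : ℕ) : ℝ) = (m : ℝ) - i0 := by
      rw [Nat.cast_sub hle]
    have hj : ((m - i0 : ℕ) : ℝ) < m * p := by
      rw [hcast]
      nlinarith
    refine le_trans (tail_binW h0 h1 hj) ?_
    rw [hcast]
    have e : (m : ℝ) * p - ((m : ℝ) - i0) = (i0 : ℝ) - m * (1 - p) := by ring
    rw [e]
    apply div_le_div_of_nonneg_right _ (by positivity)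
    have : (m : ℝ) * p * (1 - p) = (m * (1 - p)) * p := by ring
    rw [this]
    exact mul_le_of_le_one_right (by positivity) h1
  · have hz : m - i0 = 0 := by omega
    rw [hz]
    have : (Finset.range (m + 1)).filter (fun a => a < 0) = ∅ := by
      ext a
      simp
    rw [this, Finset.sum_empty]
    positivity

/-- The step inequality for the normalised mixed probabilities. -/
theorem mixQ_step {k n : ℕ} (hk : k + 1 ≤ n) (t b0 : ℕ)
    (ht : 2 * (Fintype.card (Clause (k + 1) n) - b0.choose (k + 1)) ^ t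
      ≤ Fintype.card (Clause (k + 1) n) ^ t) (a i : ℕ) :
    1 - mixQ k n a (i + 1)
      ≤ 2 * (1 - mixQ k n (a + t) i)
        + (b0.choose k : ℝ) / (Fintype.card (Clause k n) : ℝ) := by
  have hA : (0 : ℝ) < (Fintype.card (Clause (k + 1) n) : ℝ) := by
    exact_mod_cast card_clause_pos hk
  have hE : (0 : ℝ) < (Fintype.card (Clause k n) : ℝ) := by
    exact_mod_cast card_clause_pos (le_trans (Nat.le_succ k) hk)
  have hcount := step_count (ClauseSat (k := k + 1) (n := n)) (ClauseSat (k := k) (n := n))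
    t (b0.choose k) (b0.choose (k + 1))
    (fun A hA => by convert backbone_dichotomy (k + 1) k n b0 A hA) ht i a Set.univ
  have hcountR := (Nat.cast_le (α := ℝ)).mpr hcount
  push_cast at hcountR
  have hQ1 := mixQ_le_one hk a i
  have hB : (0 : ℝ) ≤ (b0.choose k : ℝ) / (Fintype.card (Clause k n) : ℝ) := by positivity
  have key : 2 * mixQ k n (a + t) i
      ≤ mixQ k n a (i + 1)
        + (1 + (b0.choose k : ℝ) / (Fintype.card (Clause k n) : ℝ)) * mixQ k n a i := by
    unfold mixQ
    set A : ℝ := (Fintype.card (Clause (k + 1) n) : ℝ) with hAdef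
    set E : ℝ := (Fintype.card (Clause k n) : ℝ) with hEdef
    set N0 : ℝ := (mixN (ClauseSat (k := k + 1) (n := n)) (ClauseSat (k := k) (n := n)) i
      (a + t) Set.univ : ℝ)
    set N1 : ℝ := (mixN (ClauseSat (k := k + 1) (n := n)) (ClauseSat (k := k) (n := n)) (i + 1)
      a Set.univ : ℝ)
    set N2 : ℝ := (mixN (ClauseSat (k := k + 1) (n := n)) (ClauseSat (k := k) (n := n)) i
      a Set.univ : ℝ)
    have e0 : 2 * (N0 / (A ^ (a + t) * E ^ i))
        = (2 * E * N0) / (A ^ (a + t) * E ^ (i + 1)) := by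
      field_simp
      ring
    have e1 : N1 / (A ^ a * E ^ (i + 1)) + (1 + (b0.choose k : ℝ) / E) * (N2 / (A ^ a * E ^ i))
        = (A ^ t * N1 + (E + (b0.choose k : ℝ)) * A ^ t * N2) / (A ^ (a + t) * E ^ (i + 1)) := by
      field_simp
      ring
    rw [e0, e1]
    exact div_le_div_of_nonneg_right hcountR (by positivity)
  nlinarith

theorem mixQ_iterate {k n : ℕ} (hk : k + 1 ≤ n) (t b0 : ℕ)
    (ht : 2 * (Fintype.card (Clause (k + 1) n) - b0.choose (k + 1)) ^ t
      ≤ Fintype.card (Clause (k + 1) n) ^ t) (i a : ℕ) :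
    1 - mixQ k n a i
      ≤ 2 ^ i * (1 - satProb (k + 1) n (a + i * t))
        + (2 ^ i - 1) * ((b0.choose k : ℝ) / (Fintype.card (Clause k n) : ℝ)) := by
  induction i generalizing a with
  | zero =>
    rw [mixQ_zero]
    simp
  | succ i ih =>
    have h1 := mixQ_step hk t b0 ht a i
    have h2 := ih (a + t)
    have e : a + t + i * t = a + (i + 1) * t := by ring
    rw [e] at h2
    rw [pow_succ]
    nlinarith

/-- The finite form of the unit step transfer. -/
theorem unit_step_finite {k n : ℕ} (hk : k + 1 ≤ n) (m i0 t b0 : ℕ)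
    (ht : 2 * (Fintype.card (Clause (k + 1) n) - b0.choose (k + 1)) ^ t
      ≤ Fintype.card (Clause (k + 1) n) ^ t)
    (hi0 : (m : ℝ) * (1 - (Fintype.card (Clause (k + 1) n) : ℝ)
      / (Fintype.card (Clause (k + 1) (n + 1)) : ℝ)) < i0) :
    1 - satProb (k + 1) (n + 1) m
      ≤ (m : ℝ) * (1 - (Fintype.card (Clause (k + 1) n) : ℝ)
            / (Fintype.card (Clause (k + 1) (n + 1)) : ℝ))
          / ((i0 : ℝ) - m * (1 - (Fintype.card (Clause (k + 1) n) : ℝ)
            / (Fintype.card (Clause (k + 1) (n + 1)) : ℝ))) ^ 2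
        + 2 ^ i0 * (1 - satProb (k + 1) n (m + i0 * t))
        + 2 ^ i0 * ((b0.choose k : ℝ) / (Fintype.card (Clause k n) : ℝ)) := by
  have hA : (0 : ℝ) < (Fintype.card (Clause (k + 1) n) : ℝ) := by
    exact_mod_cast card_clause_pos hk
  have hA' : (0 : ℝ) < (Fintype.card (Clause (k + 1) (n + 1)) : ℝ) := by
    exact_mod_cast card_clause_pos (le_trans hk (Nat.le_succ n))
  have hle : (Fintype.card (Clause (k + 1) n) : ℝ)
      ≤ (Fintype.card (Clause (k + 1) (n + 1)) : ℝ) := by
    exact_mod_cast Fintype.card_le_of_embedding (pushClause (k := k + 1) (Nat.le_succ n))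
  set p : ℝ := (Fintype.card (Clause (k + 1) n) : ℝ)
    / (Fintype.card (Clause (k + 1) (n + 1)) : ℝ) with hp
  have hp0 : 0 ≤ p := by positivity
  have hp1 : p ≤ 1 := by
    rw [hp, div_le_one hA']
    exact hle
  have h1 := satProb_succ_lower hk m
  rw [← hp] at h1
  have h2 := mixture_lower hk m i0 hp0 hp1
  have h3 := mixture_tail m i0 hp0 hp1 hi0
  have h4 := mixQ_iterate hk t b0 ht i0 m
  have hB : (0 : ℝ) ≤ (b0.choose k : ℝ) / (Fintype.card (Clause k n) : ℝ) := by positivity
  have h5 : ((2 : ℝ) ^ i0 - 1) * ((b0.choose k : ℝ) / (Fintype.card (Clause k n) : ℝ))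
      ≤ 2 ^ i0 * ((b0.choose k : ℝ) / (Fintype.card (Clause k n) : ℝ)) := by
    apply mul_le_mul_of_nonneg_right _ hB
    linarith
  linarith

end Vale.Agent.Lib.P170
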