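import Vale.Agent.Lib.P170.UnitStep

/-!
The unit step transfer with explicit choices of the parameters.
-/

namespace Vale.Agent.Lib.P170

open Finset

theorem choose_ratio_upper (j b n : ℕ) (h : b ≤ n) :
    n * b.choose (j + 1) ≤ b * n.choose (j + 1) := by
  rcases Nat.eq_zero_or_pos b with hb | hb
  · subst hb
    simp
  · obtain ⟨b', rfl⟩ : ∃ b', b = b' + 1 := ⟨b - 1, by omega⟩
    obtain ⟨n', rfl⟩ : ∃ n', n = n' + 1 := ⟨n - 1, by omega⟩
    have e1 := Nat.add_one_mul_choose_eq b' j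
    have e2 := Nat.add_one_mul_choose_eq n' j
    have hle : b'.choose j ≤ n'.choose j := Nat.choose_le_choose j (by omega)
    apply Nat.le_of_mul_le_mul_right _ (Nat.succ_pos j)
    calc (n' + 1) * (b' + 1).choose (j + 1) * (j + 1)
        = (n' + 1) * ((b' + 1).choose (j + 1) * (j + 1)) := by ring
      _ = (n' + 1) * ((b' + 1) * b'.choose j) := by rw [← e1]
      _ ≤ (n' + 1) * ((b' + 1) * n'.choose j) :=
          Nat.mul_le_mul_left _ (Nat.mul_le_mul_left _ hle)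
      _ = (b' + 1) * ((n' + 1) * n'.choose j) := by ring
      _ = (b' + 1) * ((n' + 1).choose (j + 1) * (j + 1)) := by rw [e2]
      _ = (b' + 1) * (n' + 1).choose (j + 1) * (j + 1) := by ring

/-- The probability that a random clause of width `k + 1` on `n + 1` variables uses the last
variable is `(k + 1) / (n + 1)`. -/
theorem one_sub_card_ratio {k n : ℕ} (hk : k + 1 ≤ n) :
    1 - (Fintype.card (Clause (k + 1) n) : ℝ) / (Fintype.card (Clause (k + 1) (n + 1)) : ℝ)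
      = ((k : ℝ) + 1) / ((n : ℝ) + 1) := by
  rw [card_clause, card_clause]
  have h := Nat.choose_mul_succ_eq n (k + 1)
  have hc : (0 : ℝ) < ((n + 1).choose (k + 1) : ℝ) := by
    exact_mod_cast Nat.choose_pos (by omega)
  have h2 : (0 : ℝ) < (2 : ℝ) ^ (k + 1) := by positivity
  have hR : (n.choose (k + 1) : ℝ) * ((n : ℝ) + 1)
      = ((n + 1).choose (k + 1) : ℝ) * ((n : ℝ) - k) := by
    have := congrArg (fun x : ℕ => (x : ℝ)) h
    simp only [Nat.cast_mul] at this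
    rw [Nat.cast_sub (by omega)] at this
    push_cast at this
    linarith
  have hn1 : (0 : ℝ) < (n : ℝ) + 1 := by positivity
  push_cast
  rw [sub_eq_iff_eq_add, div_add_div _ _ hn1.ne' (by positivity), eq_div_iff (by positivity)]
  nlinarith

/-- The error term of the smaller width is at most `β` when `b0 ≤ β n`. -/
theorem small_width_error {k n b0 : ℕ} (hk1 : 1 ≤ k) (hkn : k + 1 ≤ n) (hb0n : b0 ≤ n)
    {β : ℝ} (hβ0 : 0 < β) (hb0le : (b0 : ℝ) ≤ β * n) :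
    (b0.choose k : ℝ) / (Fintype.card (Clause k n) : ℝ) ≤ β := by
  obtain ⟨j, rfl⟩ : ∃ j, k = j + 1 := ⟨k - 1, by omega⟩
  have hnpos : (0 : ℝ) < n := by
    have : 0 < n := by omega
    exact_mod_cast this
  rw [card_clause]
  have h1 := choose_ratio_upper j b0 n hb0n
  have h1R : (n : ℝ) * (b0.choose (j + 1) : ℝ) ≤ (b0 : ℝ) * (n.choose (j + 1) : ℝ) := by
    exact_mod_cast h1
  have hck : (0 : ℝ) < (n.choose (j + 1) : ℝ) := by
    exact_mod_cast Nat.choose_pos (le_trans (Nat.le_succ (j + 1)) hkn)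
  have h2 : (1 : ℝ) ≤ (2 : ℝ) ^ (j + 1) := one_le_pow₀ (by norm_num)
  push_cast
  rw [div_le_iff₀ (by positivity)]
  have h3 : (b0.choose (j + 1) : ℝ) ≤ β * (n.choose (j + 1) : ℝ) := by
    have : (n : ℝ) * (b0.choose (j + 1) : ℝ) ≤ (n : ℝ) * (β * (n.choose (j + 1) : ℝ)) := by
      calc (n : ℝ) * (b0.choose (j + 1) : ℝ) ≤ (b0 : ℝ) * (n.choose (j + 1) : ℝ) := h1R
        _ ≤ (β * n) * (n.choose (j + 1) : ℝ) := mul_le_mul_of_nonneg_right hb0le hck.le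
        _ = (n : ℝ) * (β * (n.choose (j + 1) : ℝ)) := by ring
    exact le_of_mul_le_mul_left this hnpos
  calc (b0.choose (j + 1) : ℝ) ≤ β * (n.choose (j + 1) : ℝ) := h3
    _ ≤ β * ((2 : ℝ) ^ (j + 1) * (n.choose (j + 1) : ℝ)) := by
        apply mul_le_mul_of_nonneg_left _ hβ0.le
        nlinarith

/-- Lower bound for the number of clauses of width `k + 1` inside a set of `b0` variables. -/
theorem large_width_kill {k n b0 : ℕ} (hb0k : k + 1 ≤ b0) (hb0n : b0 ≤ n)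
    {β : ℝ} (hβ0 : 0 < β) (hb : β / 2 * n ≤ (b0 : ℝ) - k) :
    (β / 4) ^ (k + 1) * (Fintype.card (Clause (k + 1) n) : ℝ) ≤ (b0.choose (k + 1) : ℝ) := by
  have hkn : k + 1 ≤ n := le_trans hb0k hb0n
  have hnpos : (0 : ℝ) < n := by
    have : 0 < n := by omega
    exact_mod_cast this
  rw [card_clause]
  have h1 := choose_ratio_lower hb0k hb0n
  have hck : (0 : ℝ) < (n.choose (k + 1) : ℝ) := by
    exact_mod_cast Nat.choose_pos hkn
  have e : ((b0 + 1 - (k + 1) : ℕ) : ℝ) = (b0 : ℝ) - k := by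
    rw [Nat.cast_sub (by omega)]
    push_cast
    ring
  rw [e, ← div_pow] at h1
  have h2 : β / 2 ≤ ((b0 : ℝ) - k) / n := by
    rw [le_div_iff₀ hnpos]
    exact hb
  have h3 : (β / 2) ^ (k + 1) ≤ (b0.choose (k + 1) : ℝ) / (n.choose (k + 1) : ℝ) :=
    le_trans (pow_le_pow_left₀ (by positivity) h2 _) h1
  rw [le_div_iff₀ hck] at h3
  have e2 : (β / 4) ^ (k + 1) * (2 : ℝ) ^ (k + 1) = (β / 2) ^ (k + 1) := by
    rw [← mul_pow]
    congr 1
    ring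
  push_cast
  calc (β / 4) ^ (k + 1) * ((2 : ℝ) ^ (k + 1) * (n.choose (k + 1) : ℝ))
      = (β / 2) ^ (k + 1) * (n.choose (k + 1) : ℝ) := by rw [← mul_assoc, e2]
    _ ≤ (b0.choose (k + 1) : ℝ) := h3

/-- From a lower bound on the killing fraction to the hypothesis of the step inequality. -/
theorem kill_pow {a K t : ℕ} {q0 : ℝ} (hK : K ≤ a) (hq : q0 * (a : ℝ) ≤ (K : ℝ))
    (hq1 : q0 ≤ 1) (ht : (1 - q0) ^ t < 1 / 2) : 2 * (a - K) ^ t ≤ a ^ t := by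
  have hR : (2 : ℝ) * ((a : ℝ) - (K : ℝ)) ^ t ≤ (a : ℝ) ^ t := by
    have h1 : (a : ℝ) - (K : ℝ) ≤ (a : ℝ) * (1 - q0) := by linarith
    have h0 : (0 : ℝ) ≤ (a : ℝ) - (K : ℝ) := by
      have : (K : ℝ) ≤ (a : ℝ) := by exact_mod_cast hK
      linarith
    calc (2 : ℝ) * ((a : ℝ) - (K : ℝ)) ^ t
        ≤ 2 * ((a : ℝ) * (1 - q0)) ^ t :=
          mul_le_mul_of_nonneg_left (pow_le_pow_left₀ h0 h1 t) (by norm_num)
      _ = (a : ℝ) ^ t * (2 * (1 - q0) ^ t) := by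
          rw [mul_pow]
          ring
      _ ≤ (a : ℝ) ^ t * 1 :=
          mul_le_mul_of_nonneg_left (by linarith) (by positivity)
      _ = (a : ℝ) ^ t := mul_one _
  have hcast : (((a - K : ℕ)) : ℝ) = (a : ℝ) - (K : ℝ) := Nat.cast_sub hK
  rw [← hcast] at hR
  exact_mod_cast hR

theorem tail_small {lam μ η i0 : ℝ} (hη : 0 < η) (hlam0 : 0 ≤ lam) (hlam : lam ≤ μ)
    (hi0 : μ + 1 + 3 * μ / η ≤ i0) : lam / (i0 - lam) ^ 2 ≤ η / 3 := by
  have hμ0 : 0 ≤ μ := le_trans hlam0 hlam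
  have h3μ : 0 ≤ 3 * μ / η := by positivity
  have hd1 : 1 ≤ i0 - lam := by linarith
  have hd0 : 0 < i0 - lam := by linarith
  rw [div_le_iff₀ (by positivity)]
  have h1 : 3 * μ / η ≤ i0 - lam := by linarith
  have h2 : 3 * μ ≤ η * (i0 - lam) := by
    rw [div_le_iff₀ hη] at h1
    linarith
  have h3 : i0 - lam ≤ (i0 - lam) ^ 2 := by nlinarith
  have h4 : η * (i0 - lam) ≤ η * (i0 - lam) ^ 2 := mul_le_mul_of_nonneg_left h3 hη.le
  linarith

/-- Satisfiability with high probability passes from `n` to `n + 1` variables at the cost of a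
bounded number of clauses (clause width `k + 1 ≥ 2`). -/
theorem sat_transfer (k : ℕ) (hk1 : 1 ≤ k) (cmax η : ℝ) (hc : 0 ≤ cmax) (hη : 0 < η) :
    ∃ (C : ℕ) (δ : ℝ) (n0 : ℕ), 0 < δ ∧ ∀ n : ℕ, n0 ≤ n → ∀ m : ℕ, (m : ℝ) ≤ cmax * n →
      1 - δ ≤ satProb (k + 1) n (m + C) → 1 - η ≤ satProb (k + 1) (n + 1) m := by
  have hμ0 : 0 ≤ cmax * ((k : ℝ) + 1) := by positivity
  obtain ⟨i0, hi0R⟩ : ∃ i0 : ℕ, cmax * ((k : ℝ) + 1) + 1 + 3 * (cmax * ((k : ℝ) + 1)) / η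
      ≤ (i0 : ℝ) := ⟨_, Nat.le_ceil _⟩
  obtain ⟨β, hβ0, hβ1, hβη⟩ : ∃ β : ℝ, 0 < β ∧ β ≤ 1 ∧ 2 ^ i0 * β ≤ η / 3 := by
    refine ⟨min 1 (η / (3 * 2 ^ i0)), lt_min one_pos (by positivity), min_le_left _ _, ?_⟩
    calc (2 : ℝ) ^ i0 * min 1 (η / (3 * 2 ^ i0)) ≤ 2 ^ i0 * (η / (3 * 2 ^ i0)) :=
          mul_le_mul_of_nonneg_left (min_le_right _ _) (by positivity)
      _ = η / 3 := by
          field_simp
  have hq00 : 0 < (β / 4) ^ (k + 1) := by positivity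
  have hq01 : (β / 4) ^ (k + 1) ≤ 1 := by
    apply pow_le_one₀ (by positivity)
    linarith
  obtain ⟨t, ht⟩ := exists_pow_lt_of_lt_one (show (0 : ℝ) < 1 / 2 by norm_num)
    (show 1 - (β / 4) ^ (k + 1) < 1 by linarith)
  refine ⟨i0 * t, η / (3 * 2 ^ i0), max (k + 1) ⌈2 * ((k : ℝ) + 1) / β⌉₊, by positivity, ?_⟩
  intro n hn m hm hP
  have hkn : k + 1 ≤ n := le_trans (le_max_left _ _) hn
  have hnβ : 2 * ((k : ℝ) + 1) ≤ β * n := by
    have h1 : 2 * ((k : ℝ) + 1) / β ≤ (⌈2 * ((k : ℝ) + 1) / β⌉₊ : ℝ) := Nat.le_ceil _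
    have h2 : ((⌈2 * ((k : ℝ) + 1) / β⌉₊ : ℕ) : ℝ) ≤ n := by
      exact_mod_cast le_trans (le_max_right _ _) hn
    have h3 : 2 * ((k : ℝ) + 1) / β ≤ n := le_trans h1 h2
    rw [div_le_iff₀ hβ0] at h3
    linarith
  have hnpos : (0 : ℝ) < n := by
    have : 0 < n := by omega
    exact_mod_cast this
  have hb0le : ((⌊β * n⌋₊ : ℕ) : ℝ) ≤ β * n := Nat.floor_le (by positivity)
  have hb0n : ⌊β * (n : ℝ)⌋₊ ≤ n := by
    have : ((⌊β * n⌋₊ : ℕ) : ℝ) ≤ n := by nlinarith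
    exact_mod_cast this
  have hb0k : k + 1 ≤ ⌊β * (n : ℝ)⌋₊ := by
    apply Nat.le_floor
    push_cast
    have : (0 : ℝ) ≤ k := Nat.cast_nonneg k
    linarith
  have hb0lt : β * n - 1 < ((⌊β * n⌋₊ : ℕ) : ℝ) := Nat.sub_one_lt_floor _
  have hB2 := small_width_error hk1 hkn hb0n hβ0 hb0le
  have hK0 := large_width_kill hb0k hb0n hβ0 (by linarith)
  have hK0le : (⌊β * (n : ℝ)⌋₊).choose (k + 1) ≤ Fintype.card (Clause (k + 1) n) := by
    rw [card_clause]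
    calc (⌊β * (n : ℝ)⌋₊).choose (k + 1) ≤ n.choose (k + 1) := Nat.choose_le_choose _ hb0n
      _ ≤ 2 ^ (k + 1) * n.choose (k + 1) := Nat.le_mul_of_pos_left _ (by positivity)
  have htN := kill_pow hK0le hK0 hq01 ht
  have hratio := one_sub_card_ratio hkn
  have hlam0 : 0 ≤ (m : ℝ) * (((k : ℝ) + 1) / ((n : ℝ) + 1)) := by positivity
  have hlamle : (m : ℝ) * (((k : ℝ) + 1) / ((n : ℝ) + 1)) ≤ cmax * ((k : ℝ) + 1) := by
    have hm0 : (0 : ℝ) ≤ m := Nat.cast_nonneg m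
    have hk0 : (0 : ℝ) ≤ (k : ℝ) + 1 := by positivity
    rw [mul_div_assoc', div_le_iff₀ (by positivity)]
    calc (m : ℝ) * ((k : ℝ) + 1) ≤ (cmax * n) * ((k : ℝ) + 1) :=
          mul_le_mul_of_nonneg_right hm hk0
      _ ≤ cmax * ((k : ℝ) + 1) * ((n : ℝ) + 1) := by nlinarith
  have h3μ : 0 ≤ 3 * (cmax * ((k : ℝ) + 1)) / η := by positivity
  have hi0lt : (m : ℝ) * (1 - (Fintype.card (Clause (k + 1) n) : ℝ)
      / (Fintype.card (Clause (k + 1) (n + 1)) : ℝ)) < i0 := by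
    rw [hratio]
    linarith
  have hfin := unit_step_finite hkn m i0 t ⌊β * (n : ℝ)⌋₊ htN hi0lt
  rw [hratio] at hfin
  have htail := tail_small hη hlam0 hlamle hi0R
  have hP' : 1 - satProb (k + 1) n (m + i0 * t) ≤ η / (3 * 2 ^ i0) := by linarith
  have h2P : (2 : ℝ) ^ i0 * (1 - satProb (k + 1) n (m + i0 * t)) ≤ η / 3 := by
    calc (2 : ℝ) ^ i0 * (1 - satProb (k + 1) n (m + i0 * t))
        ≤ 2 ^ i0 * (η / (3 * 2 ^ i0)) := mul_le_mul_of_nonneg_left hP' (by positivity)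
      _ = η / 3 := by
          field_simp
  have h2B : (2 : ℝ) ^ i0 * (((⌊β * (n : ℝ)⌋₊).choose k : ℝ)
      / (Fintype.card (Clause k n) : ℝ)) ≤ η / 3 :=
    le_trans (mul_le_mul_of_nonneg_left hB2 (by positivity)) hβη
  linarith

end Vale.Agent.Lib.P170
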